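import Vale.Agent.P150.Spec

/-! Sums over configurations, the one-site projections, Ising weights. -/

namespace Vale.Agent.P150

open Function Finset

variable {n : ℕ}

theorem sum_upd (i : Fin n) (g : Cfg n → ℝ) :
    ∑ x, (g (update x i true) + g (update x i false)) = 2 * ∑ x, g x := by
  have hi : Involutive fun x : Cfg n => update x i (!x i) := fun x => by simp
  rw [two_mul]
  nth_rewrite 2 [← Equiv.sum_comp hi.toPerm]
  rw [← sum_add_distrib]
  refine sum_congr rfl fun x _ => ?_
  have e := update_eq_self i x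
  cases h : x i <;> rw [h] at e <;> simp [e, h, add_comm]

theorem sum_le_fib (i : Fin n) {g g' : Cfg n → ℝ} (h : ∀ x, g (update x i true) + g (update x i false) ≤
    g' (update x i true) + g' (update x i false)) : ∑ x, g x ≤ ∑ x, g' x := by
  have := sum_le_sum fun x (_ : x ∈ univ) => h x
  rw [sum_upd, sum_upd] at this
  linarith

theorem Q_upd (w : Cfg n → ℝ) (i : Fin n) (f : Cfg n → ℝ) (x : Cfg n) (a : Bool) :
    Q w i f (update x i a) = Q w i f x := by simp [Q]

theorem sum_Q {w : Cfg n → ℝ} (hw : ∀ x, 0 < w x) (i : Fin n) (f : Cfg n → ℝ) {g : Cfg n → ℝ}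
    (hg : ∀ x a, g (update x i a) = g x) : ∑ x, w x * (Q w i f x * g x) = ∑ x, w x * (f x * g x) := by
  have h : ∀ x, w (update x i true) * (Q w i f (update x i true) * g (update x i true)) +
      w (update x i false) * (Q w i f (update x i false) * g (update x i false)) =
      w (update x i true) * (f (update x i true) * g (update x i true)) +
      w (update x i false) * (f (update x i false) * g (update x i false)) := fun x => by
    have := add_pos (hw (update x i true)) (hw (update x i false))
    simp only [Q_upd, hg]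
    rw [Q]; field_simp
  exact le_antisymm (sum_le_fib i fun x => (h x).le) (sum_le_fib i fun x => (h x).ge)

theorem sum_Q1 {w : Cfg n → ℝ} (hw : ∀ x, 0 < w x) (i : Fin n) (f : Cfg n → ℝ) :
    ∑ x, w x * Q w i f x = ∑ x, w x * f x := by
  simpa using sum_Q hw i f (g := fun _ => 1) fun _ _ => rfl

theorem Q_pos {w f : Cfg n → ℝ} (hw : ∀ x, 0 < w x) (hf : ∀ x, 0 < f x) (i : Fin n) (x : Cfg n) :
    0 < Q w i f x :=
  div_pos (add_pos (mul_pos (hw _) (hf _)) (mul_pos (hw _) (hf _))) (add_pos (hw _) (hw _))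

theorem sum_P {w : Cfg n → ℝ} (hw : ∀ x, 0 < w x) (i : Fin n) (f g : Cfg n → ℝ) :
    ∑ x, w x * (f x * (g x - Q w i g x)) = ∑ x, w x * ((f x - Q w i f x) * (g x - Q w i g x)) := by
  have h1 := sum_Q hw i g (Q_upd w i f)
  have : ∀ x, w x * ((f x - Q w i f x) * (g x - Q w i g x)) = w x * (f x * (g x - Q w i g x)) +
    (w x * (Q w i g x * Q w i f x) - w x * (g x * Q w i f x)) := fun x => by ring
  simp only [this, sum_add_distrib, sum_sub_distrib, h1, sub_self, add_zero]

theorem const_of_upd {g : Cfg n → ℝ} (h : ∀ i x a, g (update x i a) = g x) (x y : Cfg n) : g x = g y := by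
  have : ∀ s : Finset (Fin n), g (s.piecewise y x) = g x := fun s => by
    induction s using Finset.induction_on with
    | empty => simp
    | insert i s _ ih => rw [piecewise_insert, h, ih]
  rw [← this univ, piecewise_univ]

theorem sum_pos' {w : Cfg n → ℝ} (hw : ∀ x, 0 < w x) : 0 < ∑ x, w x :=
  sum_pos (fun x _ => hw x) univ_nonempty

theorem W_pos (J : Fin n → Fin n → ℝ) (h : Fin n → ℝ) (x : Cfg n) : 0 < W J h x := Real.exp_pos _

theorem sp_upd (x : Cfg n) (i k : Fin n) (a : Bool) :
    sp (update x i a k) = sp (x k) + if k = i then sp a - sp (x i) else 0 := by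
  split_ifs with h
  · simp [h]
  · simp [h]

theorem fld_upd (J : Fin n → ℝ) (x : Cfg n) (j : Fin n) (b : Bool) :
    ∑ k, J k * sp (update x j b k) = ∑ k, J k * sp (x k) + J j * (sp b - sp (x j)) := by
  simp [sp_upd, mul_add, sum_add_distrib]

theorem W_upd {J : Fin n → Fin n → ℝ} (hs : ∀ i j, J i j = J j i) (hd : ∀ i, J i i = 0) (h : Fin n → ℝ)
    (x : Cfg n) (i : Fin n) (a : Bool) : W J h (update x i a) =
      W J h x * Real.exp ((sp a - sp (x i)) * (∑ k, J i k * sp (x k) + h i)) := by
  have e : ∀ y : Cfg n, ∑ k, ∑ j, J k j * sp (y k) * sp (y j) =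
      ∑ k, (∑ j, J k j * sp (y j)) * sp (y k) := fun y => by
    simp only [sum_mul]; congr! 2; ring
  rw [W, W, ← Real.exp_add, e, e, fld_upd, fld_upd]
  simp only [fld_upd, add_mul, sum_add_distrib, hd, hs _ i, mul_right_comm _ (sp a - sp (x i)),
    ← sum_mul]
  congr 1
  ring

end Vale.Agent.P150
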