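import Vale.Agent.P150.Spec

/-! The two-spin estimate. -/

namespace Vale.Agent.P150

theorem taylor {p J x y z : ℝ} (hp : |p| ≤ 1 / 10) (hpJ : |p| ≤ 2 * |J|) (hd : |J - p| ≤ 3 * |J| ^ 3)
    (hx : |x| ≤ 1) (hy : |y| ≤ 1) (hz : |z| ≤ 1) :
    |J * (1 - p ^ 2) * (1 + p * x) / ((1 + p * y) * (1 + p * z)) - (p + p ^ 2 * (x - y - z))| ≤
      110 * |J| ^ 3 := by
  have b : ∀ {u : ℝ}, |u| ≤ 1 → 9 / 10 ≤ 1 + p * u := fun {u} hu => by
    have : |p * u| ≤ 1 / 10 := by rw [abs_mul]; nlinarith [abs_nonneg p, abs_nonneg u]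
    linarith [neg_abs_le (p * u)]
  have hy' := b hy
  have hz' := b hz
  set m := x - y - z with hm
  have h1 : |m| ≤ 3 := by rw [abs_le] at *; constructor <;> linarith
  have h2 : |y + z| ≤ 2 := by rw [abs_le] at *; constructor <;> linarith
  have h3 : |y * z| ≤ 1 := by rw [abs_mul]; nlinarith [abs_nonneg y, abs_nonneg z]
  have h4 : |p * x| ≤ 1 / 10 := by rw [abs_mul]; nlinarith [abs_nonneg p, abs_nonneg x]
  have h5 : |m * (y + z)| ≤ 6 := by rw [abs_mul]; nlinarith [abs_nonneg m, abs_nonneg (y + z)]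
  have h6 : |p * m| ≤ 3 / 10 := by rw [abs_mul]; nlinarith [abs_nonneg m, abs_nonneg p]
  have h7 : |p * m * (y * z)| ≤ 3 / 10 := by
    rw [abs_mul]; nlinarith [abs_nonneg (p * m), abs_nonneg (y * z)]
  set R := (-1 - p * x - y * z - m * (y + z) - p * m * (y * z)) / ((1 + p * y) * (1 + p * z)) with hR
  have h8 : |R| ≤ 12 := by
    rw [hR, abs_div, abs_of_pos (show 0 < (1 + p * y) * (1 + p * z) by positivity),
      div_le_iff₀ (by positivity), abs_le]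
    rw [abs_le] at h3 h4 h5 h7
    constructor <;> nlinarith
  have h9 : |p ^ 2 * R| ≤ 12 / 100 := by
    rw [abs_mul, abs_pow]; nlinarith [abs_nonneg p, abs_nonneg R]
  have e : J * (1 - p ^ 2) * (1 + p * x) / ((1 + p * y) * (1 + p * z)) - (p + p ^ 2 * m) =
      p ^ 3 * R + (J - p) * (1 + p * m + p ^ 2 * R) := by
    rw [hR, hm]; field_simp; ring
  have h10 : |1 + p * m + p ^ 2 * R| ≤ 2 := by rw [abs_le] at *; constructor <;> linarith
  have h11 : |p| ^ 3 ≤ (2 * |J|) ^ 3 := by gcongr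
  rw [e]
  refine (abs_add_le _ _).trans ?_
  rw [abs_mul, abs_mul, abs_pow]
  have := mul_le_mul h11 h8 (abs_nonneg _) (by positivity)
  have := mul_le_mul hd h10 (abs_nonneg _) (by positivity)
  nlinarith [pow_nonneg (abs_nonneg J) 3]

theorem sq_le_one' {A : ℝ} (h : |A| ≤ 1) : A ^ 2 ≤ 1 := by
  rw [← sq_abs]; nlinarith [abs_nonneg A]

theorem core0 {k g q X Y C : ℝ} (hk : 9 / 10 ≤ k) (hC : C ^ 2 ≤ 1) (e : X * k = g - q * C * Y) :
    X ^ 2 ≤ 3 * (g ^ 2 + q ^ 2 * Y ^ 2) := by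
  have h1 : (X * k) ^ 2 ≤ 2 * (g ^ 2 + q ^ 2 * Y ^ 2) := by
    rw [e]; nlinarith [sq_nonneg (g + q * C * Y), mul_nonneg (sq_nonneg (q * Y)) (sub_nonneg.2 hC)]
  have h2 : 81 / 100 ≤ k ^ 2 := by nlinarith
  nlinarith [mul_le_mul_of_nonneg_left h2 (sq_nonneg X), sq_nonneg g, sq_nonneg (q * Y)]

theorem core2 {k s g p r u S T Z : ℝ} (hp : |p| ≤ 1 / 10) (hk : 9 / 10 ≤ k) (hk2 : k ≤ 11 / 10)
    (s0 : 0 ≤ s) (s1 : s ≤ 1) (hr : |r| ≤ 1) (hu : |u| ≤ S / 2) (hS : 0 ≤ S)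
    (hT : -(3 * g ^ 2 + 3 / 2 * p ^ 2 * S) ≤ T)
    (e : Z * k = g ^ 2 - p ^ 3 * r ^ 2 * u + k * s * p ^ 2 * T) : -(2 * |p| ^ 3 * S) ≤ Z := by
  have hp2 : p ^ 2 ≤ 1 / 100 := by rw [← sq_abs]; nlinarith [abs_nonneg p]
  have c1 : |p ^ 3 * r ^ 2 * u| ≤ |p| ^ 3 * (S / 2) := by
    rw [abs_mul, abs_mul, abs_pow, mul_assoc, abs_of_nonneg (sq_nonneg r)]
    gcongr
    nlinarith [sq_le_one' hr, abs_nonneg u]
  have c2 : -(2 * p ^ 2 * (3 * g ^ 2 + 3 / 2 * p ^ 2 * S)) ≤ k * s * p ^ 2 * T := by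
    have h2 : k * s ≤ 2 := by nlinarith
    have h3 : 0 ≤ 3 * g ^ 2 + 3 / 2 * p ^ 2 * S := by positivity
    have h4 := mul_le_mul_of_nonneg_left hT (show 0 ≤ k * s * p ^ 2 from
      mul_nonneg (mul_nonneg (by linarith) s0) (sq_nonneg p))
    nlinarith [mul_le_mul_of_nonneg_right h2 (mul_nonneg (sq_nonneg p) h3)]
  have c3 : p ^ 4 ≤ |p| ^ 3 / 10 := by
    rw [show p ^ 4 = |p| ^ 3 * |p| by
      rw [← pow_succ, Even.pow_abs (by decide)]]
    nlinarith [pow_nonneg (abs_nonneg p) 3]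
  refine le_of_mul_le_mul_right ?_ (show 0 < k by linarith)
  rw [e]
  have c4 : 0 ≤ |p| ^ 3 * S := by positivity
  nlinarith [le_abs_self (p ^ 3 * r ^ 2 * u), mul_le_mul_of_nonneg_right c3 hS,
    mul_le_mul_of_nonneg_right hp2 (sq_nonneg g), mul_le_mul_of_nonneg_left hk c4]

theorem core1 {A B p U V U1 V1 : ℝ} (hA : |A| ≤ 1) (hB : |B| ≤ 1) (hp : |p| ≤ 1 / 10)
    (hg : U1 + p * A * (U - B * U1) = V1 + p * B * (V - A * V1)) :
    -(2 * |p| ^ 3 * (U ^ 2 + V ^ 2)) ≤ U1 * V1 - p * (U - B * U1) * (V - A * V1) +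
      (p + p ^ 2 * A * B) * U * V + p ^ 2 * (1 - A ^ 2) * (1 - B ^ 2) * U1 * V1 := by
  have hA2 := sq_le_one' hA
  have hB2 := sq_le_one' hB
  have hAB : |A * B| ≤ 1 := by rw [abs_mul]; nlinarith [abs_nonneg A, abs_nonneg B]
  have hq : |p * (A * B)| ≤ 1 / 10 := by rw [abs_mul]; nlinarith [abs_nonneg p, abs_nonneg (A * B)]
  have hk1 : 9 / 10 ≤ 1 - p * (A * B) := by linarith [le_abs_self (p * (A * B))]
  have hk2 : 1 - p * (A * B) ≤ 11 / 10 := by linarith [neg_abs_le (p * (A * B))]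
  have b1 := core0 (X := U1) (g := U1 + p * A * (U - B * U1)) (q := p) (Y := U) hk1 hA2 (by ring)
  have b2 := core0 (X := V1) (g := U1 + p * A * (U - B * U1)) (q := p) (Y := V) hk1 hB2
    (by rw [hg]; ring)
  refine core2 (g := U1 + p * A * (U - B * U1)) (s := (1 - A ^ 2) * (1 - B ^ 2)) (u := U * V)
    (T := U1 * V1) hp hk1 hk2 (mul_nonneg (by linarith) (by linarith))
    (mul_le_one₀ (by nlinarith) (by linarith) (by nlinarith)) hAB
    (abs_le.2 ⟨by nlinarith [sq_nonneg (U + V)], by nlinarith [sq_nonneg (U - V)]⟩) (by positivity)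
    (by nlinarith [sq_nonneg (U1 + V1)]) ?_
  rw [sq (U1 + _)]
  nth_rewrite 2 [hg]
  ring

theorem err {α e E U V : ℝ} (hα : 0 ≤ α) (he : |e| ≤ E) : -(E * α * (U ^ 2 + V ^ 2) / 2) ≤ α * e * U * V := by
  have h1 : |U * V| ≤ (U ^ 2 + V ^ 2) / 2 :=
    abs_le.2 ⟨by nlinarith [sq_nonneg (U + V)], by nlinarith [sq_nonneg (U - V)]⟩
  have h2 : |e * (U * V)| ≤ E * ((U ^ 2 + V ^ 2) / 2) := by
    rw [abs_mul]; exact mul_le_mul he h1 (abs_nonneg _) ((abs_nonneg _).trans he)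
  nlinarith [mul_le_mul_of_nonneg_left (neg_abs_le (e * (U * V))) hα, mul_le_mul_of_nonneg_left h2 hα]

theorem core4 {A B p J j X Y G u v eu ev Z R T3 T4 : ℝ} (hA : A ^ 2 ≤ 1) (hB : B ^ 2 ≤ 1)
    (hp3 : |p| ^ 3 ≤ 8 * j) (hp2 : p ^ 2 ≤ J ^ 2 + j) (hp1 : J ^ 2 * |p| ≤ 2 * j) (hj : 0 ≤ j)
    (hX : 0 ≤ X) (hY : 0 ≤ Y) (hG : 0 ≤ G) (hu : G * u ^ 2 ≤ X / 2) (hv : G * v ^ 2 ≤ Y / 2)
    (heu : G * eu ≤ X) (hev : G * ev ≤ Y) (hZ : -(2 * |p| ^ 3 * (u ^ 2 + v ^ 2)) ≤ Z)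
    (hR : -(110 * j * (eu + ev)) ≤ R)
    (h3 : 2 * ((A ^ 2 - 3 * |p|) * X + (B ^ 2 - 3 * |p|) * Y) ≤ T3) (h4 : 9 / 5 * (X + Y) ≤ T4) :
    0 ≤ G * (4 * (Z - 2 * p ^ 2 * (A * B) * u * v) + R) + J ^ 2 * T3 + 100 * j * T4 := by
  have a1 := mul_le_mul_of_nonneg_left hZ hG
  have a2 := mul_le_mul_of_nonneg_left hR hG
  have a3 := mul_le_mul_of_nonneg_left h3 (sq_nonneg J)
  have a4 := mul_le_mul_of_nonneg_left h4 hj
  have a5 := mul_le_mul hp3 (add_le_add hu hv) (by positivity) (by positivity)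
  have a6 := mul_le_mul_of_nonneg_left (add_le_add heu hev) hj
  have a7 := mul_le_mul_of_nonneg_right hp1 (add_nonneg hX hY)
  have a8 := mul_le_mul hp2 (add_le_add (mul_le_mul_of_nonneg_left hu (sq_nonneg A))
    (mul_le_mul_of_nonneg_left hv (sq_nonneg B))) (by positivity) (by positivity)
  have a9 := mul_nonneg (mul_nonneg hG (sq_nonneg p)) (sq_nonneg (A * u - B * v))
  have a10 := mul_le_mul_of_nonneg_left (add_le_add (mul_le_mul_of_nonneg_right hA hX)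
    (mul_le_mul_of_nonneg_right hB hY)) hj
  have a11 := mul_nonneg hj (add_nonneg hX hY)
  linarith

theorem side {k A t : ℝ} (hk : 0 < k) (hA : |A| ≤ 1) (ht : |t| ≤ 1 / 10) (w f : Bool → ℝ)
    (hw : ∀ a, w a = k * (1 + A * sp a) * (1 + t * sp a)) : ∃ U γ,
    f true - f false = 2 * (1 + A * t) * U ∧ A ^ 2 - 3 * |t| ≤ γ ∧ 9 / 10 ≤ 1 + A * t ∧
    (∀ a, f a - (w true * f true + w false * f false) / (w true + w false) =
      (sp a - A) * (1 - t * sp a) * U) ∧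
    2 * w true * w false / (w true + w false) ^ 2 * (f true - f false) =
      (1 - A ^ 2) * (1 - t ^ 2) * U / (1 + A * t) ∧
    2 * (1 + A * t) * ((1 - A ^ 2) * (1 - t ^ 2) * U / (1 + A * t)) ^ 2 =
      2 * (1 - A ^ 2) * (1 - t ^ 2) * U ^ 2 * (1 + A * t - γ) := by
  have h1 : |A * t| ≤ |t| := by rw [abs_mul]; nlinarith [abs_nonneg A, abs_nonneg t]
  have h2 : 9 / 10 ≤ 1 + A * t := by linarith [neg_abs_le (A * t)]
  have h3 : 1 + A * t ≠ 0 := by linarith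
  have h4 : w true + w false = 2 * k * (1 + A * t) := by simp only [hw, sp]; simp; ring
  refine ⟨(f true - f false) / (2 * (1 + A * t)), (A + t) ^ 2 / (1 + A * t), by field_simp, ?_, h2,
    fun a => ?_, ?_, by field_simp; ring⟩
  · rw [le_div_iff₀ (by linarith)]
    have := sq_le_one' hA
    rw [abs_le] at h1
    nlinarith [mul_le_mul_of_nonneg_left h2 (abs_nonneg t), sq_nonneg t, sq_nonneg A,
      mul_nonneg (show 0 ≤ 2 - A ^ 2 by linarith) (show 0 ≤ A * t + |t| by linarith),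
      mul_nonneg (sq_nonneg A) (abs_nonneg t)]
  · rw [h4]; cases a <;> simp only [hw, sp] <;> simp <;> field_simp <;> ring
  · rw [h4]; simp only [hw, sp]; simp; field_simp; ring

theorem sp_abs (a : Bool) : |sp a| = 1 := by cases a <;> simp [sp]

theorem sp_sq (a : Bool) : sp a ^ 2 = 1 := by cases a <;> simp [sp]

theorem side2 {A B p : ℝ} (hA : |A| ≤ 1) (hB : |B| ≤ 1) (hp : |p| ≤ 1 / 10) (U γ : Bool → ℝ)
    (g : ∀ b, A ^ 2 - 3 * |p| ≤ γ b) (k : ∀ b, 9 / 10 ≤ 1 + A * (p * sp b)) {E X : ℝ}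
    (hE : E = (1 + B) * U true ^ 2 + (1 - B) * U false ^ 2) (hX : X = (1 - A ^ 2) * (1 - p ^ 2) * E) :
    0 ≤ X ∧ (1 - A ^ 2) * (1 - B ^ 2) * (1 - p ^ 2) * (((1 + B) * U true + (1 - B) * U false) / 2) ^ 2
      ≤ X / 2 ∧ (1 - A ^ 2) * (1 - B ^ 2) * (1 - p ^ 2) * E ≤ X ∧ 2 * ((A ^ 2 - 3 * |p|) * X) ≤
      2 * (1 - A ^ 2) * (1 - p ^ 2) * ((1 + B) * U true ^ 2 * γ true + (1 - B) * U false ^ 2 * γ false) ∧
      9 / 5 * X ≤ 2 * (1 - A ^ 2) * (1 - p ^ 2) *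
        ((1 + B) * U true ^ 2 * (1 + A * p) + (1 - B) * U false ^ 2 * (1 - A * p)) := by
  have a0 : 0 ≤ (1 - A ^ 2) * (1 - p ^ 2) :=
    mul_nonneg (by linarith [sq_le_one' hA]) (by linarith [sq_le_one' (hp.trans (by norm_num))])
  have b2 := sq_le_one' hB
  rw [abs_le] at hB
  have t1 : 0 ≤ (1 + B) * U true ^ 2 := mul_nonneg (by linarith) (sq_nonneg _)
  have t2 : 0 ≤ (1 - B) * U false ^ 2 := mul_nonneg (by linarith) (sq_nonneg _)
  have k1 := k true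
  have k2 := k false
  simp only [sp, if_true, Bool.false_eq_true, if_false] at k1 k2
  have x0 : 0 ≤ X := by rw [hX, hE]; positivity
  have x1 : (1 - A ^ 2) * (1 - B ^ 2) * (1 - p ^ 2) * E ≤ X := by
    nlinarith [mul_nonneg x0 (sq_nonneg B)]
  refine ⟨x0, ?_, x1, ?_, ?_⟩
  · have : (((1 + B) * U true + (1 - B) * U false) / 2) ^ 2 ≤ E / 2 := by
      nlinarith [mul_nonneg (sub_nonneg.2 b2) (sq_nonneg (U true - U false))]
    nlinarith [mul_le_mul_of_nonneg_left this (mul_nonneg a0 (sub_nonneg.2 b2))]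
  · subst hX hE
    linarith [mul_le_mul_of_nonneg_left (g true) (mul_nonneg a0 t1),
      mul_le_mul_of_nonneg_left (g false) (mul_nonneg a0 t2)]
  · subst hX hE
    linarith [mul_le_mul_of_nonneg_left k1 (mul_nonneg a0 t1),
      mul_le_mul_of_nonneg_left k2 (mul_nonneg a0 t2)]

theorem pb {J p : ℝ} (hJ : |J| ≤ 1 / 20) (hd : |J - p| ≤ 3 * |J| ^ 3) : |p| ≤ 2 * |J| ∧ |p| ≤ 1 / 10 ∧
    |p| ^ 3 ≤ 8 * |J| ^ 3 ∧ p ^ 2 ≤ J ^ 2 + |J| ^ 3 ∧ J ^ 2 * |p| ≤ 2 * |J| ^ 3 := by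
  have j0 := abs_nonneg J
  have j2 : |J| ^ 2 ≤ 1 / 400 := by nlinarith
  have j3 : |p| ≤ |J| + 3 * |J| ^ 3 := by linarith [abs_sub_abs_le_abs_sub p J, abs_sub_comm p J]
  have hpJ : |p| ≤ 2 * |J| := by nlinarith
  refine ⟨hpJ, by linarith, ?_, ?_, by rw [← sq_abs J]; nlinarith⟩
  · calc _ ≤ (2 * |J|) ^ 3 := by gcongr
      _ = _ := by ring
  · rw [← sq_abs p, ← sq_abs J]
    have h := pow_nonneg j0 3
    have : |J| ^ 3 ≤ 1 / 8000 := by nlinarith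
    nlinarith [mul_self_le_mul_self (abs_nonneg p) j3, mul_le_mul_of_nonneg_left hJ h,
      mul_le_mul_of_nonneg_left this h]

theorem m1 {A : ℝ} (h : |A| ≤ 1) (a : Bool) : |A * sp a| ≤ 1 := by rwa [abs_mul, sp_abs, mul_one]

theorem loc0 {A B J p : ℝ} (hA : |A| ≤ 1) (hB : |B| ≤ 1) (hJ : |J| ≤ 1 / 20)
    (hd : |J - p| ≤ 3 * |J| ^ 3) (U V γ γ' : Bool → ℝ) (e : Bool → Bool → ℝ)
    (u2 : ∀ b, A ^ 2 - 3 * |p| ≤ γ b) (u3 : ∀ b, 9 / 10 ≤ 1 + A * (p * sp b))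
    (v2 : ∀ b, B ^ 2 - 3 * |p| ≤ γ' b) (v3 : ∀ b, 9 / 10 ≤ 1 + B * (p * sp b))
    (e1 : ∀ a b, |e a b| ≤ 110 * |J| ^ 3)
    (hg : (1 + A * p) * U true - (1 - A * p) * U false = (1 + B * p) * V true - (1 - B * p) * V false) :
    0 ≤ (1 - A ^ 2) * (1 - B ^ 2) * (1 - p ^ 2) * ∑ a, ∑ b, ((sp a * sp b - p) * U b * V a +
      (1 + A * sp a) * (1 + B * sp b) * (p + p ^ 2 * (sp a * sp b - A * sp b - B * sp a) + e a b) *
        U b * V a) + 2 * (1 - p ^ 2) * ∑ b, ((1 - A ^ 2) * (1 + B * sp b) * U b ^ 2 *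
          (J ^ 2 * γ b + 100 * |J| ^ 3 * (1 + A * (p * sp b))) + (1 - B ^ 2) * (1 + A * sp b) * V b ^ 2 *
          (J ^ 2 * γ' b + 100 * |J| ^ 3 * (1 + B * (p * sp b)))) := by
  obtain ⟨-, hp, p1, p2, p3⟩ := pb hJ hd
  obtain ⟨x1, x2, x3, x4, x5⟩ := side2 hA hB hp U γ u2 u3 rfl rfl
  obtain ⟨z1, z2, z3, z4, z5⟩ := side2 hB hA hp V γ' v2 v3 rfl rfl
  rw [mul_comm (1 - B ^ 2) (1 - A ^ 2)] at z2 z3
  have r := fun a b => err (U := U b) (V := V a) (α := (1 + A * sp a) * (1 + B * sp b))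
    (mul_nonneg (by linarith [neg_abs_le (A * sp a), m1 hA a])
      (by linarith [neg_abs_le (B * sp b), m1 hB b])) (e1 a b)
  have hZ := core1 (U := ((1 + B) * U true + (1 - B) * U false) / 2) (U1 := (U true - U false) / 2)
    (V := ((1 + A) * V true + (1 - A) * V false) / 2) (V1 := (V true - V false) / 2) hA hB hp
    (by linear_combination hg / 2)
  refine (core4 (R := ∑ a, ∑ b, (1 + A * sp a) * (1 + B * sp b) * e a b * U b * V a)
    (sq_le_one' hA) (sq_le_one' hB) p1 p2 p3 (by positivity) x1 z1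
    (mul_nonneg (mul_nonneg (by linarith [sq_le_one' hA]) (by linarith [sq_le_one' hB]))
      (by linarith [sq_le_one' (hp.trans (by norm_num))])) x2 z2 x3 z3 hZ ?_
      ((mul_add ..).le.trans (add_le_add x4 z4)) ((mul_add ..).le.trans (add_le_add x5 z5))).trans_eq ?_
  · have r1 := r true true; have r2 := r true false; have r3 := r false true; have r4 := r false false
    simp only [Fintype.sum_bool, sp, if_true, Bool.false_eq_true, if_false] at r1 r2 r3 r4 ⊢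
    linarith
  · simp only [Fintype.sum_bool, sp, if_true, Bool.false_eq_true, if_false]
    ring

theorem loc {c A B J p : ℝ} (hc : 0 < c) (hA : |A| < 1) (hB : |B| < 1) (hJ : |J| ≤ 1 / 20)
    (hd : |J - p| ≤ 3 * |J| ^ 3) (w f P P' : Bool → Bool → ℝ) (y y' : Bool → ℝ)
    (hw : ∀ a b, w a b = c * (1 + A * sp a) * (1 + B * sp b) * (1 + p * (sp a * sp b)))
    (hP : ∀ a b, P a b = f a b - (w true b * f true b + w false b * f false b) / (w true b + w false b))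
    (hP' : ∀ a b, P' a b = f a b - (w a true * f a true + w a false * f a false) / (w a true + w a false))
    (hy : ∀ b, y b = 2 * w true b * w false b / (w true b + w false b) ^ 2 * (f true b - f false b))
    (hy' : ∀ a, y' a = 2 * w a true * w a false / (w a true + w a false) ^ 2 * (f a true - f a false)) :
    0 ≤ ∑ a, ∑ b, w a b * (P a b * P' a b + J * (y b * y' a) +
      J ^ 2 * (P a b ^ 2 - y b ^ 2 + (P' a b ^ 2 - y' a ^ 2)) + 100 * |J| ^ 3 * (P a b ^ 2 + P' a b ^ 2)) := by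
  obtain ⟨hpJ, hp, -⟩ := pb hJ hd
  have pos : ∀ {A : ℝ}, |A| < 1 → ∀ a, 0 < c * (1 + A * sp a) := fun {A} h a => by
    have : |A * sp a| < 1 := by rwa [abs_mul, sp_abs, mul_one]
    exact mul_pos hc (by linarith [(abs_lt.1 this).1])
  have ap : ∀ a, |p * sp a| = |p| := fun a => by rw [abs_mul, sp_abs, mul_one]
  choose U γ u1 u2 u3 u4 u5 u6 using fun b => side (pos hB b) hA.le ((ap b).trans_le hp)
    (fun a => w a b) (fun a => f a b) fun a => by rw [hw]; ring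
  choose V γ' v1 v2 v3 v4 v5 v6 using fun a => side (pos hA a) hB.le ((ap a).trans_le hp)
    (fun b => w a b) (fun b => f a b) fun b => by rw [hw]; ring
  simp only [ap] at u2 v2
  replace u4 := fun b a => (hP a b).trans (u4 b a)
  replace v4 := fun a b => (hP' a b).trans (v4 a b)
  replace u5 := fun b => (hy b).trans (u5 b)
  replace v5 := fun a => (hy' a).trans (v5 a)
  simp only [← u5] at u6
  simp only [← v5] at v6
  obtain ⟨e, e1, e2⟩ : ∃ e : Bool → Bool → ℝ, (∀ a b, |e a b| ≤ 110 * |J| ^ 3) ∧ ∀ a b,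
      (1 + p * (sp a * sp b)) * J * (y b * y' a) = (1 - A ^ 2) * (1 - B ^ 2) * (1 - p ^ 2) *
        (p + p ^ 2 * (sp a * sp b - A * sp b - B * sp a) + e a b) * U b * V a := by
    refine ⟨_, fun a b => taylor (x := sp a * sp b) hp hpJ hd (m1 (sp_abs a).le b) (m1 hA.le b)
      (m1 hB.le a), fun a b => ?_⟩
    have h1 : 1 + p * (A * sp b) ≠ 0 := by linarith [u3 b]
    have h2 : 1 + p * (B * sp a) ≠ 0 := by linarith [v3 a]
    rw [u5, v5, mul_pow, mul_pow, sp_sq, sp_sq, mul_left_comm A, mul_left_comm B]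
    field_simp
    ring
  have key := loc0 hA.le hB.le hJ hd U V γ γ' e u2 u3 v2 v3 e1 (by
    have a1 := u1 true; have a2 := u1 false; have a3 := v1 true; have a4 := v1 false
    simp only [sp, if_true, Bool.false_eq_true, if_false] at a1 a2 a3 a4
    linarith)
  refine (mul_nonneg hc.le key).trans_eq ?_
  have a1 := e2 true true; have a2 := e2 true false; have a3 := e2 false true
  have a4 := e2 false false; have b1 := u6 true; have b2 := u6 false; have b3 := v6 true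
  have b4 := v6 false
  simp only [Fintype.sum_bool, u4, v4, hw]
  simp only [sp, if_true, Bool.false_eq_true, if_false] at a1 a2 a3 a4 b1 b2 b3 b4 ⊢
  linear_combination c * (-(1 + A) * (1 + B) * a1 - (1 + A) * (1 - B) * a2 - (1 - A) * (1 + B) * a3 -
    (1 - A) * (1 - B) * a4 + J ^ 2 * ((1 + B) * b1 + (1 - B) * b2 + (1 + A) * b3 + (1 - A) * b4))

end Vale.Agent.P150
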