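import Vale.Agent.P150.Basic
import Vale.Agent.P150.Two

/-! Discrete Bochner argument: the Poincare inequality. -/

namespace Vale.Agent.P150

open Function Finset

variable {n : ℕ}

theorem exp_sp (H : ℝ) (a : Bool) : Real.exp (H * sp a) = Real.cosh H * (1 + Real.tanh H * sp a) := by
  have := (Real.cosh_pos H).ne'
  rw [Real.tanh_eq_sinh_div_cosh]
  cases a
  · simp only [sp, Bool.false_eq_true, if_false, mul_neg, mul_one, ← Real.cosh_sub_sinh]
    field_simp; ring
  · simp only [sp, if_true, mul_one, ← Real.cosh_add_sinh]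
    field_simp

theorem tanh_near {J : ℝ} (hJ : |J| ≤ 1 / 20) : |J - Real.tanh J| ≤ 3 * |J| ^ 3 := by
  have h1 := Real.exp_bound (x := J) (by linarith) (n := 3) (by norm_num)
  have h2 := Real.exp_bound (x := -J) (by rw [abs_neg]; linarith) (n := 3) (by norm_num)
  norm_num [sum_range_succ, Nat.factorial] at h1 h2
  have hc := Real.one_le_cosh J
  have e : J - Real.tanh J = (J ^ 3 / 2 + ((J - 1) / 2 * (Real.exp J - (1 + J + J ^ 2 / 2)) +
      (J + 1) / 2 * (Real.exp (-J) - (1 + -J + J ^ 2 / 2)))) / Real.cosh J := by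
    rw [Real.tanh_eq_sinh_div_cosh, eq_div_iff (by linarith), sub_mul, div_mul_cancel₀ _ (by linarith),
      Real.cosh_eq, Real.sinh_eq]
    ring
  have b1 : |(J - 1) / 2| ≤ 1 := by rw [abs_le] at *; constructor <;> linarith
  have b2 : |(J + 1) / 2| ≤ 1 := by rw [abs_le] at *; constructor <;> linarith
  have h0 := pow_nonneg (abs_nonneg J) 3
  rw [e, abs_div, abs_of_pos (Real.cosh_pos J)]
  refine (div_le_self (abs_nonneg _) hc).trans 
    ((abs_add_le _ _).trans ((add_le_add le_rfl (abs_add_le _ _)).trans ?_))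
  rw [abs_mul, abs_mul, abs_div, abs_pow, abs_two]
  have := mul_le_mul b1 h1 (abs_nonneg _) zero_le_one
  have := mul_le_mul b2 h2 (abs_nonneg _) zero_le_one
  linarith

/-- the one-site covariance of the spin with `f` -/
noncomputable def Yv (w : Cfg n → ℝ) (i : Fin n) (f : Cfg n → ℝ) (x : Cfg n) : ℝ :=
  2 * w (update x i true) * w (update x i false) / (w (update x i true) + w (update x i false)) ^ 2 *
    (f (update x i true) - f (update x i false))

theorem Y_le {w : Cfg n → ℝ} (hw : ∀ x, 0 < w x) (i : Fin n) (f : Cfg n → ℝ) :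
    ∑ x, w x * Yv w i f x ^ 2 ≤ ∑ x, w x * (f x - Q w i f x) ^ 2 := by
  refine sum_le_fib i fun x => ?_
  simp only [Yv, Q, update_idem]
  have h1 := hw (update x i true)
  have h2 := hw (update x i false)
  generalize w (update x i true) = a at *
  generalize w (update x i false) = b at *
  generalize f (update x i true) = u
  generalize f (update x i false) = v
  have : 0 ≤ a * b * (u - v) ^ 2 * (a - b) ^ 2 / (a + b) ^ 3 := by positivity
  refine sub_nonneg.1 (this.trans_eq ?_)
  field_simp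
  ring

theorem pair {J : Fin n → Fin n → ℝ} (hs : ∀ i j, J i j = J j i) (hd : ∀ i, J i i = 0) (h : Fin n → ℝ)
    (f : Cfg n → ℝ) {i j : Fin n} (hij : i ≠ j) (hJ : |J i j| ≤ 1 / 20) {w : Cfg n → ℝ} (hw : w = W J h) :
    0 ≤ ∑ x, w x * ((f x - Q w i f x) * (f x - Q w j f x) + J i j * (Yv w i f x * Yv w j f x) +
      J i j ^ 2 * ((f x - Q w i f x) ^ 2 - Yv w i f x ^ 2 + ((f x - Q w j f x) ^ 2 - Yv w j f x ^ 2)) +
      100 * |J i j| ^ 3 * ((f x - Q w i f x) ^ 2 + (f x - Q w j f x) ^ 2)) := by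
  set F : Cfg n → ℝ := fun x => w x * _ with hF
  change 0 ≤ ∑ x, F x
  have key : ∀ x, 0 ≤ ∑ a, ∑ b, F (update (update x j b) i a) := fun x => by
    set H := ∑ k, J i k * sp (x k) + h i - J i j * sp (x j)
    set H' := ∑ k, J j k * sp (x k) + h j - J i j * sp (x i)
    refine loc (c := w x * Real.exp (-(H * sp (x i) + H' * sp (x j) + J i j * (sp (x i) * sp (x j)))) *
      Real.cosh H * Real.cosh H' * Real.cosh (J i j))
      (by have := W_pos J h x; rw [hw]; positivity) (Real.abs_tanh_lt_one H) (Real.abs_tanh_lt_one H')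
      hJ (tanh_near hJ) (fun a b => w (update (update x j b) i a)) (fun a b => f (update (update x j b) i a))
      (fun a b => f (update (update x j b) i a) - Q w i f (update (update x j b) i a))
      (fun a b => f (update (update x j b) i a) - Q w j f (update (update x j b) i a))
      (fun b => Yv w i f (update x j b)) (fun a => Yv w j f (update x i a)) (fun a b => ?_)
      (fun a b => by simp [Q]) (fun a b => by simp [Q, update_comm hij.symm])
      (fun a => by simp [Yv]) (fun a => by simp [Yv, update_comm hij.symm]) |>.trans_eq ?_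
    · have e : sp a * sp b = sp (a == b) := by cases a <;> cases b <;> simp [sp]
      have e1 := exp_sp (J i j) (a == b)
      rw [← e] at e1
      have : w (update (update x j b) i a) = w x *
          Real.exp (-(H * sp (x i) + H' * sp (x j) + J i j * (sp (x i) * sp (x j)))) *
          Real.exp (H * sp a) * Real.exp (H' * sp b) * Real.exp (J i j * (sp a * sp b)) := by
        rw [hw, W_upd hs hd, W_upd hs hd, fld_upd, update_of_ne hij]
        simp only [mul_assoc, ← Real.exp_add, H, H']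
        congr 2
        ring
      rw [this, exp_sp, exp_sp, e1]
      ring
    · simp [hF, Yv, update_comm hij.symm]
  have h1 := sum_nonneg fun x (_ : x ∈ univ) => key x
  have h2 := sum_upd j fun x => F (update x i true) + F (update x i false)
  rw [sum_upd] at h2
  simp only [Fintype.sum_bool, sum_add_distrib] at h1 h2
  linarith

theorem boch {J : Fin n → Fin n → ℝ} {l η : ℝ} (hJ : Good J l η) (hη : η ≤ 1 / 20) (h : Fin n → ℝ)
    (f : Cfg n → ℝ) {w : Cfg n → ℝ} (hw : w = W J h) :
    (1 - l - 100 * η * l) * Dir w f ≤ ∑ x, w x * (∑ i, (f x - Q w i f x)) ^ 2 := by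
  have wp : ∀ x, 0 < w x := hw ▸ W_pos J h
  set D : Fin n → ℝ := fun i => ∑ x, w x * (f x - Q w i f x) ^ 2 with hD
  set Y : Fin n → ℝ := fun i => ∑ x, w x * Yv w i f x ^ 2 with hY
  have h1 : ∀ i j, (if i = j then D i else 0) ≤ ∑ x, w x * ((f x - Q w i f x) * (f x - Q w j f x)) +
      ∑ x, w x * (J i j * Yv w i f x * Yv w j f x) + (J i j ^ 2 * (D i - Y i) + J j i ^ 2 * (D j - Y j)) +
      100 * η * (J i j ^ 2 * D i + J j i ^ 2 * D j) := fun i j => by
    split_ifs with e
    · subst e; simp [hJ.diag, hD, sq]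
    · have h0 : ∀ i, 0 ≤ D i := fun i => sum_nonneg fun x _ => mul_nonneg (wp x).le (sq_nonneg _)
      have h3 : |J i j| ^ 3 ≤ η * J i j ^ 2 := by
        rw [pow_succ', sq_abs]; exact mul_le_mul_of_nonneg_right (hJ.small i j) (sq_nonneg _)
      have h4 := mul_le_mul_of_nonneg_right h3 (add_nonneg (h0 i) (h0 j))
      refine (pair hJ.symm hJ.diag h f e ((hJ.small i j).trans hη) hw).trans ?_
      rw [hJ.symm j i]
      have : ∀ x, w x * ((f x - Q w i f x) * (f x - Q w j f x) + J i j * (Yv w i f x * Yv w j f x) +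
        J i j ^ 2 * ((f x - Q w i f x) ^ 2 - Yv w i f x ^ 2 + ((f x - Q w j f x) ^ 2 - Yv w j f x ^ 2)) +
        100 * |J i j| ^ 3 * ((f x - Q w i f x) ^ 2 + (f x - Q w j f x) ^ 2)) =
        w x * ((f x - Q w i f x) * (f x - Q w j f x)) + w x * (J i j * Yv w i f x * Yv w j f x) +
        (J i j ^ 2 * (w x * (f x - Q w i f x) ^ 2 - w x * Yv w i f x ^ 2) +
        J i j ^ 2 * (w x * (f x - Q w j f x) ^ 2 - w x * Yv w j f x ^ 2)) + 100 * |J i j| ^ 3 *
        (w x * (f x - Q w i f x) ^ 2 + w x * (f x - Q w j f x) ^ 2) := fun x => by ring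
      simp only [this, sum_add_distrib, ← mul_sum, sum_sub_distrib]
      linarith
  have h2 := sum_le_sum fun i (_ : i ∈ univ) => sum_le_sum fun j (_ : j ∈ univ) => h1 i j
  have row : ∀ a : Fin n → ℝ, (∀ i, 0 ≤ a i) →
      ∑ i, ∑ j, (J i j ^ 2 * a i + J j i ^ 2 * a j) ≤ l * ∑ i, a i := fun a ha => by
    simp only [sum_add_distrib]
    nth_rewrite 2 [sum_comm]
    have := sum_le_sum fun i (_ : i ∈ univ) => mul_le_mul_of_nonneg_right (hJ.row i) (ha i)
    simp only [← sum_mul, ← mul_sum] at this ⊢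
    linarith
  have r1 := row (fun i => D i - Y i) fun i => sub_nonneg.2 (Y_le wp i f)
  have r2 := row D fun i => sum_nonneg fun x _ => mul_nonneg (wp x).le (sq_nonneg _)
  have sw : ∀ g : Fin n → Fin n → Cfg n → ℝ, ∑ i, ∑ j, ∑ x, w x * g i j x =
      ∑ x, w x * ∑ i, ∑ j, g i j x := fun g => by
    simp only [mul_sum]
    rw [sum_comm (s := (univ : Finset (Cfg n)))]
    exact sum_congr rfl fun i _ => sum_comm
  have r3 : ∑ x, w x * ∑ i, ∑ j, J i j * Yv w i f x * Yv w j f x ≤ l * ∑ i, Y i := by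
    simp only [hY]
    rw [sum_comm, mul_sum]
    refine sum_le_sum fun x _ => ?_
    rw [← mul_sum, mul_left_comm]
    exact mul_le_mul_of_nonneg_left ((le_abs_self _).trans (hJ.op _)) (wp x).le
  rcases isEmpty_or_nonempty (Fin n) with hn | ⟨⟨i⟩⟩
  · simp [Dir]
  have η0 : 0 ≤ η := (abs_nonneg _).trans (hJ.small i i)
  have r4 := mul_le_mul_of_nonneg_left r2 η0
  simp only [sum_ite_eq, mem_univ, if_true] at h2
  rw [sum_sub_distrib] at r1
  simp only [sum_add_distrib (s := (univ : Finset (Fin n))), ← mul_sum, sw, ← sum_mul, ← sq] at h2 r1 r4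
  change _ * ∑ i, D i ≤ _
  linarith

theorem poinc {w : Cfg n → ℝ} (hw : ∀ x, 0 < w x) {κ : ℝ} (hκ : 0 < κ)
    (hB : ∀ g, κ * Dir w g ≤ ∑ x, w x * (∑ i, (g x - Q w i g x)) ^ 2) (f : Cfg n → ℝ)
    (hf : ∑ x, w x * f x = 0) : κ * ∑ x, w x * f x ^ 2 ≤ Dir w f := by
  have sa : ∀ f g : Cfg n → ℝ, ∑ x, w x * (f x * ∑ i, (g x - Q w i g x)) =
      ∑ i, ∑ x, w x * ((f x - Q w i f x) * (g x - Q w i g x)) := fun f g => by
    simp only [mul_sum, ← sum_P hw]; exact sum_comm
  let T : (Cfg n → ℝ) →ₗ[ℝ] Cfg n → ℝ :=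
    { toFun := fun g x => ∑ i, (g x - Q w i g x) + ∑ y, w y * g y
      map_add' := fun g g' => by
        ext x; simp only [Q, Pi.add_apply, mul_add, sum_add_distrib, sum_sub_distrib, add_div]; ring
      map_smul' := fun c g => by
        ext x
        simp only [Q, Pi.smul_apply, smul_eq_mul, RingHom.id_apply, mul_add, mul_sum]
        congr! 2 <;> ring }
  have mean : ∀ g, ∑ x, w x * T g x = 0 → ∑ y, w y * g y = 0 := fun g e => by
    have h1 : ∑ x, w x * ∑ i, (g x - Q w i g x) = 0 := by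
      simp only [mul_sum, mul_sub]
      rw [sum_comm]
      simp [sum_Q1 hw]
    simp only [T, LinearMap.coe_mk, AddHom.coe_mk, mul_add, sum_add_distrib, h1, ← sum_mul] at e
    simpa [(sum_pos' hw).ne'] using e
  have inj : Injective T := (injective_iff_map_eq_zero T).2 fun g e => by
    have h1 := mean g (by simp [e])
    have h2 : ∀ x, ∑ i, (g x - Q w i g x) = 0 := fun x => by simpa [T, h1] using congrFun e x
    have h3 := sa g g
    simp only [h2, mul_zero, sum_const_zero, ← sq] at h3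
    have n1 : ∀ i x, 0 ≤ w x * (g x - Q w i g x) ^ 2 := fun i x => mul_nonneg (hw x).le (sq_nonneg _)
    have h4 : ∀ i x, g x = Q w i g x := fun i x => by
      have := (sum_eq_zero_iff_of_nonneg fun x _ => n1 i x).1 ((sum_eq_zero_iff_of_nonneg
        fun i _ => sum_nonneg fun x _ => n1 i x).1 h3.symm i (mem_univ _)) x (mem_univ _)
      simpa [(hw x).ne', sub_eq_zero] using this
    have h5 := const_of_upd (g := g) fun i x a => by rw [h4 i, Q_upd, ← h4]
    ext x
    simp only [h5 _ x, ← sum_mul] at h1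
    simpa [(sum_pos' hw).ne'] using h1
  obtain ⟨g, rfl⟩ := LinearMap.injective_iff_surjective.1 inj f
  have h1 := mean g hf
  have h2 : ∀ x, ∑ i, (g x - Q w i g x) = T g x := fun x => by simp [T, h1]
  have h3 := sa (T g) g
  have h4 := hB g
  simp only [h2, ← sq] at h3 h4
  have h5 : 2 * κ * ∑ i, ∑ x, w x * ((T g x - Q w i (T g) x) * (g x - Q w i g x)) ≤
      Dir w (T g) + κ ^ 2 * Dir w g := by
    simp only [Dir, mul_sum, ← sum_add_distrib]
    refine sum_le_sum fun i _ => sum_le_sum fun x _ => ?_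
    nlinarith [mul_nonneg (hw x).le (sq_nonneg (T g x - Q w i (T g) x - κ * (g x - Q w i g x)))]
  rw [← h3] at h5
  nlinarith

end Vale.Agent.P150
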