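import Mathlib

/-! The Sherrington-Kirkpatrick model and its heat-bath dynamics. -/

namespace Vale.Agent.P150

open MeasureTheory ProbabilityTheory

variable {n : ℕ}

/-- the spin value of a bit -/
def sp (b : Bool) : ℝ := if b then 1 else -1

/-- pairs `i < j` -/
abbrev Pair (n : ℕ) := {p : Fin n × Fin n // p.1 < p.2}

/-- the law of the disorder -/
noncomputable def disorder (n : ℕ) : Measure (Pair n → ℝ) := Measure.pi fun _ => gaussianReal 0 1

/-- the symmetric coupling matrix with zero diagonal -/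
def coup (g : Pair n → ℝ) (i j : Fin n) : ℝ :=
  if h : i < j then g ⟨(i, j), h⟩ else if h : j < i then g ⟨(j, i), h⟩ else 0

/-- the Boltzmann weight -/
noncomputable def wt (β : ℝ) (g : Pair n → ℝ) (x : Fin n → Bool) : ℝ :=
  Real.exp (β / √n * ∑ p : Pair n, g p * sp (x p.1.1) * sp (x p.1.2))

/-- the Gibbs measure -/
noncomputable def gibbs (β : ℝ) (g : Pair n → ℝ) (x : Fin n → Bool) : ℝ :=
  wt β g x / ∑ y, wt β g y

/-- the local field -/
noncomputable def field (β : ℝ) (g : Pair n → ℝ) (x : Fin n → Bool) (i : Fin n) : ℝ :=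
  β / √n * ∑ j, coup g i j * sp (x j)

/-- the kernel resampling the spin at `i` -/
noncomputable def resample (β : ℝ) (g : Pair n → ℝ) (i : Fin n) :
    Matrix (Fin n → Bool) (Fin n → Bool) ℝ :=
  Matrix.of fun x y => if ∀ j, j ≠ i → y j = x j then
    Real.exp (sp (y i) * field β g x i) / (2 * Real.cosh (field β g x i)) else 0

/-- the generator of the heat-bath dynamics -/
noncomputable def gen (β : ℝ) (g : Pair n → ℝ) : Matrix (Fin n → Bool) (Fin n → Bool) ℝ :=
  ∑ i, (resample β g i - 1)

/-- the spectral gap is at least `c` -/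
def GapGe (β : ℝ) (g : Pair n → ℝ) (c : ℝ) : Prop :=
  ∀ f : (Fin n → Bool) → ℝ, ∑ x, gibbs β g x * f x = 0 →
    c * ∑ x, gibbs β g x * f x ^ 2 ≤ -∑ x, gibbs β g x * (f x * (gen β g).mulVec f x)

/-- total variation distance to equilibrium at time `t` from the start `x` -/
noncomputable def tv (β : ℝ) (g : Pair n → ℝ) (t : ℝ) (x : Fin n → Bool) : ℝ :=
  1 / 2 * ∑ y, |NormedSpace.exp (t • gen β g) x y - gibbs β g y|

end Vale.Agent.P150
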