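import Vale.Agent.P150.Defs

/-! The Sherrington-Kirkpatrick model in an external field `h` and its heat-bath dynamics. -/

namespace Vale.Agent.P150

variable {n : ℕ}

/-- the Boltzmann weight -/
noncomputable def wtH (β : ℝ) (g : Pair n → ℝ) (h : Fin n → ℝ) (x : Fin n → Bool) : ℝ :=
  Real.exp (β / √n * ∑ p : Pair n, g p * sp (x p.1.1) * sp (x p.1.2) + ∑ i, h i * sp (x i))

/-- the Gibbs measure -/
noncomputable def gibbsH (β : ℝ) (g : Pair n → ℝ) (h : Fin n → ℝ) (x : Fin n → Bool) : ℝ :=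
  wtH β g h x / ∑ y, wtH β g h y

/-- the local field -/
noncomputable def fieldH (β : ℝ) (g : Pair n → ℝ) (h : Fin n → ℝ) (x : Fin n → Bool) (i : Fin n) : ℝ :=
  β / √n * ∑ j, coup g i j * sp (x j) + h i

/-- the kernel resampling the spin at `i` -/
noncomputable def resampleH (β : ℝ) (g : Pair n → ℝ) (h : Fin n → ℝ) (i : Fin n) :
    Matrix (Fin n → Bool) (Fin n → Bool) ℝ :=
  Matrix.of fun x y => if ∀ j, j ≠ i → y j = x j then
    Real.exp (sp (y i) * fieldH β g h x i) / (2 * Real.cosh (fieldH β g h x i)) else 0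

/-- the generator of the heat-bath dynamics -/
noncomputable def genH (β : ℝ) (g : Pair n → ℝ) (h : Fin n → ℝ) :
    Matrix (Fin n → Bool) (Fin n → Bool) ℝ :=
  ∑ i, (resampleH β g h i - 1)

/-- the spectral gap is at least `c` -/
def GapGeH (β : ℝ) (g : Pair n → ℝ) (h : Fin n → ℝ) (c : ℝ) : Prop :=
  ∀ f : (Fin n → Bool) → ℝ, ∑ x, gibbsH β g h x * f x = 0 →
    c * ∑ x, gibbsH β g h x * f x ^ 2 ≤ -∑ x, gibbsH β g h x * (f x * (genH β g h).mulVec f x)

/-- total variation distance to equilibrium at time `t` from the start `x` -/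
noncomputable def tvH (β : ℝ) (g : Pair n → ℝ) (h : Fin n → ℝ) (t : ℝ) (x : Fin n → Bool) : ℝ :=
  1 / 2 * ∑ y, |NormedSpace.exp (t • genH β g h) x y - gibbsH β g h y|

end Vale.Agent.P150
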