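import Vale.Agent.P150.Basic

/-! Elementary entropy inequalities. -/

namespace Vale.Agent.P150

open Function Finset

variable {n : ℕ}

/-- the nonnegative entropy integrand -/
noncomputable def ph (f c : ℝ) : ℝ := f * Real.log (f / c) - f + c

theorem ph_ge {f c : ℝ} (hf : 0 < f) (hc : 0 < c) : (f - c) ^ 2 ≤ ph f c * (2 * (f + c)) := by
  obtain ⟨u, hu, rfl⟩ : ∃ u, 0 < u ∧ f = u ^ 2 := ⟨√f, by positivity, (Real.sq_sqrt hf.le).symm⟩
  obtain ⟨v, hv, rfl⟩ : ∃ v, 0 < v ∧ c = v ^ 2 := ⟨√c, by positivity, (Real.sq_sqrt hc.le).symm⟩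
  have h1 := Real.one_sub_inv_le_log_of_pos (div_pos hu hv)
  have h2 : (u - v) ^ 2 ≤ ph (u ^ 2) (v ^ 2) := by
    rw [ph, ← div_pow, Real.log_pow]
    have := mul_le_mul_of_nonneg_left h1 (sq_nonneg u)
    rw [show u ^ 2 * (1 - (u / v)⁻¹) = u ^ 2 - u * v by field_simp] at this
    push_cast
    linarith
  calc _ = (u - v) ^ 2 * (u + v) ^ 2 := by ring
    _ ≤ _ := mul_le_mul h2 (by nlinarith [sq_nonneg (u - v)]) (sq_nonneg _) ((sq_nonneg _).trans h2)

theorem ph_nonneg {f c : ℝ} (hf : 0 < f) (hc : 0 < c) : 0 ≤ ph f c :=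
  nonneg_of_mul_nonneg_left ((sq_nonneg _).trans (ph_ge hf hc)) (by positivity)

theorem ph_le {f c : ℝ} (hf : 0 < f) (hc : 0 < c) : ph f c ≤ (f - c) ^ 2 / c := by
  have := mul_le_mul_of_nonneg_left (Real.log_le_sub_one_of_pos (div_pos hf hc)) hf.le
  rw [ph, show (f - c) ^ 2 / c = f * (f / c - 1) - f + c by field_simp; ring]
  linarith

variable {w f : Cfg n → ℝ}

theorem wf_pos (hw : ∀ x, 0 < w x) (hf : ∀ x, 0 < f x) : 0 < ∑ x, w x * f x :=
  sum_pos' fun x => mul_pos (hw x) (hf x)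

theorem sum_ph (hw : ∀ x, 0 < w x) (hf : ∀ x, 0 < f x) {c : ℝ} (hc : 0 < c) :
    ∑ x, w x * ph (f x) c = Ent w f + (∑ x, w x) * ph ((∑ x, w x * f x) / ∑ x, w x) c := by
  have hb := sum_pos' hw
  have hm := div_pos (wf_pos hw hf) hb
  set m := (∑ x, w x * f x) / ∑ x, w x with hm'
  have : ∀ x, w x * ph (f x) c =
      w x * f x * Real.log (f x / m) + (w x * f x * (Real.log (m / c) - 1) + w x * c) := fun x => by
    rw [ph, Real.log_div (hf x).ne' hc.ne', Real.log_div (hf x).ne' hm.ne', Real.log_div hm.ne' hc.ne']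
    ring
  simp only [this, sum_add_distrib, ← sum_mul, Ent, ← hm']
  rw [ph, show ∑ x, w x * f x = (∑ x, w x) * m by rw [hm']; field_simp]
  ring

theorem ent_eq (hw : ∀ x, 0 < w x) (hf : ∀ x, 0 < f x) :
    Ent w f = ∑ x, w x * ph (f x) ((∑ x, w x * f x) / ∑ x, w x) := by
  have hm := div_pos (wf_pos hw hf) (sum_pos' hw)
  rw [sum_ph hw hf hm, ph, div_self hm.ne']
  simp

theorem ent_nonneg (hw : ∀ x, 0 < w x) (hf : ∀ x, 0 < f x) : 0 ≤ Ent w f := by
  rw [ent_eq hw hf]
  exact sum_nonneg fun x _ => mul_nonneg (hw x).le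
    (ph_nonneg (hf x) (div_pos (wf_pos hw hf) (sum_pos' hw)))

theorem pinsker (hw : ∀ x, 0 < w x) (hf : ∀ x, 0 < f x) :
    (∑ x, w x * |f x - (∑ x, w x * f x) / ∑ x, w x|) ^ 2 ≤ Ent w f * (4 * ∑ x, w x * f x) := by
  have hb := sum_pos' hw
  have hm := div_pos (wf_pos hw hf) hb
  rw [ent_eq hw hf]
  set m := (∑ x, w x * f x) / ∑ x, w x with hm'
  refine (sum_sq_le_sum_mul_sum_of_sq_le_mul univ (g := fun x => w x * (2 * (f x + m)))
    (fun x _ => mul_nonneg (hw x).le (ph_nonneg (hf x) hm))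
    (fun x _ => by have := hw x; have := hf x; positivity) fun x _ => ?_).trans_eq ?_
  · rw [mul_pow, sq_abs]
    nlinarith [mul_le_mul_of_nonneg_left (ph_ge (hf x) hm) (sq_nonneg (w x))]
  · congr 1
    simp only [mul_add, sum_add_distrib, mul_left_comm _ (2 : ℝ), ← mul_sum, ← sum_mul, hm']
    field_simp; ring

theorem loc_le (hw : ∀ x, 0 < w x) (hf : ∀ x, 0 < f x) (i : Fin n) {g : Cfg n → ℝ} (hg : ∀ x, 0 < g x)
    (hi : ∀ x a, g (update x i a) = g x) :
    ∑ x, w x * f x * Real.log (f x / Q w i f x) ≤ ∑ x, w x * ph (f x) (g x) := by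
  have h1 := sum_Q hw i f (g := fun x => Real.log (Q w i f x / g x) - 1) fun x a => by
    simp only [Q_upd, hi]
  have h2 : 0 ≤ ∑ x, w x * ph (Q w i f x) (g x) :=
    sum_nonneg fun x _ => mul_nonneg (hw x).le (ph_nonneg (Q_pos hw hf i x) (hg x))
  have h3 : ∀ x, w x * ph (f x) (g x) = w x * f x * Real.log (f x / Q w i f x) +
      (w x * (f x * (Real.log (Q w i f x / g x) - 1)) + w x * g x) := fun x => by
    have := (Q_pos hw hf i x).ne'
    rw [ph, Real.log_div (hf x).ne' (hg x).ne', Real.log_div (hf x).ne' this, Real.log_div this (hg x).ne']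
    ring
  have h4 : ∀ x, w x * ph (Q w i f x) (g x) =
      w x * (Q w i f x * (Real.log (Q w i f x / g x) - 1)) + w x * g x := fun x => by rw [ph]; ring
  simp only [h3, h4, sum_add_distrib] at h2 ⊢
  linarith

theorem loc_eq (hw : ∀ x, 0 < w x) (f : Cfg n → ℝ) (i : Fin n) :
    ∑ x, w x * f x * Real.log (f x / Q w i f x) = ∑ x, w x * ph (f x) (Q w i f x) := by
  simp only [ph, mul_add, mul_sub, sum_add_distrib, sum_sub_distrib, sum_Q1 hw, mul_assoc]
  ring

theorem dv (hw : ∀ x, 0 < w x) (hf : ∀ x, 0 < f x) (i : Fin n) {g : Cfg n → ℝ} (hg : ∀ x, 0 < g x) :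
    ∑ x, w x * f x * Real.log (g x / Q w i g x) ≤ ∑ x, w x * f x * Real.log (f x / Q w i f x) := by
  have h1 := sum_Q hw i g (g := fun x => Q w i f x / Q w i g x) fun x a => by simp only [Q_upd]
  have h2 : ∀ x, Q w i g x * (Q w i f x / Q w i g x) = Q w i f x := fun x => by
    have := Q_pos hw hg i x; field_simp
  simp only [h2, sum_Q1 hw] at h1
  have h3 : ∀ x, w x * f x * Real.log (g x / Q w i g x) ≤ w x * f x * Real.log (f x / Q w i f x) +
      (w x * (g x * (Q w i f x / Q w i g x)) - w x * f x) := fun x => by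
    have a1 := Q_pos hw hg i x
    have a2 := Q_pos hw hf i x
    have a3 := hf x
    have a4 := hg x
    have := mul_le_mul_of_nonneg_left (Real.log_le_sub_one_of_pos
      (show 0 < g x / Q w i g x / (f x / Q w i f x) by positivity)) (mul_pos (hw x) a3).le
    rw [Real.log_div (by positivity) (by positivity), mul_sub, mul_sub,
      show w x * f x * (g x / Q w i g x / (f x / Q w i f x)) = w x * (g x * (Q w i f x / Q w i g x)) by
        field_simp] at this
    linarith
  have := sum_le_sum fun x (_ : x ∈ univ) => h3 x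
  simp only [sum_add_distrib, sum_sub_distrib] at this
  linarith

theorem prod_case (h : Fin n → ℝ) (hf : ∀ x, 0 < f x) (hw : w = W (fun _ _ => 0) h) :
    Ent w f ≤ Loc w f := by
  have wp : ∀ x, 0 < w x := hw ▸ W_pos _ h
  have hq : ∀ i g x, Q w i g x = (Real.exp (h i) * g (update x i true) +
      Real.exp (-h i) * g (update x i false)) / (Real.exp (h i) + Real.exp (-h i)) := fun i g x => by
    have e : ∀ a, w (update x i a) = w x * Real.exp (-(sp (x i) * h i)) * Real.exp (sp a * h i) :=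
      fun a => by
        rw [hw, W_upd (fun _ _ => rfl) (fun _ => rfl), mul_assoc, ← Real.exp_add]
        congr 2
        simp only [zero_mul, sum_const_zero]
        ring
    have := wp x
    simp only [Q, e, sp, if_true, Bool.false_eq_true, if_false, one_mul, neg_mul]
    field_simp
  have : ∀ s : Finset (Fin n), ∃ g : Cfg n → ℝ, (∀ x, 0 < g x) ∧
      (∀ j ∈ s, ∀ x a, g (update x j a) = g x) ∧ ∑ x, w x * g x = ∑ x, w x * f x ∧
      ∑ x, w x * f x * Real.log (f x / g x) ≤ ∑ i ∈ s, ∑ x, w x * f x * Real.log (f x / Q w i f x) :=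
    fun s => by
    induction s using Finset.induction_on with
    | empty => exact ⟨f, hf, by simp, rfl, by simp [fun x => (hf x).ne']⟩
    | insert i s hi ih =>
      obtain ⟨g, g0, g1, g2, g3⟩ := ih
      refine ⟨Q w i g, Q_pos wp g0 i, fun j hj x a => ?_, by rw [sum_Q1 wp, g2], ?_⟩
      · rcases eq_or_ne j i with rfl | e
        · exact Q_upd ..
        · simp only [hq, update_comm e, g1 j ((mem_insert.1 hj).resolve_left e)]
      · rw [sum_insert hi]
        have := dv wp hf i g0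
        have e : ∀ x, w x * f x * Real.log (f x / Q w i g x) = w x * f x * Real.log (g x / Q w i g x) +
            w x * f x * Real.log (f x / g x) := fun x => by
          have := (Q_pos wp g0 i x).ne'
          rw [Real.log_div (hf x).ne' this, Real.log_div (g0 x).ne' this, Real.log_div (hf x).ne' (g0 x).ne']
          ring
        simp only [e, sum_add_distrib]
        linarith
  obtain ⟨g, -, g1, g2, g3⟩ := this univ
  refine le_of_eq_of_le (sum_congr rfl fun x _ => ?_) g3
  have := const_of_upd fun i => g1 i (mem_univ _)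
  simp only [← g2, this _ x, ← sum_mul]
  rw [mul_div_cancel_left₀ _ (sum_pos' wp).ne']

end Vale.Agent.P150
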