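import Vale.Agent.P150.Ent1

/-! Entropic stability from Poincare inequalities under all tilts. -/

namespace Vale.Agent.P150

open Function Finset

variable {n : ℕ} {w f : Cfg n → ℝ}

theorem laplace (hw : ∀ x, 0 < w x) (X : Cfg n → ℝ) {V : ℝ} (h0 : ∑ x, w x * X x = 0)
    (hV : ∀ s m, ∑ x, w x * Real.exp (s * X x) * (X x - m) = 0 →
      ∑ x, w x * Real.exp (s * X x) * (X x - m) ^ 2 ≤ V * ∑ x, w x * Real.exp (s * X x)) :
    ∑ x, w x * Real.exp (X x) ≤ (∑ x, w x) * Real.exp (V / 2) := by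
  set Z : ℕ → ℝ → ℝ := fun k s => ∑ x, w x * Real.exp (s * X x) * X x ^ k with hZ
  have d : ∀ k s, HasDerivAt (Z k) (Z (k + 1) s) s := fun k s =>
    HasDerivAt.fun_sum fun x _ => by
      have := ((((hasDerivAt_id s).mul_const (X x)).exp).const_mul (w x)).mul_const (X x ^ k)
      exact this.congr_deriv (by simp only [id]; ring)
  have z0 : ∀ s, 0 < Z 0 s := fun s => sum_pos' fun x => by have := hw x; positivity
  have d1 : ∀ s, HasDerivAt (fun s => Z 1 s / Z 0 s - V * s)
      ((Z 2 s * Z 0 s - Z 1 s * Z 1 s) / Z 0 s ^ 2 - V * 1) s := fun s =>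
    ((d 1 s).div (d 0 s) (z0 s).ne').sub ((hasDerivAt_id s).const_mul V)
  have a1 : Antitone fun s => Z 1 s / Z 0 s - V * s :=
    antitone_of_deriv_nonpos (fun s => (d1 s).differentiableAt) fun s => by
      have hz := z0 s
      have e1 : ∀ m, ∑ x, w x * Real.exp (s * X x) * (X x - m) = Z 1 s - m * Z 0 s := fun m => by
        simp only [hZ, mul_sum, ← sum_sub_distrib]; congr! 1; ring
      have e2 : ∀ m, ∑ x, w x * Real.exp (s * X x) * (X x - m) ^ 2 =
          Z 2 s - 2 * m * Z 1 s + m ^ 2 * Z 0 s := fun m => by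
        simp only [hZ, mul_sum, ← sum_sub_distrib, ← sum_add_distrib]; congr! 1; ring
      have := hV s (Z 1 s / Z 0 s) (by rw [e1]; field_simp; ring)
      rw [e2, show ∑ x, w x * Real.exp (s * X x) = Z 0 s by simp [hZ]] at this
      rw [(d1 s).deriv, sub_nonpos, div_le_iff₀ (by positivity)]
      have := mul_le_mul_of_nonneg_right this hz.le
      rw [show (Z 2 s - 2 * (Z 1 s / Z 0 s) * Z 1 s + (Z 1 s / Z 0 s) ^ 2 * Z 0 s) * Z 0 s =
        Z 2 s * Z 0 s - Z 1 s * Z 1 s by field_simp; ring] at this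
      linarith
  have d2 : ∀ s, HasDerivAt (fun s => Real.log (Z 0 s) - V / 2 * s ^ 2) (Z 1 s / Z 0 s - V * s) s :=
    fun s => (((d 0 s).log (z0 s).ne').sub ((hasDerivAt_pow 2 s).const_mul (V / 2))).congr_deriv
      (by push_cast; ring)
  have a2 := antitoneOn_of_deriv_nonpos (convex_Ici 0)
    (fun s _ => (d2 s).continuousAt.continuousWithinAt)
    (fun s _ => (d2 s).differentiableAt.differentiableWithinAt) (fun s hs => by
      rw [(d2 s).deriv]
      refine (a1 (interior_subset hs)).trans ?_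
      simp [hZ, h0]) (Set.mem_Ici.2 le_rfl) (Set.mem_Ici.2 zero_le_one) zero_le_one
  have := Real.exp_le_exp.2 (show Real.log (Z 0 1) ≤ Real.log (Z 0 0) + V / 2 by linarith)
  rw [Real.exp_add, Real.exp_log (z0 _), Real.exp_log (z0 _)] at this
  simpa [hZ] using this

theorem dir_lin (hw : ∀ x, 0 < w x) (θ : Fin n → ℝ) (m : ℝ) :
    Dir w (fun x => ∑ i, θ i * sp (x i) - m) ≤ (∑ i, θ i ^ 2) * ∑ x, w x := by
  rw [Dir, sum_mul]
  refine sum_le_sum fun i _ => ?_
  rw [mul_sum]
  refine sum_le_fib i fun x => ?_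
  simp only [Q, update_idem, fld_upd]
  have h1 := hw (update x i true)
  have h2 := hw (update x i false)
  generalize w (update x i true) = a at *
  generalize w (update x i false) = b at *
  have : 0 ≤ θ i ^ 2 * (a - b) ^ 2 / (a + b) := by positivity
  refine sub_nonneg.1 (this.trans_eq ?_)
  generalize sp (x i) = t
  simp only [sp, if_true, Bool.false_eq_true, if_false]
  field_simp
  ring

/-- Poincare inequality -/
def Poi (w : Cfg n → ℝ) (κ : ℝ) : Prop := ∀ g, ∑ x, w x * g x = 0 → κ * ∑ x, w x * g x ^ 2 ≤ Dir w g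

theorem stab (hw : ∀ x, 0 < w x) (hf : ∀ x, 0 < f x) {κ : ℝ} (hκ : 0 < κ)
    (hP : ∀ (θ : Fin n → ℝ) r, Poi (fun x => w x * Real.exp (∑ i, θ i * sp (x i) + r)) κ) :
    κ * ∑ i, (∑ x, w x * (f x - (∑ x, w x * f x) / ∑ x, w x) * sp (x i)) ^ 2 ≤
      2 * (∑ x, w x * f x) * Ent w f := by
  have hb := sum_pos' hw
  have ha := wf_pos hw hf
  set a := ∑ x, w x * f x with ha'
  set b := ∑ x, w x with hb'
  set m : Fin n → ℝ := fun i => ∑ x, w x * (f x - a / b) * sp (x i) with hm
  set S := ∑ i, m i ^ 2 with hS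
  set L : Cfg n → ℝ := fun x => ∑ i, κ / a * m i * sp (x i) with hL
  set μ := (∑ x, w x * L x) / b with hμ
  have h1 := laplace hw (fun x => L x - μ) (V := κ * S / a ^ 2)
    (by simp only [mul_sub, sum_sub_distrib, ← sum_mul, hμ, ← hb']; field_simp; ring) fun s c e => by
      have e1 : ∀ x, s * (L x - μ) = ∑ i, s * (κ / a * m i) * sp (x i) + -(s * μ) := fun x => by
        simp only [hL, mul_sum, mul_assoc, sub_eq_add_neg, mul_add, mul_neg]
      simp only [e1, sub_sub] at e ⊢
      have := (hP _ _ _ e).trans (dir_lin (fun x => mul_pos (hw x) (Real.exp_pos _)) _ _)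
      refine le_of_mul_le_mul_left (this.trans_eq ?_) hκ
      simp only [mul_pow, ← mul_sum, ← hS]
      field_simp
  have h2 : 0 ≤ ∑ x, w x * ph (f x) (a / b * Real.exp (L x - μ - κ * S / a ^ 2 / 2)) :=
    sum_nonneg fun x _ => mul_nonneg (hw x).le (ph_nonneg (hf x) (by positivity))
  have h3 : ∀ x, w x * ph (f x) (a / b * Real.exp (L x - μ - κ * S / a ^ 2 / 2)) =
      w x * f x * Real.log (f x / (a / b)) - w x * (f x - a / b) * L x - a / b * (w x * L x) +
      w x * f x * (μ + κ * S / a ^ 2 / 2 - 1) +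
      a / b / Real.exp (κ * S / a ^ 2 / 2) * (w x * Real.exp (L x - μ)) := fun x => by
    rw [ph, ← div_div, Real.log_div (div_pos (hf x) (div_pos ha hb)).ne' (Real.exp_pos _).ne',
      Real.log_exp, Real.exp_sub _ (_ / 2)]
    ring
  have h4 : ∑ x, w x * (f x - a / b) * L x = κ / a * S := by
    simp only [hL, hS, mul_sum, sq]
    rw [sum_comm]
    refine sum_congr rfl fun i _ => ?_
    nth_rewrite 3 [hm]
    simp only [mul_sum]
    congr! 1
    ring
  have h5 := mul_le_mul_of_nonneg_left h1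
    (show 0 ≤ a / b / Real.exp (κ * S / a ^ 2 / 2) by positivity)
  simp only [h3, sum_add_distrib, sum_sub_distrib, h4, ← sum_mul, ← mul_sum, ← ha'] at h2
  rw [show a / b / Real.exp (κ * S / a ^ 2 / 2) * (b * Real.exp (κ * S / a ^ 2 / 2)) = a by
    field_simp] at h5
  have h6 : a / b * ∑ x, w x * L x = a * μ := by rw [hμ]; ring
  have h7 : κ / a * S - a * (κ * S / a ^ 2 / 2) ≤ Ent w f := by rw [Ent]; linarith
  have := mul_le_mul_of_nonneg_left h7 (show 0 ≤ 2 * a by positivity)
  refine le_of_eq_of_le ?_ this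
  field_simp
  ring

end Vale.Agent.P150
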