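import Vale.Agent.P150.Ent2
import Vale.Agent.P150.Two

/-! One step of the discrete localization. -/

namespace Vale.Agent.P150

open Function Finset

variable {n : ℕ} {w f : Cfg n → ℝ}

theorem orth (v : Fin n → ℝ) : ∑ z : Cfg n, (∑ k, sp (z k) * v k) ^ 2 = 2 ^ n * ∑ k, v k ^ 2 := by
  have h : ∀ k j, ∑ z : Cfg n, sp (z k) * v k * (sp (z j) * v j) =
      if k = j then 2 ^ n * v k ^ 2 else 0 := fun k j => by
    split_ifs with e
    · subst e
      simp [← sq, mul_pow, sp_sq]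
    · have := sum_upd k fun z => sp (z k) * v k * (sp (z j) * v j)
      simp only [update_self, update_of_ne (Ne.symm e), show sp false = -sp true by simp [sp], neg_mul,
        add_neg_cancel, sum_const_zero] at this
      linarith
  simp only [sq (∑ _, _), sum_mul_sum]
  rw [sum_comm]
  simp only [sum_comm (s := (univ : Finset (Cfg n))), h, sum_ite_eq, mem_univ, if_true, mul_sum]

theorem step (hw : ∀ x, 0 < w x) (hf : ∀ x, 0 < f x) (u : Fin n → Cfg n → ℝ) (l : Cfg n → Cfg n → ℝ)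
    {δ K V C : ℝ} (hK : (K + 16 * K ^ 2) * δ ^ 2 ≤ 1) (hC : 0 ≤ C) (ha : ∀ x, ∑ z, l z x ≤ 2 ^ n)
    (hb : ∀ x, 2 ^ n * (1 - K * δ ^ 4) ≤ ∑ z, l z x) (hc : ∀ z x, 1 / 2 ≤ l z x)
    (hd : ∀ z x, |l z x - 1 - δ * ∑ k, sp (z k) * u k x| ≤ K * δ ^ 2)
    (hV : ∑ k, (∑ x, w x * (f x - (∑ x, w x * f x) / ∑ x, w x) * u k x) ^ 2 ≤
      V * (∑ x, w x * f x) * Ent w f)
    (hz : ∀ z, Ent (fun x => w x * l z x) f ≤ C * Loc (fun x => w x * l z x) f) :
    (1 - (4 * V + 1) * δ ^ 2) * Ent w f ≤ C * Loc w f := by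
  have b0 := sum_pos' hw
  have a0 := wf_pos hw hf
  have hp := pinsker hw hf
  have he := ent_eq hw hf
  have F0 := ent_nonneg hw hf
  set a := ∑ x, w x * f x with ha'
  set b := ∑ x, w x with hb'
  set F := Ent w f
  have c0 := div_pos a0 b0
  set c := a / b with hc'
  set T := ∑ x, w x * |f x - c|
  set v : Fin n → ℝ := fun k => ∑ x, w x * (f x - c) * u k x with hv
  have wz : ∀ z x, 0 < w x * l z x := fun z x => mul_pos (hw x) (by linarith [hc z x])
  have s1 : ∑ z, Loc (fun x => w x * l z x) f ≤ 2 ^ n * Loc w f := by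
    simp only [Loc]
    rw [sum_comm, mul_sum]
    refine sum_le_sum fun i _ => ?_
    refine (sum_le_sum fun z _ => loc_le (wz z) hf i (Q_pos hw hf i) (Q_upd w i f)).trans ?_
    rw [sum_comm, loc_eq hw, mul_sum]
    refine sum_le_sum fun x _ => ?_
    simp only [mul_right_comm (w x) (l _ x), ← mul_sum]
    rw [mul_comm]
    exact mul_le_mul_of_nonneg_right (ha x) (mul_nonneg (hw x).le (ph_nonneg (hf x) (Q_pos hw hf i x)))
  have s2 : 2 ^ n * (1 - K * δ ^ 4) * F ≤ ∑ z, ∑ x, w x * l z x * ph (f x) c := by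
    rw [sum_comm, he, mul_sum]
    refine sum_le_sum fun x _ => ?_
    simp only [mul_right_comm (w x) (l _ x), ← mul_sum]
    rw [mul_comm]
    exact mul_le_mul_of_nonneg_left (hb x) (mul_nonneg (hw x).le (ph_nonneg (hf x) c0))
  have s3 : ∀ z, ∑ x, w x * l z x * ph (f x) c ≤ C * Loc (fun x => w x * l z x) f +
      (4 * δ ^ 2 / a * (∑ k, sp (z k) * v k) ^ 2 + 16 * K ^ 2 * δ ^ 4 * F) := fun z => by
    rw [sum_ph (wz z) hf c0]
    refine add_le_add (hz z) ?_
    have bz := sum_pos' (wz z)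
    have az := wf_pos (wz z) hf
    have h1 : b / 2 ≤ ∑ x, w x * l z x := by
      rw [hb', sum_div]
      exact sum_le_sum fun x _ => by nlinarith [hw x, hc z x]
    have h2 : |∑ x, w x * l z x * f x - c * ∑ x, w x * l z x - δ * ∑ k, sp (z k) * v k| ≤
        K * δ ^ 2 * T := by
      have e : ∑ x, w x * (f x - c) * (l z x - 1 - δ * ∑ k, sp (z k) * u k x) =
          ∑ x, w x * l z x * f x - c * ∑ x, w x * l z x - δ * ∑ k, sp (z k) * v k - (a - c * b) := by
        simp only [hv, ha', hb', mul_sum]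
        rw [sum_comm (s := (univ : Finset (Fin n)))]
        simp only [← sum_sub_distrib]
        refine sum_congr rfl fun x _ => ?_
        rw [mul_sub, mul_sum, eq_sub_iff_add_eq]
        simp only [mul_left_comm (w x * (f x - c))]
        ring
      rw [hc', div_mul_cancel₀ _ b0.ne', sub_self, sub_zero, ← hc'] at e
      rw [← e, mul_sum]
      refine (abs_sum_le_sum_abs _ _).trans (sum_le_sum fun x _ => ?_)
      rw [abs_mul, abs_mul, abs_of_pos (hw x), mul_comm]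
      exact mul_le_mul_of_nonneg_right (hd z x) (mul_nonneg (hw x).le (abs_nonneg _))
    generalize ∑ x, w x * l z x * f x = A at *
    generalize ∑ x, w x * l z x = B at *
    generalize ∑ k, sp (z k) * v k = y at *
    have h3 := sq_le_sq' (abs_le.1 h2).1 (abs_le.1 h2).2
    have h4 : (A - c * B) ^ 2 ≤ 2 * δ ^ 2 * y ^ 2 + 8 * K ^ 2 * δ ^ 4 * F * a := by
      nlinarith [sq_nonneg (A - c * B - 2 * (δ * y)),
        mul_le_mul_of_nonneg_left hp (sq_nonneg (K * δ ^ 2))]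
    calc _ ≤ B * ((A / B - c) ^ 2 / c) := by gcongr; exact ph_le (div_pos az bz) c0
      _ = (A - c * B) ^ 2 / (c * B) := by field_simp
      _ ≤ (2 * δ ^ 2 * y ^ 2 + 8 * K ^ 2 * δ ^ 4 * F * a) / (c * (b / 2)) := by gcongr
      _ = _ := by rw [hc']; field_simp; ring
  have s4 := s2.trans (sum_le_sum fun z _ => s3 z)
  simp only [sum_add_distrib, ← mul_sum, orth, sum_const, card_univ, Fintype.card_fun,
    Fintype.card_bool, Fintype.card_fin, nsmul_eq_mul, Nat.cast_pow, Nat.cast_ofNat] at s4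
  have s5 : 4 * δ ^ 2 / a * ∑ k, v k ^ 2 ≤ 4 * δ ^ 2 * V * F := by
    refine (mul_le_mul_of_nonneg_left hV (by positivity)).trans_eq ?_
    field_simp
  have s6 := mul_le_mul_of_nonneg_left s1 hC
  have s7 := mul_le_mul_of_nonneg_right hK (mul_nonneg (sq_nonneg δ) F0)
  refine le_of_mul_le_mul_left ?_ (show (0 : ℝ) < 2 ^ n by positivity)
  nlinarith [mul_le_mul_of_nonneg_left (add_le_add s5 s7) (show (0 : ℝ) ≤ 2 ^ n by positivity)]

theorem cosh_ge (y : ℝ) : 1 + y ^ 2 / 2 ≤ Real.cosh y := by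
  have h1 := Real.cosh_two_mul (y / 2)
  have h2 := Real.cosh_sq (y / 2)
  have h3 : |y / 2| ≤ |Real.sinh (y / 2)| := by
    rw [Real.abs_sinh]; exact Real.self_le_sinh_iff.2 (abs_nonneg _)
  rw [mul_div_cancel₀ _ two_ne_zero] at h1
  nlinarith [sq_le_sq.2 h3]

theorem chan (u : Fin n → Cfg n → ℝ) : ∃ M, 1 ≤ M ∧ ∀ δ, 0 ≤ δ → 4 * M * δ ≤ 1 →
    ∀ l : Cfg n → Cfg n → ℝ,
    (∀ z x, l z x = Real.exp (δ * ∑ k, sp (z k) * u k x - δ ^ 2 * ∑ k, u k x ^ 2 / 2)) →
    (∀ x, ∑ z, l z x ≤ 2 ^ n) ∧ (∀ x, 2 ^ n * (1 - 5 * M ^ 2 * δ ^ 4) ≤ ∑ z, l z x) ∧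
    (∀ z x, 1 / 2 ≤ l z x) ∧ ∀ z x, |l z x - 1 - δ * ∑ k, sp (z k) * u k x| ≤ 5 * M ^ 2 * δ ^ 2 := by
  obtain ⟨M1, h1⟩ := Finite.exists_le fun p : Cfg n × Cfg n => |∑ k, sp (p.1 k) * u k p.2|
  obtain ⟨M2, h2⟩ := Finite.exists_le fun x => ∑ k, u k x ^ 2 / 2
  refine ⟨max 1 (max M1 M2), le_max_left .., fun δ δ0 hδ l hl => ?_⟩
  replace h1 := fun z x => (h1 (z, x)).trans ((le_max_left _ M2).trans (le_max_right 1 _))
  replace h2 := fun x => (h2 x).trans ((le_max_right M1 _).trans (le_max_right 1 _))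
  have M1 := le_max_left 1 (max M1 M2)
  generalize max 1 (max _ M2) = M at *
  have δ1 : δ ≤ 1 / 4 := by nlinarith
  have n2 : ∀ x, 0 ≤ ∑ k, u k x ^ 2 / 2 := fun x => sum_nonneg fun k _ => by positivity
  have e : ∀ x, ∑ z, l z x =
      2 ^ n * ((∏ k, Real.cosh (δ * u k x)) * Real.exp (-(δ ^ 2 * ∑ k, u k x ^ 2 / 2))) := fun x => by
    simp only [hl, sub_eq_add_neg, Real.exp_add, ← sum_mul, mul_sum _ _ δ, Real.exp_sum]
    rw [← Fintype.prod_sum fun k a => Real.exp (δ * (sp a * u k x)), ← mul_assoc]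
    congr 1
    rw [show (2 : ℝ) ^ n = ∏ _k : Fin n, 2 by simp, ← prod_mul_distrib]
    refine prod_congr rfl fun k _ => ?_
    simp [sp, Real.cosh_eq]
    ring
  have y : ∀ z x : Cfg n, |δ * ∑ k, sp (z k) * u k x - δ ^ 2 * ∑ k, u k x ^ 2 / 2| ≤ 2 * M * δ := fun z x => by
    refine (abs_sub _ _).trans ?_
    rw [abs_mul, abs_of_nonneg δ0, abs_of_nonneg (mul_nonneg (sq_nonneg _) (n2 x))]
    nlinarith [mul_le_mul_of_nonneg_left (h1 z x) δ0, mul_le_mul_of_nonneg_left (h2 x) (sq_nonneg δ),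
      mul_nonneg δ0 (zero_le_one.trans M1)]
  refine ⟨fun x => ?_, fun x => ?_, fun z x => ?_, fun z x => ?_⟩
  · rw [e, Real.exp_neg, ← div_eq_mul_inv]
    refine mul_le_of_le_one_right (by positivity) ((div_le_one (Real.exp_pos _)).2 ?_)
    rw [mul_sum, Real.exp_sum]
    exact prod_le_prod (fun k _ => (Real.cosh_pos _).le) fun k _ =>
      (Real.cosh_le_exp_half_sq _).trans_eq (by congr 1; ring)
  · rw [e]
    gcongr
    have a1 : ∀ s : Finset (Fin n), 1 + δ ^ 2 * ∑ k ∈ s, u k x ^ 2 / 2 ≤ ∏ k ∈ s, Real.cosh (δ * u k x) :=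
      fun s => by
      induction s using Finset.induction_on with
      | empty => simp
      | insert k s hk ih =>
        rw [sum_insert hk, prod_insert hk]
        have : 0 ≤ δ ^ 2 * ∑ k ∈ s, u k x ^ 2 / 2 := by positivity
        nlinarith [mul_le_mul (cosh_ge (δ * u k x)) ih (by positivity) (Real.cosh_pos _).le,
          mul_nonneg this (sq_nonneg (δ * u k x))]
    have a2 := mul_le_mul_of_nonneg_left (h2 x) (sq_nonneg δ)
    have a3 := mul_nonneg (sq_nonneg δ) (n2 x)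
    have a4 := Real.add_one_le_exp (-(δ ^ 2 * ∑ k, u k x ^ 2 / 2))
    replace a1 := a1 univ
    generalize δ ^ 2 * ∑ k, u k x ^ 2 / 2 = S at *
    nlinarith [mul_le_mul_of_nonneg_right a1 (Real.exp_pos (-S)).le,
      mul_le_mul_of_nonneg_left a4 (show 0 ≤ 1 + S by linarith), mul_self_le_mul_self a3 a2,
      sq_nonneg (M * δ ^ 2)]
  · rw [hl]
    linarith [Real.add_one_le_exp (δ * ∑ k, sp (z k) * u k x - δ ^ 2 * ∑ k, u k x ^ 2 / 2),
      (abs_le.1 (y z x)).1]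
  · have a1 := Real.abs_exp_sub_one_sub_id_le ((y z x).trans (by linarith))
    have a2 := sq_le_sq' (abs_le.1 (y z x)).1 (abs_le.1 (y z x)).2
    have a3 := mul_le_mul_of_nonneg_left (h2 x) (sq_nonneg δ)
    have a4 := mul_nonneg (sq_nonneg δ) (n2 x)
    have a5 := mul_le_mul_of_nonneg_left M1 (mul_nonneg (sq_nonneg δ) (zero_le_one.trans M1))
    rw [← hl, abs_le] at a1
    rw [abs_le]
    constructor <;> nlinarith

end Vale.Agent.P150
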