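import Vale.Agent.P150.Ent3
import Vale.Agent.P150.Boch

/-! Approximate tensorization of entropy. -/

namespace Vale.Agent.P150

open Function Finset

variable {n : ℕ} {J : Fin n → Fin n → ℝ} {l η κ : ℝ}

theorem Q_smul {r : ℝ} (hr : r ≠ 0) (w : Cfg n → ℝ) : Q (fun x => r * w x) = Q w := by
  ext i f x
  simp only [Q, mul_assoc, ← mul_add, mul_div_mul_left _ _ hr]

theorem Good.smul (hJ : Good J l η) {t : ℝ} (h0 : 0 ≤ t) (h1 : t ≤ 1) :
    Good (fun i j => t * J i j) l η where
  symm i j := by rw [hJ.symm]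
  diag i := by rw [hJ.diag, mul_zero]
  op y := by
    simp only [mul_assoc t, ← mul_sum, abs_mul, abs_of_nonneg h0]
    exact (mul_le_of_le_one_left (abs_nonneg _) h1).trans (hJ.op y)
  row i := by
    simp only [mul_pow, ← mul_sum]
    exact (mul_le_of_le_one_left (by positivity) (pow_le_one₀ h0 h1)).trans (hJ.row i)
  small i j := by
    rw [abs_mul, abs_of_nonneg h0]
    exact (mul_le_of_le_one_left (abs_nonneg _) h1).trans (hJ.small i j)

theorem poiW (hJ : Good J l η) (hη : η ≤ 1 / 20) (h0 : 0 < κ) (hκ : κ ≤ 1 - l - 100 * η * l)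
    (h : Fin n → ℝ) : Poi (W J h) κ :=
  poinc (W_pos J h) h0 fun g => (mul_le_mul_of_nonneg_right hκ (sum_nonneg fun _ _ => sum_nonneg
    fun x _ => mul_nonneg (W_pos J h x).le (sq_nonneg _))).trans (boch hJ hη h g rfl)

theorem Poi.smul {w : Cfg n → ℝ} (h : Poi w κ) {r : ℝ} (hr : 0 < r) : Poi (fun x => r * w x) κ :=
  fun g hg => by
  simp only [Dir, Q_smul hr.ne', mul_assoc r, ← mul_sum] at hg ⊢
  rw [mul_left_comm]
  exact mul_le_mul_of_nonneg_left (h g ((mul_eq_zero.1 hg).resolve_left hr.ne')) hr.le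

open scoped MatrixOrder in
theorem root (hJ : Good J l η) : ∃ B : Fin n → Fin n → ℝ, ∀ y : Fin n → ℝ,
    ∑ k, (∑ i, B k i * y i) ^ 2 = ∑ i, ∑ j, J i j * y i * y j + l * ∑ i, y i ^ 2 := by
  have e : ∀ y : Fin n → ℝ, y ⬝ᵥ (Matrix.of J + l • (1 : Matrix _ _ ℝ)).mulVec y =
      ∑ i, ∑ j, J i j * y i * y j + l * ∑ i, y i ^ 2 := fun y => by
    rw [Matrix.add_mulVec, Matrix.smul_mulVec, Matrix.one_mulVec, dotProduct_add, dotProduct_smul]
    simp only [dotProduct, Matrix.mulVec, Matrix.of_apply, mul_sum, smul_eq_mul, sq]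
    congr! 3
    ring
  have hp : (Matrix.of J + l • (1 : Matrix _ _ ℝ)).PosSemidef :=
    .of_dotProduct_mulVec_nonneg (by
      ext i j; simp [Matrix.one_apply, hJ.symm j i, eq_comm]) fun y => by
      rw [star_trivial, e]; linarith [(abs_le.1 (hJ.op y)).1]
  obtain ⟨B, hB⟩ := CStarAlgebra.nonneg_iff_eq_star_mul_self.1 hp.nonneg
  refine ⟨B, fun y => ?_⟩
  rw [← e, hB, ← Matrix.mulVec_mulVec, Matrix.dotProduct_mulVec, Matrix.star_eq_conjTranspose,
    Matrix.conjTranspose_eq_transpose_of_trivial, Matrix.vecMul_transpose]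
  simp only [dotProduct, Matrix.mulVec, sq]

theorem tens (hJ : Good J l η) (hη : η ≤ 1 / 20) (h0 : 0 < κ) (hκ : κ ≤ 1 - l - 100 * η * l)
    (hl : 0 ≤ l) (h : Fin n → ℝ) (f : Cfg n → ℝ) (hf : ∀ x, 0 < f x) :
    Ent (W J h) f ≤ Real.exp (2 * (4 * (4 * l / κ) + 1)) * Loc (W J h) f := by
  obtain ⟨B, hB⟩ := root hJ
  obtain ⟨M, M1, hM⟩ := chan fun k x => ∑ i, B k i * sp (x i)
  set V := 4 * l / κ with hV
  have V0 : 0 ≤ V := by positivity
  obtain ⟨N, hN⟩ := exists_nat_ge (16 * M ^ 2 + (5 * M ^ 2 + 16 * (5 * M ^ 2) ^ 2) + 2 * (4 * V + 1))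
  have N0 : (0 : ℝ) < N := lt_of_lt_of_le (by positivity) hN
  obtain ⟨δ, δ0, hδ⟩ : ∃ δ : ℝ, 0 ≤ δ ∧ δ ^ 2 * N = 1 :=
    ⟨√(N : ℝ)⁻¹, by positivity, by rw [Real.sq_sqrt (by positivity), inv_mul_cancel₀ N0.ne']⟩
  have hN' := (mul_le_mul_of_nonneg_left hN (sq_nonneg δ)).trans_eq hδ
  have p1 : 0 ≤ δ ^ 2 * (16 * M ^ 2) := by positivity
  have p2 : 0 ≤ δ ^ 2 * (5 * M ^ 2 + 16 * (5 * M ^ 2) ^ 2) := by positivity
  have p3 : 0 ≤ (4 * V + 1) * δ ^ 2 := by positivity
  obtain ⟨ha, hb, hc, hd⟩ := hM δ δ0 (abs_le_of_sq_le_sq' (by linarith) zero_le_one).2 _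
    fun _ _ => rfl
  have key : ∀ k : ℕ, k ≤ N → ∀ h, Ent (W (fun i j => k * δ ^ 2 * J i j) h) f ≤
      Real.exp (2 * (4 * V + 1) * (k * δ ^ 2)) * Loc (W (fun i j => k * δ ^ 2 * J i j) h) f := by
    intro k
    induction k with
    | zero => intro _ h; simpa using prod_case h hf rfl
    | succ k ih =>
      intro hk h
      have hG := hJ.smul (t := (k + 1 : ℕ) * δ ^ 2) (by positivity) (by
        rw [← hδ, mul_comm]; gcongr)
      set w := W (fun i j => (k + 1 : ℕ) * δ ^ 2 * J i j) h with hw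
      have wp : ∀ x, 0 < w x := W_pos _ h
      have := step wp hf _ _ (V := V) (by linarith) (Real.exp_pos (2 * (4 * V + 1) * (k * δ ^ 2))).le
        ha hb hc hd ?_ fun z => ?_
      · have F0 := ent_nonneg wp hf
        have h1 := Real.add_one_le_exp (2 * ((4 * V + 1) * δ ^ 2))
        have h2 : (4 * V + 1) * δ ^ 2 ≤ 1 / 2 := by linarith
        rw [show 2 * (4 * V + 1) * ((k + 1 : ℕ) * δ ^ 2) =
          2 * ((4 * V + 1) * δ ^ 2) + 2 * (4 * V + 1) * (k * δ ^ 2) by push_cast; ring, Real.exp_add,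
          mul_assoc]
        generalize (4 * V + 1) * δ ^ 2 = y at *
        refine le_trans ?_ (mul_le_mul_of_nonneg_left this (Real.exp_pos _).le)
        nlinarith [mul_le_mul_of_nonneg_right h1 (mul_nonneg (show 0 ≤ 1 - y by linarith) F0),
          mul_nonneg (mul_nonneg p3 (sub_nonneg.2 h2)) F0]
      · have s := stab wp hf h0 fun θ r => by
          have := (poiW hG hη h0 hκ (h + θ)).smul (Real.exp_pos r)
          refine (congrArg (Poi · κ) (funext fun x => ?_)).mp this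
          simp only [hw, W, ← Real.exp_add, Pi.add_apply, add_mul, sum_add_distrib]
          congr 1
          ring
        set m : Fin n → ℝ := fun i => ∑ x, w x * (f x - (∑ x, w x * f x) / ∑ x, w x) * sp (x i) with hm
        have e : ∀ k, ∑ x, w x * (f x - (∑ x, w x * f x) / ∑ x, w x) * ∑ i, B k i * sp (x i) =
            ∑ i, B k i * m i := fun k => by
          simp only [hm, mul_sum]
          rw [sum_comm]
          congr! 2
          ring
        simp only [e, hB]
        have := (le_abs_self _).trans (hJ.op m)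
        refine le_of_mul_le_mul_left ?_ h0
        rw [show κ * (V * (∑ x, w x * f x) * Ent w f) = 2 * l * (2 * (∑ x, w x * f x) * Ent w f) by
          rw [hV]; field_simp; ring]
        nlinarith [mul_le_mul_of_nonneg_left s hl, mul_le_mul_of_nonneg_left this h0.le]
      · have e : (fun x => w x * Real.exp (δ * ∑ k, sp (z k) * ∑ i, B k i * sp (x i) -
            δ ^ 2 * ∑ k, (∑ i, B k i * sp (x i)) ^ 2 / 2)) = fun x => Real.exp (-(δ ^ 2 * l * n / 2)) *
            W (fun i j => k * δ ^ 2 * J i j) (fun i => h i + δ * ∑ k, sp (z k) * B k i) x := by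
          ext x
          have : ∑ k, sp (z k) * ∑ i, B k i * sp (x i) = ∑ i, (∑ k, sp (z k) * B k i) * sp (x i) := by
            simp only [mul_sum, sum_mul, mul_assoc]; exact sum_comm
          simp only [hw, W, ← Real.exp_add, ← sum_div, hB, this, sp_sq, add_mul (h _), sum_add_distrib,
            mul_assoc δ, mul_assoc (_ * δ ^ 2), ← mul_sum]
          congr 1
          simp
          ring
        have := ih (by omega) (fun i => h i + δ * ∑ k, sp (z k) * B k i)
        rw [e]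
        simp only [Ent, Loc, Q_smul (Real.exp_pos _).ne', mul_assoc (Real.exp (-_)), ← mul_sum,
          mul_div_mul_left _ _ (Real.exp_pos _).ne'] at this ⊢
        rw [mul_left_comm]
        exact mul_le_mul_of_nonneg_left this (Real.exp_pos _).le
  simpa [mul_comm (N : ℝ), hδ] using key N le_rfl h

end Vale.Agent.P150
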