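import Mathlib

/-! The multi-trace recursion for a symmetric Gaussian matrix, algebraically. -/

namespace Vale.Agent.P150.Goe

open Finset Matrix

variable {A : Type} [CommSemiring A] {n : ℕ}

/-- a symmetric matrix with a positive expectation satisfying integration by parts -/
structure St (G : Matrix (Fin n) (Fin n) A) (E : A →+ ℝ) : Prop where
  pos : ∀ a, 0 ≤ E a
  one : E 1 = 1
  sym : ∀ i j, G i j = G j i
  ibp : ∀ i j, G i j = 0 ∨ i ≠ j ∧ ∃ D : Derivation ℕ A A, (∀ P, E (G i j * P) = E (D P)) ∧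
    ∀ k l, D (G k l) = (if k = i ∧ l = j then 1 else 0) + if k = j ∧ l = i then 1 else 0

variable (G : Matrix (Fin n) (Fin n) A)

/-- derivative of an entry of a power -/
def Dl (i j : Fin n) (q : ℕ) (k l : Fin n) : A :=
  ∑ a ∈ range q, ((G ^ a) k i * (G ^ (q - 1 - a)) j l + (G ^ a) k j * (G ^ (q - 1 - a)) i l)

/-- product of traces -/
def Pt (l : List ℕ) : A := (l.map fun p => trace (G ^ p)).prod

/-- derivative of a product of traces -/
def Bl (i j : Fin n) : List ℕ → A
  | [] => 0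
  | p :: l => trace (G ^ p) * Bl i j l + Pt G l * (2 * p * (G ^ (p - 1)) i j)

variable {G} {E : A →+ ℝ}

lemma Pt_cons (p : ℕ) (l : List ℕ) : Pt G (p :: l) = trace (G ^ p) * Pt G l := by simp [Pt]

lemma Pt_app (l l' : List ℕ) : Pt G (l ++ l') = Pt G l * Pt G l' := by simp [Pt]

lemma St.psym (h : St G E) (q : ℕ) (i j : Fin n) : (G ^ q) i j = (G ^ q) j i := by
  have : Gᵀ = G := by ext i j; exact h.sym j i
  rw [← transpose_apply (G ^ q), transpose_pow, this]

section D
variable {i j : Fin n} {D : Derivation ℕ A A}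
  (hD : ∀ k l, D (G k l) = (if k = i ∧ l = j then 1 else 0) + if k = j ∧ l = i then 1 else 0)
include hD

lemma D_pow (q : ℕ) (k l : Fin n) : D ((G ^ q) k l) = Dl G i j q k l := by
  induction q generalizing l with
  | zero => simp only [pow_zero, one_apply, Dl, range_zero, sum_empty]; split_ifs <;> simp
  | succ q ih =>
    rw [pow_succ, mul_apply, map_sum, Dl, sum_range_succ]
    simp only [Derivation.leibniz, smul_eq_mul, sum_add_distrib, ih, hD, Dl, mul_sum, mul_add]
    rw [add_comm]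
    congr 1
    · rw [sum_comm, sum_comm (s := univ)]
      congr 1 <;> refine sum_congr rfl fun a ha => ?_ <;>
      · rw [show q + 1 - 1 - a = q - 1 - a + 1 by have := mem_range.1 ha; omega, pow_succ,
          mul_apply, mul_sum]
        exact sum_congr rfl fun m _ => by ring
    · simp [ite_and, one_apply, eq_comm]

lemma D_tr (h : St G E) (p : ℕ) : D (trace (G ^ p)) = 2 * p * (G ^ (p - 1)) i j := by
  simp only [trace, diag_apply, map_sum, D_pow hD, Dl]
  rw [sum_comm, sum_congr rfl (g := fun _ => 2 * (G ^ (p - 1)) i j) fun a ha => ?_]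
  · simp [mul_assoc, mul_left_comm]
  · have e : G ^ (p - 1) = G ^ (p - 1 - a) * G ^ a := by
      rw [← pow_add]; congr 1; have := mem_range.1 ha; omega
    rw [sum_add_distrib, two_mul]
    congr 1
    · rw [h.psym (p - 1), e, mul_apply]; exact sum_congr rfl fun m _ => mul_comm _ _
    · rw [e, mul_apply]; exact sum_congr rfl fun m _ => mul_comm _ _

lemma D_Pt (h : St G E) (l : List ℕ) : D (Pt G l) = Bl G i j l := by
  induction l with
  | nil => simp [Pt, Bl]
  | cons p l ih => rw [Pt_cons, Derivation.leibniz, ih, D_tr hD h, Bl, smul_eq_mul, smul_eq_mul]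

end D

lemma St.key (h : St G E) (i j : Fin n) (q : ℕ) (l : List ℕ) :
    E (G i j * ((G ^ q) j i * Pt G l)) ≤
      E (Pt G l * Dl G i j q j i) + E ((G ^ q) j i * Bl G i j l) := by
  rcases h.ibp i j with h0 | ⟨-, D, h1, h2⟩
  · rw [h0, zero_mul, map_zero]; exact add_nonneg (h.pos _) (h.pos _)
  · rw [h1, Derivation.leibniz, D_Pt h2 h, D_pow h2, map_add, smul_eq_mul, smul_eq_mul, add_comm]

lemma tr_add (a b : ℕ) : ∑ i, ∑ j, (G ^ a) j i * (G ^ b) i j = trace (G ^ (a + b)) := by
  rw [pow_add, sum_comm]; simp only [trace, diag_apply, mul_apply]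

lemma St.sumDl (h : St G E) (q : ℕ) : ∑ i, ∑ j, Dl G i j q j i =
    q * trace (G ^ (q - 1)) + ∑ a ∈ range q, trace (G ^ a) * trace (G ^ (q - 1 - a)) := by
  simp only [Dl]
  rw [sum_congr rfl fun i _ => sum_comm, sum_comm]
  simp only [sum_add_distrib]
  congr 1
  · rw [sum_congr rfl (g := fun _ => trace (G ^ (q - 1))) fun a ha => ?_]
    · simp
    · rw [show q - 1 = a + (q - 1 - a) by have := mem_range.1 ha; omega, ← tr_add,
        Nat.add_sub_cancel_left]
      exact sum_congr rfl fun i _ => sum_congr rfl fun j _ => by rw [h.psym (q - 1 - a) i j]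
  · refine sum_congr rfl fun a _ => ?_
    simp only [trace, diag_apply, sum_mul_sum]
    exact sum_comm

lemma E_nat (k : ℕ) (a : A) : E (k * a) = k * E a := by
  rw [← nsmul_eq_mul, map_nsmul, nsmul_eq_mul]

section bd
variable {c : ℕ → ℝ} {K : ℕ} {κ : ℝ}

lemma St.third (h : St G E) (c0 : ∀ p, 0 ≤ c p) (κ0 : 0 ≤ κ) {q N : ℕ}
    (hκ : ∀ p ≤ K, 2 * p * c (q + (p - 1)) ≤ p * κ * c p)
    (ih : ∀ l : List ℕ, l.sum + l.length < N → l.sum ≤ K → E (Pt G l) ≤ (l.map c).prod)
    (l l₀ : List ℕ) (h1 : q + 2 + (l₀.sum + l₀.length) + (l.sum + l.length) ≤ N)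
    (h2 : q + 1 + l₀.sum + l.sum ≤ K) :
    ∑ i, ∑ j, E (Pt G l₀ * ((G ^ q) j i * Bl G i j l)) ≤
      l.sum * κ * ((l₀.map c).prod * (l.map c).prod) := by
  induction l generalizing l₀ with
  | nil => simp [Bl]
  | cons p l ih' =>
    simp only [List.sum_cons, List.length_cons] at h1 h2
    have a1 := ih' (p :: l₀) (by simp only [List.sum_cons, List.length_cons]; omega)
      (by simp only [List.sum_cons]; omega)
    have a2 := ih ((q + (p - 1)) :: (l₀ ++ l)) (by simp; omega) (by simp; omega)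
    have a3 : ∑ i, ∑ j, E (Pt G l₀ * ((G ^ q) j i * (Pt G l * (2 * p * (G ^ (p - 1)) i j)))) =
        2 * p * E (Pt G ((q + (p - 1)) :: (l₀ ++ l))) := by
      rw [Pt_cons, Pt_app, ← tr_add, show (2 * p : ℝ) = (2 * p : ℕ) by simp, ← E_nat]
      simp only [← map_sum, sum_mul, mul_sum]
      congr 1
      exact sum_congr rfl fun i _ => sum_congr rfl fun j _ => by push_cast; ring
    have p0 : ∀ l : List ℕ, 0 ≤ (l.map c).prod := fun l =>
      List.prod_nonneg fun x hx => by obtain ⟨p, -, rfl⟩ := List.mem_map.1 hx; exact c0 p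
    have a4 := mul_le_mul_of_nonneg_right (hκ p (by omega)) (mul_nonneg (p0 l₀) (p0 l))
    have a5 := mul_le_mul_of_nonneg_left a2 (show (0 : ℝ) ≤ 2 * p by positivity)
    simp only [Bl, mul_add, map_add, sum_add_distrib, a3, List.sum_cons, List.map_cons,
      List.prod_cons, List.map_append, List.prod_append, Pt_cons, Nat.cast_add] at a1 a5 ⊢
    have e : ∀ i j, Pt G l₀ * ((G ^ q) j i * (trace (G ^ p) * Bl G i j l)) =
      trace (G ^ p) * Pt G l₀ * ((G ^ q) j i * Bl G i j l) := fun i j => by ring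
    simp only [e]
    linarith

lemma St.main (h : St G E) (c0 : ∀ p, 0 ≤ c p) (cn : c 0 = n)
    (hc : ∀ q < K, ∃ κ, 0 ≤ κ ∧ (∀ p ≤ K, 2 * p * c (q + (p - 1)) ≤ p * κ * c p) ∧
      q * c (q - 1) + ∑ a ∈ range q, c a * c (q - 1 - a) + K * κ ≤ c (q + 1))
    (l : List ℕ) (hl : l.sum ≤ K) : E (Pt G l) ≤ (l.map c).prod := by
  induction hN : l.sum + l.length using Nat.strong_induction_on generalizing l with
  | _ N ih =>
  have ih' : ∀ l : List ℕ, l.sum + l.length < N → l.sum ≤ K → E (Pt G l) ≤ (l.map c).prod :=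
    fun l h1 h2 => ih _ h1 l h2 rfl
  have p0 : ∀ l : List ℕ, 0 ≤ (l.map c).prod := fun l =>
    List.prod_nonneg fun x hx => by obtain ⟨p, -, rfl⟩ := List.mem_map.1 hx; exact c0 p
  rcases l with _ | ⟨_ | q, l⟩
  · simp [Pt, h.one]
  · simp only [List.sum_cons, List.length_cons] at hN hl
    rw [Pt_cons, pow_zero, trace_one, Fintype.card_fin, E_nat, List.map_cons, List.prod_cons, cn]
    exact mul_le_mul_of_nonneg_left (ih' l (by omega) (by omega)) (Nat.cast_nonneg _)
  simp only [List.sum_cons, List.length_cons] at hN hl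
  obtain ⟨κ, κ0, k1, k2⟩ := hc q (by omega)
  have a1 : E (Pt G ((q + 1) :: l)) = ∑ i, ∑ j, E (G i j * ((G ^ q) j i * Pt G l)) := by
    rw [Pt_cons, ← tr_add]
    simp only [← map_sum, sum_mul, pow_one]
    congr 1
    exact sum_congr rfl fun i _ => sum_congr rfl fun j _ => by ring
  have a2 := h.third c0 κ0 k1 ih' l [] (by simp; omega) (by simp; omega)
  have a3 : ∑ i, ∑ j, E (Pt G l * Dl G i j q j i) = q * E (Pt G ((q - 1) :: l)) +
      ∑ a ∈ range q, E (Pt G (a :: (q - 1 - a) :: l)) := by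
    simp only [← map_sum, ← mul_sum, h.sumDl, ← E_nat, ← map_add, Pt_cons]
    congr 1
    rw [mul_add, mul_sum]
    congr 1
    · ring
    · exact sum_congr rfl fun a _ => by ring
  have a4 := mul_le_mul_of_nonneg_left (ih' ((q - 1) :: l) (by simp; omega) (by simp; omega))
    (Nat.cast_nonneg (α := ℝ) q)
  have a5 := sum_le_sum (s := range q) fun a ha => ih' (a :: (q - 1 - a) :: l)
    (by have := mem_range.1 ha; simp; omega) (by have := mem_range.1 ha; simp; omega)
  have a6 := sum_le_sum (s := univ) fun i _ => sum_le_sum (s := univ) fun j _ => h.key i j q l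
  have a7 := mul_le_mul_of_nonneg_right k2 (p0 l)
  have a8 : (l.sum : ℝ) * κ * (l.map c).prod ≤ K * κ * (l.map c).prod := by
    have := p0 l
    have : (l.sum : ℝ) ≤ K := by exact_mod_cast (by omega : l.sum ≤ K)
    gcongr
  simp only [sum_add_distrib, a3, ← a1] at a6
  simp only [show Pt G [] = 1 from rfl, List.map_nil, List.prod_nil, one_mul, List.map_cons,
    List.prod_cons, add_mul, sum_mul, mul_assoc] at a2 a4 a5 a7 a8 ⊢
  linarith

end bd

lemma St.row (h : St G E) (i : Fin n) (k : ℕ) :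
    E ((∑ j, G i j ^ 2) ^ k) ≤ (n + 2 * k) ^ k := by
  obtain ⟨R, hR⟩ : ∃ R, R = ∑ j, G i j ^ 2 := ⟨_, rfl⟩
  rw [← hR]
  have st : ∀ k : ℕ, E (R ^ (k + 1)) ≤ (n + 2 * k) * E (R ^ k) := fun k => by
    have a : ∀ j, E (G i j * (G i j * R ^ k)) ≤ E (R ^ k) + E (2 * k * R ^ (k - 1) * G i j ^ 2) :=
      fun j => by
        rcases h.ibp i j with h0 | ⟨ij, D, h1, h2⟩
        · rw [h0, zero_mul, map_zero]; exact add_nonneg (h.pos _) (h.pos _)
        · have e : D R = 2 * G i j := by simp [hR, h2, ij, map_sum]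
          rw [h1, Derivation.leibniz, Derivation.leibniz_pow, e, h2, ← map_add]
          refine le_of_eq (congrArg _ ?_)
          simp only [ij, smul_eq_mul, nsmul_eq_mul, and_self, if_true, false_and, if_false]
          ring
    have b := sum_le_sum (s := univ) fun j _ => a j
    simp only [sum_add_distrib, ← map_sum, ← mul_assoc, ← sq, ← sum_mul, ← mul_sum, ← hR,
      sum_const, card_univ, Fintype.card_fin, nsmul_eq_mul] at b
    rw [pow_succ', add_mul]
    refine b.trans (le_of_eq ?_)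
    rw [E_nat, show (2 * k : ℝ) = (2 * k : ℕ) by simp, ← E_nat (2 * k)]
    congr 2
    cases k <;> simp [pow_succ, mul_assoc]
  induction k with
  | zero => simp [h.one]
  | succ k ih =>
    refine (st k).trans ?_
    rw [pow_succ']
    push_cast
    have := h.pos (R ^ k)
    gcongr
    · linarith
    · refine ih.trans ?_; gcongr; linarith

lemma St.ent (h : St G E) (i j : Fin n) : E (G i j ^ 6) ≤ 15 := by
  rcases h.ibp i j with h0 | ⟨ij, D, h1, h2⟩
  · simp [h0]
  have st : ∀ k : ℕ, E (G i j ^ (k + 2)) = (k + 1) * E (G i j ^ k) := fun k => by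
    rw [pow_succ', h1, Derivation.leibniz_pow, h2, show (k + 1 : ℝ) = (k + 1 : ℕ) by simp, ← E_nat]
    simp [ij]
  rw [st 4, st 2, st 0, pow_zero, h.one]
  norm_num

end Vale.Agent.P150.Goe
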