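import Vale.Agent.P150.Spec
import Vale.Agent.P150.Goe1

/-! Module G: the norm, rows and entries of the coupling matrix. -/

namespace Vale.Agent.P150

namespace Goe

open Finset Matrix MeasureTheory ProbabilityTheory MvPolynomial Filter Topology

/-- the majorant -/
noncomputable def dd (s η : ℝ) : ℕ → ℝ
  | 0 => 1
  | q + 1 => (∑ a : Fin q, dd s η a * dd s η (q - 1 - a) + η) / s

section num
variable {s η : ℝ}

lemma dd_succ (q : ℕ) :
    dd s η (q + 1) = (∑ a ∈ range q, dd s η a * dd s η (q - 1 - a) + η) / s := by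
  rw [dd, Fin.sum_univ_eq_sum_range (fun a => dd s η a * dd s η (q - 1 - a))]

lemma dd_pos (s0 : 0 < s) (η0 : 0 ≤ η) (p : ℕ) : 0 ≤ dd s η p := by
  induction p using Nat.strong_induction_on with
  | _ p ih =>
  rcases p with _ | q
  · simp [dd]
  · rw [dd_succ]
    exact div_nonneg (add_nonneg (sum_nonneg fun a ha => mul_nonneg
      (ih _ (by have := mem_range.1 ha; omega)) (ih _ (by omega))) η0) s0.le

lemma dd_sum (s0 : 0 < s) (η0 : 0 ≤ η) {K : ℕ} (h : 4 + K * η ≤ s) (k : ℕ) (hk : k ≤ K + 1) :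
    ∑ p ∈ range k, dd s η p ≤ 2 := by
  induction k with
  | zero => simp
  | succ k ih =>
    have ih := ih (by omega)
    have d0 := dd_pos s0 η0
    have a : ∑ q ∈ range k, ∑ a ∈ range q, dd s η a * dd s η (q - 1 - a) ≤ 4 := by
      rcases k with _ | k
      · simp
      rw [sum_range_succ']
      simp only [Nat.add_sub_cancel, range_zero, sum_empty, add_zero]
      rw [sum_range_diag_flip k fun a b => dd s η a * dd s η b]
      have b : ∀ m ≤ k + 1, ∑ p ∈ range m, dd s η p ≤ 2 := fun m hm =>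
        (sum_le_sum_of_subset_of_nonneg (range_mono hm) fun p _ _ => d0 p).trans ih
      refine (sum_le_sum (g := fun m => dd s η m * 2) fun m _ => ?_).trans ?_
      · rw [← mul_sum]; exact mul_le_mul_of_nonneg_left (b _ (by omega)) (d0 m)
      · rw [← sum_mul]; linarith [b k (by omega)]
    have : (k : ℝ) * η ≤ K * η := by gcongr; omega
    rw [sum_range_succ', show dd s η 0 = 1 by simp [dd]]
    simp only [dd_succ, ← sum_div, sum_add_distrib, sum_const, card_range, nsmul_eq_mul]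
    rw [← le_sub_iff_add_le, div_le_iff₀ s0]
    linarith

lemma dd_le (s0 : 0 < s) (η0 : 0 ≤ η) {K : ℕ} (h : 4 + K * η ≤ s) {p : ℕ} (hp : p ≤ K) :
    dd s η p ≤ 1 := by
  rcases p with _ | q
  · simp [dd]
  have := dd_sum s0 η0 h (q + 2) (by omega)
  rw [sum_range_succ, sum_range_succ', show dd s η 0 = 1 by simp [dd]] at this
  linarith [sum_nonneg (s := range q) fun p _ => dd_pos s0 η0 (p + 1)]

end num

lemma trace_le {A : Type} [CommSemiring A] {n : ℕ} {G : Matrix (Fin n) (Fin n) A} {E : A →+ ℝ}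
    (h : St G E) {r : ℝ} (r0 : 0 < r) (r3 : r ≤ 3) {K : ℕ} (K1 : 1 ≤ K) (n1 : 1 ≤ n)
    (hK : 4 + 10 * (K : ℝ) ^ 2 / n ≤ r ^ 2) : E (trace (G ^ K)) ≤ n * (r * √n) ^ K := by
  have n0 : (0 : ℝ) < n := by exact_mod_cast n1
  have K0 : (1 : ℝ) ≤ K := by exact_mod_cast K1
  obtain ⟨ρ, hρ⟩ : ∃ ρ, ρ = r * √n := ⟨_, rfl⟩
  obtain ⟨s, hs⟩ : ∃ s, s = r ^ 2 := ⟨_, rfl⟩
  obtain ⟨η, hη⟩ : ∃ η : ℝ, η = 5 * K / n := ⟨_, rfl⟩
  have ρ0 : 0 < ρ := by rw [hρ]; positivity
  have s0 : 0 < s := by rw [hs]; positivity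
  have η0 : 0 < η := by rw [hη]; positivity
  have s9 : s ≤ 9 := by rw [hs]; nlinarith
  have e1 : ρ ^ 2 = s * n := by rw [hρ, hs, mul_pow, Real.sq_sqrt n0.le]
  have e2 : η * n = 5 * K := by rw [hη]; field_simp
  have d0 := dd_pos s0 η0.le
  have d1 : ∀ p ≤ 2 * K, dd s η p ≤ 1 := fun p => dd_le s0 η0.le (by
    rw [hη, hs]; refine le_of_eq_of_le ?_ hK; push_cast; ring)
  have := h.main (c := fun p => n * dd s η p * ρ ^ p) (K := K)
    (fun p => by have := d0 p; positivity) (by simp [dd]) (fun q hq =>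
      ⟨2 * ρ ^ (q + 1) / (η * n), by positivity, fun p hp => ?_, ?_⟩) [K] (by simp)
  · simp only [Pt, List.map_cons, List.map_nil, List.prod_cons, List.prod_nil, mul_one] at this
    refine this.trans ?_
    rw [← hρ, mul_assoc]
    exact mul_le_mul_of_nonneg_left (mul_le_of_le_one_left (by positivity) (d1 K (by omega))) n0.le
  · rcases p with _ | p
    · simp
    have a1 : η / s ≤ dd s η (p + 1) := by
      rw [dd_succ]
      gcongr
      exact le_add_of_nonneg_left (sum_nonneg fun a _ => mul_nonneg (d0 _) (d0 _))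
    rw [Nat.add_sub_cancel]
    calc _ ≤ 2 * ((p + 1 : ℕ) : ℝ) * (n * 1 * ρ ^ (q + p)) := by gcongr; exact d1 _ (by omega)
      _ = (p + 1 : ℕ) * (2 * ρ ^ (q + 1) / (η * n)) * (n * (η / s) * ρ ^ (p + 1)) := by
        have : ρ ^ (q + 1) * ρ ^ (p + 1) = ρ ^ (q + p) * (s * n) := by rw [← e1]; ring
        field_simp
        linear_combination -this
      _ ≤ _ := by gcongr
  · have a1 : (q : ℝ) * (n * dd s η (q - 1) * ρ ^ (q - 1)) ≤ K / s * ρ ^ (q + 1) := by
      rcases q with _ | q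
      · simp; positivity
      rw [Nat.add_sub_cancel]
      have b1 : ((q + 1 : ℕ) : ℝ) ≤ K := by exact_mod_cast hq.le
      have b2 := d1 q (by omega)
      have b3 := d0 q
      calc _ ≤ (K : ℝ) * (n * 1 * ρ ^ q) := by gcongr
        _ = _ := by rw [pow_add ρ q 2, e1]; field_simp
    have a2 : ∑ a ∈ range q, n * dd s η a * ρ ^ a * (n * dd s η (q - 1 - a) * ρ ^ (q - 1 - a)) =
        n * ((∑ a ∈ range q, dd s η a * dd s η (q - 1 - a)) / s) * ρ ^ (q + 1) := by
      rw [sum_div, mul_sum, sum_mul]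
      refine sum_congr rfl fun a ha => ?_
      rw [show q + 1 = a + (q - 1 - a) + 2 by have := mem_range.1 ha; omega, pow_add, pow_add, e1]
      field_simp
    have a3 : K / s + 2 / 5 ≤ n * (η / s) := by
      rw [← mul_div_assoc, mul_comm _ η, e2, le_div_iff₀ s0, add_mul, div_mul_cancel₀ _ s0.ne']
      linarith
    have a4 := mul_le_mul_of_nonneg_right a3 (pow_pos ρ0 (q + 1)).le
    have a5 : K * (2 * ρ ^ (q + 1) / (η * n)) = 2 / 5 * ρ ^ (q + 1) := by rw [e2]; field_simp
    rw [a2, a5, dd_succ, add_div]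
    linarith

lemma quad {n : ℕ} (B : Matrix (Fin n) (Fin n) ℝ) (hB : Bᵀ = B) {k : ℕ} (k1 : k ≠ 0) {t : ℝ}
    (t0 : 0 ≤ t) (h : trace (B ^ (2 * k)) ≤ t ^ (2 * k)) (y : Fin n → ℝ) :
    |∑ i, ∑ j, B i j * y i * y j| ≤ t * ∑ i, y i ^ 2 := by
  obtain ⟨a, ha⟩ : ∃ a : ℕ → ℝ, ∀ j, a j = ∑ i, (B ^ j *ᵥ y) i ^ 2 := ⟨_, fun _ => rfl⟩
  have a0 : ∀ j, 0 ≤ a j := fun j => ha j ▸ sum_nonneg fun _ _ => sq_nonneg _
  have c1 : ∀ j, a (j + 1) ^ 2 ≤ a j * a (j + 2) := fun j => by
    have : a (j + 1) = ∑ i, (B ^ j *ᵥ y) i * (B ^ (j + 2) *ᵥ y) i := by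
      rw [ha, pow_succ' B (j + 1), ← mulVec_mulVec, ← dotProduct, dotProduct_mulVec,
        ← mulVec_transpose, hB, mulVec_mulVec, ← pow_succ']
      simp only [sq, dotProduct]
    rw [this, ha, ha]
    exact sum_mul_sq_le_sq_mul_sq _ _ _
  have c2 : ∀ j, a 1 * a j ≤ a 0 * a (j + 1) := fun j => by
    induction j with
    | zero => rw [mul_comm]
    | succ j ih =>
      rcases (a0 (j + 1)).eq_or_lt with e | e
      · rw [← e, mul_zero]; exact mul_nonneg (a0 _) (a0 _)
      · refine le_of_mul_le_mul_right ?_ e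
        nlinarith [mul_le_mul_of_nonneg_left (c1 j) (a0 1),
          mul_le_mul_of_nonneg_right ih (a0 (j + 2))]
  have c3 : ∀ j, a 1 ^ j * a 0 ≤ a 0 ^ j * a j := fun j => by
    induction j with
    | zero => simp
    | succ j ih =>
      rw [pow_succ, pow_succ]
      linarith [mul_le_mul_of_nonneg_left ih (a0 1),
        mul_le_mul_of_nonneg_left (c2 j) (pow_nonneg (a0 0) j)]
  have e0 : a 0 = ∑ i, y i ^ 2 := by simp [ha]
  have c4 : a k ≤ t ^ (2 * k) * a 0 := by
    refine le_trans ?_ (mul_le_mul_of_nonneg_right h (a0 0))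
    rw [two_mul, ← tr_add, sum_comm, sum_mul, ha, e0]
    refine sum_le_sum fun i _ => (sum_mul_sq_le_sq_mul_sq univ ((B ^ k) i) y).trans_eq ?_
    congr 1
    refine sum_congr rfl fun j _ => ?_
    rw [sq, ← transpose_apply (B ^ k) i j, transpose_pow, hB]
  have c5 : a 1 ≤ t ^ 2 * a 0 := by
    rcases (a0 0).eq_or_lt with e | e
    · have y0 : y = 0 := funext fun i => by
        simpa using (sum_eq_zero_iff_of_nonneg fun i _ => sq_nonneg (y i)).1 (e0 ▸ e.symm) i
          (mem_univ i)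
      simp [ha, y0]
    · refine (pow_le_pow_iff_left₀ (a0 1) (by positivity) k1).1 (le_of_mul_le_mul_right
        ((c3 k).trans ((mul_le_mul_of_nonneg_left c4 (by positivity)).trans_eq ?_)) e)
      rw [mul_pow, ← pow_mul]; ring
  rw [← e0]
  refine abs_le_of_sq_le_sq' ?_ (mul_nonneg t0 (a0 0)) |> abs_le.2
  have : ∑ i, ∑ j, B i j * y i * y j = ∑ i, y i * (B ^ 1 *ᵥ y) i :=
    sum_congr rfl fun i _ => by
      rw [pow_one, mulVec, dotProduct, mul_sum]; exact sum_congr rfl fun j _ => by ring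
  rw [this]
  refine (sum_mul_sq_le_sq_mul_sq _ _ _).trans ?_
  rw [← e0, ← ha]
  nlinarith [mul_le_mul_of_nonneg_left c5 (a0 0)]

/-- Gaussian moments -/
noncomputable def mo (k : ℕ) : ℝ := ∫ x, x ^ k ∂gaussianReal 0 1

lemma mo_succ (k : ℕ) : mo (k + 1) = k * mo (k - 1) := by
  have h : ∀ k, mo k = iteratedDeriv k (fun t : ℝ => Real.exp (t ^ 2 / 2)) 0 := fun k => by
    have := iteratedDeriv_mgf_zero (X := id) (μ := gaussianReal 0 1) (by simp) k
    rw [mgf_id_gaussianReal] at this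
    simpa [mo] using this.symm
  have h1 : deriv (fun t : ℝ => Real.exp (t ^ 2 / 2)) = fun t => t * Real.exp (t ^ 2 / 2) := by
    ext t
    rw [(((hasDerivAt_pow 2 t).div_const 2).exp).deriv]
    simp [mul_comm]
  rw [h, h, iteratedDeriv_succ', h1, iteratedDeriv_fun_mul (by fun_prop) (by fun_prop)]
  simp only [iteratedDeriv_fun_id_zero, mul_ite, ite_mul, mul_zero, zero_mul, mul_one,
    Finset.sum_ite_eq', Finset.mem_range, Nat.choose_one_right]
  cases k <;> simp

lemma mo_pos (k : ℕ) : 0 ≤ mo k := by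
  induction k using Nat.strong_induction_on with
  | _ k ih =>
  rcases k with _ | k
  · simp [mo]
  · rw [mo_succ]; exact mul_nonneg (Nat.cast_nonneg _) (ih _ (by omega))

variable {n : ℕ}

lemma ev_mon (x : Pair n → ℝ) (s : Pair n →₀ ℕ) (a : ℕ) :
    aeval x (monomial s a) = a * ∏ i, x i ^ s i := by
  simp [aeval_monomial, Finsupp.prod_fintype]

lemma int_ev (p : MvPolynomial (Pair n) ℕ) : Integrable (fun x => aeval x p) (disorder n) := by
  induction p using MvPolynomial.induction_on' with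
  | monomial s a =>
    simp only [ev_mon]
    refine (Integrable.fintype_prod (f := fun i (x : ℝ) => x ^ s i) fun i => ?_).const_mul _
    exact ((memLp_id_gaussianReal' (μ := 0) (v := 1) (s i) (by simp)).integrable_norm_pow').mono'
      (by fun_prop) (ae_of_all _ fun x => by simp)
  | add p q h1 h2 => simp only [map_add]; exact h1.add h2

/-- Gaussian expectation of a polynomial -/
noncomputable def EE (n : ℕ) : MvPolynomial (Pair n) ℕ →+ ℝ where
  toFun p := ∫ x, aeval x p ∂disorder n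
  map_zero' := by simp
  map_add' p q := by simp only [map_add]; exact integral_add (int_ev p) (int_ev q)

lemma EE_mon (s : Pair n →₀ ℕ) (a : ℕ) : EE n (monomial s a) = a * ∏ i, mo (s i) := by
  simp only [EE, AddMonoidHom.coe_mk, ZeroHom.coe_mk, ev_mon, integral_const_mul, disorder]
  rw [integral_fintype_prod_eq_prod (fun i (x : ℝ) => x ^ s i)]
  rfl

lemma stein (i : Pair n) (p : MvPolynomial (Pair n) ℕ) : EE n (X i * p) = EE n (pderiv i p) := by
  induction p using MvPolynomial.induction_on' with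
  | monomial s a =>
    rw [pderiv_monomial, X, monomial_mul, EE_mon, EE_mon,
      ← mul_prod_erase _ _ (mem_univ i), ← mul_prod_erase _ _ (mem_univ i),
      prod_congr rfl (g := fun j => mo (s j)),
      prod_congr rfl (f := fun j => mo ((s - Finsupp.single i 1 : Pair n →₀ ℕ) j))
        (g := fun j => mo (s j))]
    · simp [add_comm 1, mo_succ, mul_assoc]
    all_goals
      intro j hj
      simp [ne_of_mem_erase hj]
  | add p q h1 h2 => simp only [mul_add, map_add, h1, h2]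

/-- the generic coupling matrix -/
noncomputable def GG (n : ℕ) : Matrix (Fin n) (Fin n) (MvPolynomial (Pair n) ℕ) :=
  of fun i j => if h : i < j then X ⟨(i, j), h⟩ else if h : j < i then X ⟨(j, i), h⟩ else 0

lemma GG_sym (i j : Fin n) : GG n i j = GG n j i := by
  rcases lt_trichotomy i j with h | rfl | h
  · simp [GG, h, h.not_gt]
  · rfl
  · simp [GG, h, h.not_gt]

lemma GG_D {i j : Fin n} (h : i < j) (k l : Fin n) : pderiv ⟨(i, j), h⟩ (GG n k l) =
    (if k = i ∧ l = j then 1 else 0) + if k = j ∧ l = i then 1 else 0 := by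
  simp only [GG, of_apply]
  split_ifs <;> simp [pderiv_X, Pi.single_apply] <;> omega

lemma st (n : ℕ) : St (GG n) (EE n) where
  pos p := by
    induction p using MvPolynomial.induction_on' with
    | monomial s a =>
      rw [EE_mon]; exact mul_nonneg (Nat.cast_nonneg _) (prod_nonneg fun _ _ => mo_pos _)
    | add p q h1 h2 => rw [map_add]; exact add_nonneg h1 h2
  one := by simp [EE, disorder]
  sym := GG_sym
  ibp i j := by
    rcases lt_trichotomy i j with h | rfl | h
    · have e : GG n i j = X ⟨(i, j), h⟩ := by simp [GG, h]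
      exact .inr ⟨h.ne, _, fun P => (congrArg (fun a => EE n (a * P)) e).trans (stein _ P), GG_D h⟩
    · exact .inl (by simp [GG])
    · have e : GG n i j = X ⟨(j, i), h⟩ := by simp [GG, h, h.not_gt]
      exact .inr ⟨h.ne', _, fun P => (congrArg (fun a => EE n (a * P)) e).trans (stein _ P),
        fun k l => (GG_D h k l).trans (add_comm _ _)⟩

lemma ev_G (g : Pair n → ℝ) (i j : Fin n) : aeval g (GG n i j) = coup g i j := by
  simp only [GG, of_apply, coup]; split_ifs <;> simp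

lemma ev_tr (g : Pair n → ℝ) (p : ℕ) :
    aeval g (trace (GG n ^ p)) = trace (of (coup g) ^ p) := by
  have : of (coup g) = (aeval g : MvPolynomial (Pair n) ℕ →ₐ[ℕ] ℝ).mapMatrix (GG n) := by
    ext i j; simp [ev_G]
  rw [this, ← map_pow]
  simp [trace]

lemma markov (P : MvPolynomial (Pair n) ℕ) (h : ∀ g : Pair n → ℝ, 0 ≤ aeval g P) {t b : ℝ}
    (t0 : 0 < t) (hb : EE n P ≤ b * t) :
    disorder n {g | t ≤ aeval g P} ≤ ENNReal.ofReal b := by
  haveI : IsProbabilityMeasure (disorder n) := by unfold disorder; infer_instance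
  rw [← ofReal_measureReal]
  refine ENNReal.ofReal_le_ofReal (le_of_mul_le_mul_left ?_ t0)
  exact (mul_meas_ge_le_integral_of_nonneg (ae_of_all _ h) (int_ev P) t).trans
    (hb.trans_eq (mul_comm _ _))

lemma bound {ε r φ : ℝ} (ε0 : 0 < ε) (r0 : 0 < r) (r3 : r ≤ 3) (φ1 : (r / (2 + ε)) ^ 2 ≤ φ)
    (φ2 : 3 / 4 ≤ φ) {k : ℕ} (k1 : 1 ≤ k) (kn : 4 * k ≤ n) (hk : 4 + 40 * (k : ℝ) ^ 2 / n ≤ r ^ 2) :
    disorder n {g | ¬ (
      (∀ y : Fin n → ℝ, |∑ i, ∑ j, coup g i j * y i * y j| ≤ (2 + ε) * √n * ∑ i, y i ^ 2) ∧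
      (∀ i, ∑ j, coup g i j ^ 2 ≤ 2 * n) ∧ ∀ i j, |coup g i j| ≤ ε * √n)} ≤
      ENNReal.ofReal (2 * (n * φ ^ k) + 15 / ε ^ 6 / n) := by
  have n0 : (0 : ℝ) < n := by exact_mod_cast (by omega : 0 < n)
  have sy : ∀ g : Pair n → ℝ, (of (coup g))ᵀ = of (coup g) := fun g => by
    ext i j; simp [← ev_G, GG_sym i j]
  have b1 := markov (trace (GG n ^ (2 * k))) (t := ((2 + ε) * √n) ^ (2 * k)) (b := n * φ ^ k)
    (fun g => by
      rw [ev_tr, two_mul, ← tr_add]
      refine sum_nonneg fun i _ => sum_nonneg fun j _ => ?_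
      rw [← transpose_apply (of (coup g) ^ k) i j, transpose_pow, sy]
      exact mul_self_nonneg _) (by positivity)
    ((trace_le (st n) r0 r3 (by omega) (by omega) (by
      refine le_of_eq_of_le ?_ hk; push_cast; ring)).trans (by
        rw [mul_assoc, pow_mul, pow_mul, ← mul_pow]
        gcongr
        refine le_of_eq_of_le ?_ (mul_le_mul_of_nonneg_right φ1 (by positivity))
        field_simp))
  have b2 := fun i => markov ((∑ j, GG n i j ^ 2) ^ k) (t := (2 * n) ^ k) (b := φ ^ k)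
    (fun g => by simp only [map_pow, map_sum]; positivity) (by positivity)
    (((st n).row i k).trans (by
      have : (4 * k : ℝ) ≤ n := by exact_mod_cast kn
      rw [← mul_pow]; gcongr; nlinarith))
  have b3 := fun i j => markov (GG n i j ^ 6) (t := (ε * √n) ^ 6) (b := 15 / ε ^ 6 / n / n / n)
    (fun g => by simp only [map_pow]; positivity) (by positivity)
    (((st n).ent i j).trans_eq (by
      rw [mul_pow, show 6 = 2 * 3 from rfl, pow_mul (√n), Real.sq_sqrt n0.le]; field_simp))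
  have u : ∀ (S : Fin n → Set (Pair n → ℝ)) (b : ℝ), (∀ i, disorder n (S i) ≤ ENNReal.ofReal b) →
      disorder n (⋃ i, S i) ≤ ENNReal.ofReal (n * b) := fun S b h => by
    refine (measure_iUnion_fintype_le _ _).trans ((sum_le_sum fun i _ => h i).trans_eq ?_)
    simp [ENNReal.ofReal_mul n0.le]
  have b4 := u _ _ fun i => u _ _ (b3 i)
  have φ0 : 0 ≤ φ := by linarith
  refine (measure_mono fun g hg => ?_).trans (((measure_union_le _ _).trans (add_le_add
    ((measure_union_le _ _).trans (add_le_add b1 (u _ _ b2))) b4)).trans_eq ?_)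
  · by_contra hc
    simp only [Set.mem_union, Set.mem_iUnion, Set.mem_setOf_eq, not_or, not_exists, not_le, ev_tr,
      map_pow, map_sum, ev_G] at hc
    refine hg ⟨quad _ (sy g) (by omega) (by positivity) hc.1.1.le, fun i =>
      le_of_lt (lt_of_pow_lt_pow_left₀ k (by positivity) (hc.1.2 i)), fun i j =>
      le_of_lt (lt_of_pow_lt_pow_left₀ 6 (by positivity) ?_)⟩
    rw [Even.pow_abs (by decide)]; exact hc.2 i j
  · rw [← ENNReal.ofReal_add (by positivity) (by positivity),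
      ← ENNReal.ofReal_add (by positivity) (by positivity)]
    congr 1
    field_simp
    ring

end Goe

open Filter Topology

theorem normStmt : NormStmt := fun ε ε0 => by
  obtain ⟨r, r2, r3, rε⟩ : ∃ r : ℝ, 2 < r ∧ r ≤ 3 ∧ r < 2 + ε :=
    ⟨2 + min ε 1 / 2, by have := lt_min ε0 one_pos; linarith, by have := min_le_right ε 1; linarith,
      by have := min_le_left ε 1; linarith⟩
  obtain ⟨φ, φ1, φ2, φ3⟩ : ∃ φ : ℝ, (r / (2 + ε)) ^ 2 ≤ φ ∧ 3 / 4 ≤ φ ∧ φ < 1 :=
    ⟨_, le_max_left _ _, le_max_right _ _, max_lt (pow_lt_one₀ (by positivity)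
      ((div_lt_one (by linarith)).2 rε) two_ne_zero) (by norm_num)⟩
  have δ0 : 0 < r ^ 2 - 4 := by nlinarith
  obtain ⟨A, hA⟩ := exists_nat_ge (max 4 (40 / (r ^ 2 - 4)))
  have A4 : 4 ≤ A := by exact_mod_cast (le_max_left _ _).trans hA
  have A5 := (div_le_iff₀ δ0).1 ((le_max_right _ _).trans hA)
  have φ0 : 0 < φ := by linarith
  have t1 : Tendsto (fun n : ℕ => (n / A).sqrt) atTop atTop :=
    tendsto_atTop.2 fun b => (eventually_ge_atTop (b ^ 2 * A)).mono fun n hn =>
      Nat.le_sqrt'.2 ((Nat.le_div_iff_mul_le (by omega)).2 hn)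
  have t2 := (((tendsto_pow_const_mul_const_pow_of_abs_lt_one 2 (r := φ)
    (by rwa [abs_of_pos φ0])).comp ((tendsto_add_atTop_nat 1).comp t1)).const_mul
      (2 * A / φ)).add (tendsto_const_div_atTop_nhds_zero_nat (15 / ε ^ 6))
  refine tendsto_of_tendsto_of_tendsto_of_le_of_le' tendsto_const_nhds
    (by simpa using ENNReal.tendsto_ofReal t2) (.of_forall fun _ => zero_le) ?_
  filter_upwards [t1.eventually_ge_atTop 1] with n k1
  obtain ⟨k, hk⟩ : ∃ k, k = (n / A).sqrt := ⟨_, rfl⟩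
  have a1 : k ^ 2 * A ≤ n := (Nat.le_div_iff_mul_le (by omega)).1 (hk ▸ Nat.sqrt_le' _)
  have a2 : n < (k + 1) ^ 2 * A := (Nat.div_lt_iff_lt_mul (by omega)).1 (hk ▸ Nat.lt_succ_sqrt' _)
  rw [← hk] at k1 ⊢
  have a3 : 4 * k ≤ n := by nlinarith
  have a4 : (k : ℝ) ^ 2 * A ≤ n := by exact_mod_cast a1
  have a5 : (n : ℝ) ≤ (k + 1) ^ 2 * A := by exact_mod_cast a2.le
  have n0 : (0 : ℝ) < n := by exact_mod_cast (by omega : 0 < n)
  refine (Goe.bound ε0 (by linarith) r3 φ1 φ2 k1 a3 ?_).trans (ENNReal.ofReal_le_ofReal ?_)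
  · rw [← le_sub_iff_add_le', div_le_iff₀ n0]
    nlinarith [mul_le_mul_of_nonneg_left a4 δ0.le, mul_le_mul_of_nonneg_left A5 (sq_nonneg (k : ℝ))]
  · refine add_le_add_left ((mul_le_mul_of_nonneg_left (mul_le_mul_of_nonneg_right a5
      (by positivity)) zero_le_two).trans_eq ?_) _
    rw [pow_succ φ]
    field_simp

end Vale.Agent.P150
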