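import Vale.Agent.P150.Spec

/-! Tensorization of entropy gives mixing. -/

namespace Vale.Agent.P150

open Function Finset

namespace Mx

variable {n : ℕ} {w : Cfg n → ℝ}

theorem logsum {ι : Type*} (s : Finset ι) (a b : ι → ℝ) (ha : ∀ i ∈ s, 0 < a i)
    (hb : ∀ i ∈ s, 0 < b i) (hs : s.Nonempty) :
    (∑ i ∈ s, a i) * Real.log ((∑ i ∈ s, a i) / ∑ i ∈ s, b i) ≤
      ∑ i ∈ s, a i * Real.log (a i / b i) := by
  have hA : 0 < ∑ i ∈ s, a i := sum_pos ha hs
  have hB : 0 < ∑ i ∈ s, b i := sum_pos hb hs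
  generalize hA' : ∑ i ∈ s, a i = A at hA ⊢
  generalize hB' : ∑ i ∈ s, b i = B at hB ⊢
  have h1 : ∀ i ∈ s, a i * Real.log (A / B) + (a i - b i * (A / B)) ≤
      a i * Real.log (a i / b i) := by
    intro i hi
    have h2 := ha i hi
    have h3 := hb i hi
    have h4 := Real.log_le_sub_one_of_pos (show 0 < (A / B) / (a i / b i) by positivity)
    rw [Real.log_div (by positivity) (by positivity)] at h4
    have h5 := mul_le_mul_of_nonneg_left h4 h2.le
    have h6 : a i * (A / B / (a i / b i) - 1) = b i * (A / B) - a i := by field_simp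
    nlinarith
  have h2 := sum_le_sum h1
  rw [sum_add_distrib, sum_sub_distrib, ← sum_mul, ← sum_mul, hA', hB',
    mul_div_cancel₀ _ hB.ne'] at h2
  linarith

theorem pins {f c : ℝ} (hf : 0 < f) (hc : 0 < c) :
    (f - c) ^ 2 ≤ (f * Real.log (f / c) - f + c) * (2 * (f + c)) := by
  obtain ⟨u, hu, rfl⟩ : ∃ u : ℝ, 0 < u ∧ f = u ^ 2 :=
    ⟨√f, Real.sqrt_pos.2 hf, (Real.sq_sqrt hf.le).symm⟩
  obtain ⟨v, hv, rfl⟩ : ∃ u : ℝ, 0 < u ∧ c = u ^ 2 :=
    ⟨√c, Real.sqrt_pos.2 hc, (Real.sq_sqrt hc.le).symm⟩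
  have h1 := Real.log_le_sub_one_of_pos (show 0 < v / u by positivity)
  have h2 : Real.log (u ^ 2 / v ^ 2) = -(2 * Real.log (v / u)) := by
    rw [← div_pow, Real.log_pow, Real.log_div hu.ne' hv.ne', Real.log_div hv.ne' hu.ne']
    push_cast; ring
  have h3 := mul_le_mul_of_nonneg_left h1 (sq_nonneg u)
  have h4 : u ^ 2 * (v / u - 1) = u * v - u ^ 2 := by field_simp
  have h5 : (u - v) ^ 2 ≤ u ^ 2 * Real.log (u ^ 2 / v ^ 2) - u ^ 2 + v ^ 2 := by
    rw [h2]; nlinarith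
  calc (u ^ 2 - v ^ 2) ^ 2 = (u - v) ^ 2 * (u + v) ^ 2 := by ring
    _ ≤ _ := mul_le_mul h5 (by nlinarith [sq_nonneg (u - v)]) (sq_nonneg _)
        ((sq_nonneg _).trans h5)

theorem Zpos (hw : ∀ x, 0 < w x) : 0 < ∑ y, w y := sum_pos (fun x _ => hw x) univ_nonempty

theorem Spos (hw : ∀ x, 0 < w x) {f : Cfg n → ℝ} (hf : ∀ x, 0 < f x) : 0 < ∑ y, w y * f y :=
  sum_pos (fun x _ => mul_pos (hw x) (hf x)) univ_nonempty

theorem ent_eq (hw : ∀ x, 0 < w x) (f : Cfg n → ℝ) {c : ℝ} (hc : c = (∑ y, w y * f y) / ∑ y, w y) :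
    ∑ x, w x * (f x * Real.log (f x / c) - f x + c) = Ent w f := by
  have h1 : (∑ y, w y) * c = ∑ y, w y * f y := by rw [hc, mul_div_cancel₀ _ (Zpos hw).ne']
  simp only [mul_add, mul_sub, sum_add_distrib, sum_sub_distrib, ← sum_mul, h1, Ent, ← hc,
    mul_assoc]
  ring

theorem phi_nn {f c : ℝ} (hf : 0 < f) (hc : 0 < c) : 0 ≤ f * Real.log (f / c) - f + c :=
  nonneg_of_mul_nonneg_left ((sq_nonneg _).trans (pins hf hc)) (by positivity)

theorem ent_nn (hw : ∀ x, 0 < w x) {f : Cfg n → ℝ} (hf : ∀ x, 0 < f x) : 0 ≤ Ent w f := by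
  rw [← ent_eq hw f rfl]
  exact sum_nonneg fun x _ => mul_nonneg (hw x).le
    (phi_nn (hf x) (div_pos (Spos hw hf) (Zpos hw)))

theorem tv_sq (hw : ∀ x, 0 < w x) {f : Cfg n → ℝ} (hf : ∀ x, 0 < f x) {c : ℝ}
    (hc : c = (∑ y, w y * f y) / ∑ y, w y) :
    (∑ x, w x * |f x - c|) ^ 2 ≤ Ent w f * (4 * ∑ y, w y * f y) := by
  have h0 : 0 < c := hc ▸ div_pos (Spos hw hf) (Zpos hw)
  have h1 : (∑ y, w y) * c = ∑ y, w y * f y := by rw [hc, mul_div_cancel₀ _ (Zpos hw).ne']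
  have h2 : ∑ x, w x * (2 * (f x + c)) = 4 * ∑ y, w y * f y := by
    have : ∀ x, w x * (2 * (f x + c)) = 2 * (w x * f x) + 2 * (w x * c) := fun x => by ring
    simp only [this, sum_add_distrib, ← mul_sum, ← sum_mul, h1]
    ring
  rw [← ent_eq hw f hc, ← h2]
  refine sum_sq_le_sum_mul_sum_of_sq_le_mul _ (fun x _ => mul_nonneg (hw x).le (phi_nn (hf x) h0))
    (fun x _ => mul_nonneg (hw x).le (by have := hf x; positivity)) fun x _ => ?_
  rw [mul_pow, sq_abs]
  have := mul_le_mul_of_nonneg_left (pins (hf x) h0) (sq_nonneg (w x))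
  nlinarith

theorem Q_up (i : Fin n) (f : Cfg n → ℝ) (x : Cfg n) (b : Bool) :
    Q w i f (update x i b) = Q w i f x := by
  simp only [Q, update_idem]

theorem Q_pos (hw : ∀ x, 0 < w x) (i : Fin n) {f : Cfg n → ℝ} (hf : ∀ x, 0 < f x) (x : Cfg n) :
    0 < Q w i f x :=
  div_pos (add_pos (mul_pos (hw _) (hf _)) (mul_pos (hw _) (hf _))) (add_pos (hw _) (hw _))

theorem sum_flip (i : Fin n) (F : Cfg n → ℝ) :
    2 * ∑ x, F x = ∑ x, (F (update x i true) + F (update x i false)) := by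
  have h1 : Involutive fun x : Cfg n => update x i (!x i) := fun x => by simp
  have h2 : ∑ x, F (update x i (!x i)) = ∑ x, F x := Equiv.sum_comp h1.toPerm F
  rw [two_mul]
  nth_rewrite 1 [← h2]
  rw [← sum_add_distrib]
  refine sum_congr rfl fun x _ => ?_
  cases h : x i
  · rw [← h, update_eq_self, h]; rfl
  · rw [← h, update_eq_self, h, add_comm]; rfl

theorem Q_inv (hw : ∀ x, 0 < w x) (i : Fin n) (f g : Cfg n → ℝ)
    (hg : ∀ x b, g (update x i b) = g x) :
    ∑ x, w x * Q w i f x * g x = ∑ x, w x * f x * g x := by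
  refine mul_left_cancel₀ (two_ne_zero (α := ℝ)) ?_
  rw [sum_flip i, sum_flip i]
  refine sum_congr rfl fun x _ => ?_
  have h1 := (add_pos (hw (update x i true)) (hw (update x i false))).ne'
  simp only [Q_up, hg]
  rw [Q]
  field_simp

theorem Q_sa (hw : ∀ x, 0 < w x) (i : Fin n) (f g : Cfg n → ℝ) :
    ∑ x, w x * Q w i f x * g x = ∑ x, w x * f x * Q w i g x := by
  rw [← Q_inv hw i f _ (Q_up i g)]
  simp only [mul_right_comm _ (Q w i f _)]
  exact (Q_inv hw i g _ (Q_up i f)).symm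

theorem Q_mean (hw : ∀ x, 0 < w x) (i : Fin n) (f : Cfg n → ℝ) :
    ∑ x, w x * Q w i f x = ∑ x, w x * f x := by
  simpa using Q_inv hw i f (fun _ => 1) fun _ _ => rfl

theorem ent_Q (hw : ∀ x, 0 < w x) (i : Fin n) {f : Cfg n → ℝ} (hf : ∀ x, 0 < f x) {c : ℝ}
    (hc : 0 < c) : ∑ x, w x * Q w i f x * Real.log (Q w i f x / c) =
      ∑ x, w x * f x * Real.log (f x / c) - ∑ x, w x * f x * Real.log (f x / Q w i f x) := by
  rw [Q_inv hw i f (fun x => Real.log (Q w i f x / c)) fun x b => by simp only [Q_up],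
    ← sum_sub_distrib]
  refine sum_congr rfl fun x _ => ?_
  have h1 := Q_pos hw i hf x
  rw [Real.log_div h1.ne' hc.ne', Real.log_div (hf x).ne' hc.ne', Real.log_div (hf x).ne' h1.ne']
  ring

/-- one step -/
noncomputable def St (w f : Cfg n → ℝ) (x : Cfg n) : ℝ := f x + ∑ i, Q w i f x

theorem St_pos (hw : ∀ x, 0 < w x) {f : Cfg n → ℝ} (hf : ∀ x, 0 < f x) (x : Cfg n) :
    0 < St w f x :=
  add_pos_of_pos_of_nonneg (hf x) (sum_nonneg fun i _ => (Q_pos hw i hf x).le)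

theorem St_sa (hw : ∀ x, 0 < w x) (f g : Cfg n → ℝ) :
    ∑ x, w x * St w f x * g x = ∑ x, w x * f x * St w g x := by
  simp only [St, mul_add, add_mul, sum_add_distrib, mul_sum, sum_mul]
  rw [sum_comm, sum_comm (s := (univ : Finset (Cfg n)))]
  simp only [Q_sa hw]

theorem St_mean (hw : ∀ x, 0 < w x) (f : Cfg n → ℝ) :
    ∑ x, w x * St w f x = (n + 1) * ∑ x, w x * f x := by
  simp only [St, mul_add, sum_add_distrib, mul_sum]
  rw [sum_comm]
  simp only [Q_mean hw, ← mul_sum, sum_const, card_univ, Fintype.card_fin, nsmul_eq_mul]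
  ring

theorem St_ent (hw : ∀ x, 0 < w x) {f : Cfg n → ℝ} (hf : ∀ x, 0 < f x) :
    Ent w (St w f) ≤ (n + 1) * Ent w f - Loc w f := by
  obtain ⟨c, hc⟩ : ∃ c, c = (∑ y, w y * f y) / ∑ y, w y := ⟨_, rfl⟩
  have h0 : 0 < c := hc ▸ div_pos (Spos hw hf) (Zpos hw)
  have h1 : ∀ x, w x * St w f x * Real.log (St w f x / ((n + 1) * c)) ≤
      w x * f x * Real.log (f x / c) + ∑ i, w x * Q w i f x * Real.log (Q w i f x / c) := by
    intro x
    have h2 := logsum (univ : Finset (Option (Fin n)))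
      (fun o => o.elim (f x) fun i => Q w i f x) (fun _ => c)
      (fun o _ => by cases o; exacts [hf x, Q_pos hw _ hf x]) (fun _ _ => h0) univ_nonempty
    simp only [Fintype.sum_option, Option.elim, sum_const, card_univ, Fintype.card_fin,
      nsmul_eq_mul, Fintype.card_option, Nat.cast_add, Nat.cast_one] at h2
    have h3 := mul_le_mul_of_nonneg_left h2 (hw x).le
    rw [mul_add (w x), mul_sum] at h3
    simpa only [St, mul_assoc] using h3
  have h2 := sum_le_sum fun x (_ : x ∈ univ) => h1 x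
  rw [sum_add_distrib, sum_comm] at h2
  simp only [ent_Q hw _ hf h0, sum_sub_distrib, sum_const, card_univ, Fintype.card_fin,
    nsmul_eq_mul] at h2
  rw [Ent, Ent, St_mean hw, mul_div_assoc, ← hc, Loc]
  linarith

theorem iter (hw : ∀ x, 0 < w x) {C : ℝ} (hC : 1 ≤ C)
    (hE : ∀ f, (∀ x, 0 < f x) → Ent w f ≤ C * Loc w f) {f : Cfg n → ℝ} (hf : ∀ x, 0 < f x)
    (k : ℕ) : (∀ x, 0 < (St w)^[k] f x) ∧
      ∑ x, w x * (St w)^[k] f x = (n + 1) ^ k * ∑ x, w x * f x ∧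
      Ent w ((St w)^[k] f) ≤ (n + 1 - 1 / C) ^ k * Ent w f := by
  induction k with
  | zero => simpa using hf
  | succ k ih =>
    obtain ⟨h1, h2, h3⟩ := ih
    rw [iterate_succ_apply']
    refine ⟨St_pos hw h1, by rw [St_mean hw, h2]; ring, ?_⟩
    have h4 := St_ent hw h1
    have h5 : 1 / C * Ent w ((St w)^[k] f) ≤ Loc w ((St w)^[k] f) := by
      rw [one_div, inv_mul_le_iff₀ (by linarith)]
      exact hE _ h1
    have h6 : 1 / C ≤ 1 := by rw [div_le_one (by linarith)]; exact hC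
    have h7 : (0 : ℝ) ≤ n + 1 - 1 / C := by have := Nat.cast_nonneg (α := ℝ) n; linarith
    have h8 := mul_le_mul_of_nonneg_left h3 h7
    rw [pow_succ]
    nlinarith

theorem iter_sa (hw : ∀ x, 0 < w x) (k : ℕ) : ∀ f g : Cfg n → ℝ,
    ∑ x, w x * (St w)^[k] f x * g x = ∑ x, w x * f x * (St w)^[k] g x := by
  induction k with
  | zero => exact fun _ _ => rfl
  | succ k ih =>
    intro f g
    rw [iterate_succ_apply', St_sa hw, ih, iterate_succ_apply]

theorem pow_vec {B : Matrix (Cfg n) (Cfg n) ℝ} (hB : ∀ f, B.mulVec f = St w f) (k : ℕ)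
    (f : Cfg n → ℝ) : (B ^ k).mulVec f = (St w)^[k] f := by
  induction k with
  | zero => simp
  | succ k ih => rw [pow_succ', ← Matrix.mulVec_mulVec, ih, hB, iterate_succ_apply']

theorem St_one (hw : ∀ x, 0 < w x) (c : ℝ) : St w (fun _ => c) = fun _ => (n + 1) * c := by
  funext x
  have h1 : ∀ i, Q w i (fun _ => c) x = c := fun i => by
    have h1 := (add_pos (hw (update x i true)) (hw (update x i false))).ne'
    rw [Q]
    field_simp
  simp only [St, h1, sum_const, card_univ, Fintype.card_fin, nsmul_eq_mul]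
  ring

theorem iter_one (hw : ∀ x, 0 < w x) (c : ℝ) (k : ℕ) :
    (St w)^[k] (fun _ => c) = fun _ => (n + 1) ^ k * c := by
  induction k with
  | zero => simp
  | succ k ih =>
    rw [iterate_succ_apply', ih, St_one hw]
    funext x
    ring

theorem step (hw : ∀ x, 0 < w x) {C D : ℝ} (hC : 1 ≤ C)
    (hE : ∀ f, (∀ x, 0 < f x) → Ent w f ≤ C * Loc w f) (hD : ∀ x, ∑ y, w y ≤ Real.exp D * w x)
    {B : Matrix (Cfg n) (Cfg n) ℝ} (hB : ∀ f, B.mulVec f = St w f) (k : ℕ) (x : Cfg n) :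
    ∑ y, |(B ^ k) x y - (n + 1) ^ k * (w y / ∑ z, w z)| ≤
      4 * √D * (n + 1 - 1 / (2 * C)) ^ k := by
  have hZ := Zpos hw
  have hx := hw x
  have hxZ : w x ≤ ∑ z, w z := single_le_sum (fun z _ => (hw z).le) (mem_univ x)
  have hD0 : 0 ≤ D := by
    by_contra h
    have := Real.exp_lt_one_iff.2 (not_le.1 h)
    have := hD x
    nlinarith
  generalize hZ' : ∑ z, w z = Z at hZ hxZ hD ⊢
  obtain ⟨f, hf⟩ : ∃ f : Cfg n → ℝ, f = (fun _ => w x / Z) + Pi.single x 1 := ⟨_, rfl⟩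
  have hs : ∀ y, (0 : ℝ) ≤ (Pi.single x 1 : Cfg n → ℝ) y ∧ (Pi.single x 1 : Cfg n → ℝ) y ≤ 1 :=
    fun y => by rw [Pi.single_apply]; split_ifs <;> norm_num
  have f0 : ∀ y, 0 < f y := fun y => by
    rw [hf]; exact add_pos_of_pos_of_nonneg (by positivity) (hs y).1
  have f1 : ∑ y, w y * f y = 2 * w x := by
    simp only [hf, Pi.add_apply, mul_add, sum_add_distrib, ← sum_mul, hZ', Pi.single_apply,
      mul_ite, mul_one, mul_zero, sum_ite_eq', mem_univ, if_true]
    field_simp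
    ring
  have f2 : Ent w f ≤ D * (2 * w x) := by
    rw [Ent, f1, hZ', ← f1, mul_sum]
    refine sum_le_sum fun y _ => ?_
    rw [mul_comm D, f1]
    refine mul_le_mul_of_nonneg_left ?_ (mul_pos (hw y) (f0 y)).le
    rw [Real.log_le_iff_le_exp (div_pos (f0 y) (by positivity)), div_le_iff₀ (by positivity)]
    have h1 : f y ≤ w x / Z + 1 := by rw [hf]; exact add_le_add le_rfl (hs y).2
    have h2 : w x / Z ≤ 1 := (div_le_one hZ).2 hxZ
    have h3 : 1 ≤ Real.exp D * (w x / Z) := by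
      rw [← mul_div_assoc, one_le_div hZ]; exact hD x
    rw [mul_div_assoc]
    linarith
  obtain ⟨g0, g1, g2⟩ := iter hw hC hE f0 k
  have g3 : ∀ y, w y * |(St w)^[k] f y - (n + 1) ^ k * (2 * w x / Z)| =
      w x * |(B ^ k) x y - (n + 1) ^ k * (w y / Z)| := by
    intro y
    have h1 := iter_sa hw k (Pi.single x 1) (Pi.single y 1)
    rw [← pow_vec hB, ← pow_vec hB] at h1
    simp only [Pi.single_apply, mul_ite, ite_mul, mul_one, mul_zero, zero_mul, sum_ite_eq',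
      mem_univ, if_true, Matrix.mulVec_single_one, Matrix.col_apply] at h1
    have h2 : (St w)^[k] f y = (n + 1) ^ k * (w x / Z) + (B ^ k) y x := by
      rw [← pow_vec hB, hf, Matrix.mulVec_add, pow_vec hB, iter_one hw]
      simp
    rw [← abs_of_pos (hw y), ← abs_of_pos hx, ← abs_mul, ← abs_mul, abs_of_pos (hw y),
      abs_of_pos hx, h2, mul_sub, mul_add, h1]
    congr 1
    ring
  have g4 := tv_sq hw g0 (c := (n + 1) ^ k * (2 * w x / Z)) (by rw [g1, f1, hZ']; ring)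
  simp only [g3, ← mul_sum] at g4
  have h6 : 1 / C ≤ 1 := by rw [div_le_one (by linarith)]; exact hC
  have h7 : (0 : ℝ) ≤ n + 1 - 1 / C := by have := Nat.cast_nonneg (α := ℝ) n; linarith
  have h8 : 1 / (2 * C) = 1 / C / 2 := by field_simp
  have h9 : 0 ≤ 1 / C := by positivity
  have g5 : (n + 1 - 1 / C) ^ k * (n + 1) ^ k ≤ ((n + 1 - 1 / (2 * C)) ^ k) ^ 2 := by
    rw [← mul_pow, ← pow_mul, mul_comm k, pow_mul]
    refine pow_le_pow_left₀ (by positivity) ?_ k
    rw [h8]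
    nlinarith [sq_nonneg (1 / C)]
  refine le_of_mul_le_mul_left (abs_le_of_sq_le_sq' (g4.trans ?_)
    (mul_nonneg hx.le (mul_nonneg (by positivity) (pow_nonneg (by linarith) k)))).2 hx
  rw [g1, f1]
  have g6 := g2.trans (mul_le_mul_of_nonneg_left f2 (pow_nonneg h7 k))
  calc _ ≤ (n + 1 - 1 / C) ^ k * (D * (2 * w x)) * (4 * ((n + 1) ^ k * (2 * w x))) :=
        mul_le_mul_of_nonneg_right g6 (by positivity)
    _ = (n + 1 - 1 / C) ^ k * (n + 1) ^ k * (16 * D * w x ^ 2) := by ring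
    _ ≤ ((n + 1 - 1 / (2 * C)) ^ k) ^ 2 * (16 * D * w x ^ 2) :=
        mul_le_mul_of_nonneg_right g5 (by positivity)
    _ = _ := by rw [mul_pow, mul_pow, mul_pow, Real.sq_sqrt hD0]; ring

theorem exp_ent (A : Matrix (Cfg n) (Cfg n) ℝ) (x y : Cfg n) :
    HasSum (fun k : ℕ => ((k.factorial : ℝ)⁻¹) * (A ^ k) x y) (NormedSpace.exp A x y) := by
  have h : HasSum (fun k : ℕ => ((k.factorial : ℝ)⁻¹) • A ^ k) (NormedSpace.exp A) := by
    open scoped Matrix.Norms.Operator in exact NormedSpace.exp_series_hasSum_exp' (𝕂 := ℝ) A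
  exact Pi.hasSum.1 (Pi.hasSum.1 h x) y

theorem exp_re (a : ℝ) : HasSum (fun k : ℕ => ((k.factorial : ℝ)⁻¹) * a ^ k) (Real.exp a) := by
  rw [Real.exp_eq_exp_ℝ]
  exact NormedSpace.exp_series_hasSum_exp' (𝕂 := ℝ) a

theorem exp_shift (A : Matrix (Cfg n) (Cfg n) ℝ) (a : ℝ) :
    NormedSpace.exp (A + a • 1) = Real.exp a • NormedSpace.exp A := by
  have h1 : NormedSpace.exp (a • (1 : Matrix (Cfg n) (Cfg n) ℝ)) = Real.exp a • 1 := by
    rw [Matrix.smul_one_eq_diagonal, Matrix.exp_diagonal, Matrix.smul_one_eq_diagonal]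
    congr 1
    funext x
    rw [Pi.coe_exp, Real.exp_eq_exp_ℝ]
  rw [Matrix.exp_add_of_commute _ _ ((Commute.one_right A).smul_right a), h1, mul_smul_comm,
    mul_one]

end Mx

open Mx in
theorem mixStmt : MixStmt := by
  intro n w L C D t hw hC hL hE hD ht x
  have hB : ∀ f, (L + ((n : ℝ) + 1) • 1).mulVec f = St w f := fun f => by
    funext y
    rw [Matrix.add_mulVec, hL, Matrix.smul_mulVec, Matrix.one_mulVec]
    simp only [St, Pi.add_apply, Pi.smul_apply, sum_sub_distrib, sum_const, card_univ,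
      Fintype.card_fin, nsmul_eq_mul, smul_eq_mul]
    ring
  generalize hB' : L + ((n : ℝ) + 1) • 1 = B at hB
  have h1 : NormedSpace.exp (t • B) = Real.exp (t * (n + 1)) • NormedSpace.exp (t • L) := by
    rw [← hB', smul_add, smul_smul, exp_shift]
  have h2 : ∀ y, HasSum (fun k : ℕ => (k.factorial : ℝ)⁻¹ * t ^ k *
      ((B ^ k) x y - (n + 1) ^ k * (w y / ∑ z, w z)))
      (Real.exp (t * (n + 1)) * (NormedSpace.exp (t • L) x y - w y / ∑ z, w z)) := fun y => by
    have h3 := (exp_ent (t • B) x y).sub ((exp_re (t * (n + 1))).mul_right (w y / ∑ z, w z))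
    rw [h1, Matrix.smul_apply, smul_eq_mul, ← mul_sub] at h3
    refine h3.congr_fun fun k => ?_
    rw [smul_pow, Matrix.smul_apply, smul_eq_mul, mul_pow]
    ring
  have h3 := hasSum_sum (s := univ) fun y _ => (h2 y).mul_left (SignType.sign
    (NormedSpace.exp (t • L) x y - w y / ∑ z, w z) : ℝ)
  have h4 := hasSum_le (fun k => ?_) h3 ((exp_re (t * (n + 1 - 1 / (2 * C)))).mul_left (4 * √D))
  · have h5 : t * (n + 1 - 1 / (2 * C)) = t * (n + 1) + -(t / (2 * C)) := by ring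
    simp only [mul_left_comm _ (Real.exp _), sign_mul_self, ← mul_sum] at h4
    rw [h5, Real.exp_add, mul_left_comm] at h4
    exact le_of_mul_le_mul_left h4 (Real.exp_pos _)
  have h5 := mul_le_mul_of_nonneg_left (step hw hC hE hD hB k x)
    (show 0 ≤ (k.factorial : ℝ)⁻¹ * t ^ k by positivity)
  rw [mul_sum] at h5
  refine (sum_le_sum fun y _ => ?_).trans (h5.trans_eq (by rw [mul_pow]; ring))
  rw [mul_left_comm]
  refine mul_le_mul_of_nonneg_left ((le_abs_self _).trans ?_) (by positivity)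
  rw [abs_mul]
  refine mul_le_of_le_one_left (abs_nonneg _) ?_
  rcases SignType.trichotomy (SignType.sign (NormedSpace.exp (t • L) x y - w y / ∑ z, w z))
    with h | h | h <;> simp [h]

end Vale.Agent.P150
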