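import Vale.Agent.P150.Ent4
import Vale.Agent.P150.Mix
import Vale.Agent.P150.Goe

/-! From the abstract estimates to the Sherrington-Kirkpatrick model. -/

namespace Vale.Agent.P150

open Function Finset Filter Topology

variable {n : ℕ}

theorem coup_symm (g : Pair n → ℝ) (i j : Fin n) : coup g i j = coup g j i := by
  unfold coup
  split_ifs with h1 h2 <;> first | rfl | exact absurd h1 h2.not_gt

theorem coup_diag (g : Pair n → ℝ) (i : Fin n) : coup g i i = 0 := by simp [coup]

theorem coup_sum (g : Pair n → ℝ) (s : Fin n → ℝ) :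
    ∑ i, ∑ j, coup g i j * s i * s j = 2 * ∑ p : Pair n, g p * s p.1.1 * s p.1.2 := by
  set a : Fin n → Fin n → ℝ := fun i j => if h : i < j then g ⟨(i, j), h⟩ else 0 with ha
  have h1 : ∀ i j, coup g i j * s i * s j = a i j * s i * s j + a j i * s j * s i := fun i j => by
    simp only [coup, ha]
    split_ifs with h1 h2
    · exact absurd h1 h2.not_gt
    all_goals ring
  have h2 : ∑ p : Pair n, g p * s p.1.1 * s p.1.2 = ∑ i, ∑ j, a i j * s i * s j := by
    rw [← Fintype.sum_prod_type']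
    refine Fintype.sum_of_injective Subtype.val Subtype.val_injective _ _ (fun q hq => ?_)
      fun p => by simp [ha, p.2]
    have : ¬ q.1 < q.2 := fun h => hq ⟨⟨q, h⟩, rfl⟩
    simp [ha, this]
  simp only [h1, sum_add_distrib, h2]
  rw [two_mul]
  congr 1
  exact sum_comm

theorem kernel {J : Fin n → Fin n → ℝ} (hs : ∀ i j, J i j = J j i) (hd : ∀ i, J i i = 0) (h : Fin n → ℝ)
    (i : Fin n) (f : Cfg n → ℝ) (x : Cfg n) {H : ℝ} (hH : H = ∑ k, J i k * sp (x k) + h i) :
    ∑ y : Cfg n, (if ∀ j, j ≠ i → y j = x j then Real.exp (sp (y i) * H) / (2 * Real.cosh H) else 0) *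
      f y = Q (W J h) i f x := by
  rw [← Fintype.sum_of_injective (update x i) (update_injective x i)
    (fun a => Real.exp (sp a * H) / (2 * Real.cosh H) * f (update x i a)) _ (fun y hy => ?_)
    fun a => by rw [if_pos fun j hj => update_of_ne hj _ _, update_self]]
  · have := W_pos J h x
    simp only [Q, W_upd hs hd, ← hH, sub_mul, Real.exp_sub, Fintype.sum_bool, Real.cosh_eq]
    generalize sp (x i) = t
    simp only [sp, if_true, Bool.false_eq_true, if_false, one_mul, neg_mul]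
    field_simp
  · rw [if_neg fun e => hy ⟨y i, ?_⟩, zero_mul]
    ext j
    rcases eq_or_ne j i with rfl | hj
    · simp
    · rw [update_of_ne hj, e j hj]

theorem wt_eq (β : ℝ) (g : Pair n → ℝ) : wt β g = W (fun i j => β / √n * coup g i j) 0 := by
  ext x
  simp only [wt, W, mul_assoc (β / √n), ← mul_sum, coup_sum g fun i => sp (x i)]
  congr 1
  simp
  ring

theorem gen_eq (β : ℝ) (g : Pair n → ℝ) (f : Cfg n → ℝ) :
    (gen β g).mulVec f = fun x => ∑ i, (Q (wt β g) i f x - f x) := by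
  ext x
  rw [gen, Matrix.sum_mulVec, Finset.sum_apply]
  refine sum_congr rfl fun i _ => ?_
  rw [Matrix.sub_mulVec, Matrix.one_mulVec, Pi.sub_apply, wt_eq,
    ← kernel (fun i j => by rw [coup_symm]) (fun i => by rw [coup_diag, mul_zero]) 0 i f x
      (H := field β g x i) (by simp [field, mul_sum, mul_assoc])]
  rfl

theorem dir_eq {w : Cfg n → ℝ} (hw : ∀ x, 0 < w x) (f : Cfg n → ℝ) :
    -∑ x, w x * (f x * ∑ i, (Q w i f x - f x)) = Dir w f := by
  simp only [Dir, sq, ← sum_P hw, mul_sum, ← sum_neg_distrib]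
  rw [sum_comm]
  congr! 2
  ring

theorem good {β : ℝ} (h0 : 0 ≤ β) (h1 : β < 1 / 2) : ∃ l η κ : ℝ, 0 ≤ l ∧ l ≤ 1 ∧ η ≤ 1 / 20 ∧ 0 < κ ∧
    κ ≤ 1 - l - 100 * η * l ∧ Tendsto (fun n : ℕ =>
      disorder n {g | ¬ Good (fun i j => β / √n * coup g i j) l η}) atTop (𝓝 0) := by
  set ε := (1 - 2 * β) / 100 with hε
  have ε0 : 0 < ε := by rw [hε]; linarith
  have b : ε * β ≤ ε / 2 := by nlinarith
  have l1 : (2 + ε) * β ≤ 1 := by linarith
  refine ⟨(2 + ε) * β, β * ε, 49 * ε, by positivity, l1, by linarith, by positivity,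
    by nlinarith [mul_le_mul_of_nonneg_left l1 (mul_nonneg h0 ε0.le)], ?_⟩
  refine tendsto_of_tendsto_of_tendsto_of_le_of_le' tendsto_const_nhds (normStmt ε ε0)
    (.of_forall fun _ => zero_le) ?_
  filter_upwards [eventually_gt_atTop 0] with n hn
  refine MeasureTheory.measure_mono fun g hg ⟨a1, a2, a3⟩ => hg ?_
  have s0 : 0 < √(n : ℝ) := by positivity
  have b0 : 0 ≤ β / √n := by positivity
  refine ⟨fun i j => by rw [coup_symm], fun i => by rw [coup_diag, mul_zero], fun y => ?_, fun i => ?_,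
    fun i j => ?_⟩
  · simp only [mul_assoc (β / √n), ← mul_sum, abs_mul, abs_of_nonneg b0]
    refine (mul_le_mul_of_nonneg_left (a1 y) b0).trans_eq ?_
    field_simp
  · simp only [mul_pow, ← mul_sum]
    refine (mul_le_mul_of_nonneg_left (a2 i) (sq_nonneg _)).trans ?_
    rw [div_pow, Real.sq_sqrt (by positivity), show β ^ 2 / n * (2 * n) = 2 * β ^ 2 by field_simp]
    nlinarith
  · rw [abs_mul, abs_of_nonneg b0]
    refine (mul_le_mul_of_nonneg_left (a3 i j) b0).trans_eq ?_
    field_simp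

theorem W_ratio {J : Fin n → Fin n → ℝ} {l η : ℝ} (hJ : Good J l η) (l1 : l ≤ 1) (x : Cfg n) :
    ∑ y, W J 0 y ≤ Real.exp (2 * n) * W J 0 x := by
  have e : ∀ y : Cfg n, |∑ i, ∑ j, J i j * sp (y i) * sp (y j)| ≤ n := fun y => by
    have := hJ.op fun i => sp (y i)
    simp only [sp_sq, sum_const, card_univ, Fintype.card_fin, nsmul_eq_mul, mul_one] at this
    exact this.trans (mul_le_of_le_one_left (by positivity) l1)
  have h1 : ∀ y, W J 0 y ≤ Real.exp n * W J 0 x := fun y => by
    simp only [W, ← Real.exp_add, Pi.zero_apply, zero_mul, sum_const_zero, Real.exp_le_exp]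
    linarith [(abs_le.1 (e x)).1, (abs_le.1 (e y)).2]
  refine (sum_le_card_nsmul _ _ _ fun y _ => h1 y).trans ?_
  have h2 : (2 : ℝ) ^ n ≤ Real.exp n := by
    rw [← mul_one (n : ℝ), Real.exp_nat_mul]
    gcongr
    linarith [Real.add_one_le_exp 1]
  rw [two_mul, Real.exp_add, mul_assoc]
  simpa using mul_le_mul_of_nonneg_right h2 (mul_pos (Real.exp_pos _) (W_pos J 0 x)).le

end Vale.Agent.P150
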