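import Vale.Agent.P150.Mix2
import Vale.Agent.P150.Link

/-! Mixing uniformly in the external field. -/

namespace Vale.Agent.P150

open Finset Function

variable {n : ℕ} {w : Cfg n → ℝ} {L : Matrix (Cfg n) (Cfg n) ℝ}

theorem semi (hw : ∀ x, 0 < w x) (hL : ∀ f, L.mulVec f = fun x => ∑ i, (Q w i f x - f x)) {t : ℝ}
    (ht : 0 ≤ t) {φ : Cfg n → ℝ} {ρ m : ℝ} (m0 : 0 ≤ m)
    (hφ : ∀ x, Mx.St w φ x ≤ m * φ x + (n + 1 - m) * ρ) (x : Cfg n) :
    (NormedSpace.exp (t • L)).mulVec φ x ≤ Real.exp (t * (m - (n + 1))) * φ x + ρ -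
      Real.exp (t * (m - (n + 1))) * ρ := by
  have hB : ∀ f, (L + ((n : ℝ) + 1) • 1).mulVec f = Mx.St w f := fun f => by
    funext y
    rw [Matrix.add_mulVec, hL, Matrix.smul_mulVec, Matrix.one_mulVec]
    simp only [Mx.St, Pi.add_apply, Pi.smul_apply, sum_sub_distrib, sum_const, card_univ,
      Fintype.card_fin, nsmul_eq_mul, smul_eq_mul]
    ring
  generalize hB' : L + ((n : ℝ) + 1) • 1 = B at hB
  have h1 : NormedSpace.exp (t • B) = Real.exp (t * (n + 1)) • NormedSpace.exp (t • L) := by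
    rw [← hB', smul_add, smul_smul, Mx.exp_shift]
  have mono : ∀ k : ℕ, ∀ f : Cfg n → ℝ, (∀ x, 0 ≤ f x) → ∀ x, 0 ≤ (B ^ k).mulVec f x := fun k f hf => by
    induction k with
    | zero => simpa using hf
    | succ k ih =>
      intro x
      rw [pow_succ', ← Matrix.mulVec_mulVec, hB]
      exact add_nonneg (ih x) (sum_nonneg fun i _ => div_nonneg (add_nonneg (mul_nonneg (hw _).le (ih _))
        (mul_nonneg (hw _).le (ih _))) (add_pos (hw _) (hw _)).le)
  have h2 : ∀ k : ℕ, (B ^ k).mulVec φ x ≤ m ^ k * φ x + ((n + 1) ^ k - m ^ k) * ρ := fun k => by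
    induction k with
    | zero => simp
    | succ k ih =>
      have := mono k (m • φ + (fun _ => (n + 1 - m) * ρ) - B.mulVec φ) (fun y => by
        simpa [hB] using hφ y) x
      rw [Matrix.mulVec_sub, Matrix.mulVec_add, Matrix.mulVec_smul, Matrix.mulVec_mulVec, ← pow_succ,
        Mx.pow_vec hB k fun _ => (n + 1 - m) * ρ, Mx.iter_one hw] at this
      simp only [Pi.sub_apply, Pi.add_apply, Pi.smul_apply, smul_eq_mul] at this
      have := mul_le_mul_of_nonneg_left ih m0
      rw [pow_succ m, pow_succ (n + 1 : ℝ)]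
      linarith
  have h3 : HasSum (fun k : ℕ => (k.factorial : ℝ)⁻¹ * t ^ k * (B ^ k).mulVec φ x)
      (Real.exp (t * (n + 1)) * (NormedSpace.exp (t • L)).mulVec φ x) := by
    have := hasSum_sum (s := univ) fun y _ => (Mx.exp_ent (t • B) x y).mul_right (φ y)
    simp only [h1, smul_pow, Matrix.smul_apply, smul_eq_mul, mul_assoc, ← mul_sum] at this ⊢
    exact this
  have h4 := hasSum_le (fun k => ?_) h3 (((Mx.exp_re (t * m)).mul_right (φ x)).add
    (((Mx.exp_re (t * (n + 1))).sub (Mx.exp_re (t * m))).mul_right ρ))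
  · refine le_of_mul_le_mul_left (h4.trans_eq ?_) (Real.exp_pos _)
    rw [mul_sub t m, Real.exp_sub]
    field_simp
    ring
  · refine (mul_le_mul_of_nonneg_left (h2 k) (by positivity)).trans_eq ?_
    rw [mul_pow, mul_pow]
    ring

theorem P_nonneg (hw : ∀ x, 0 < w x) (hL : ∀ f, L.mulVec f = fun x => ∑ i, (Q w i f x - f x)) {t : ℝ}
    (ht : 0 ≤ t) (x y : Cfg n) : 0 ≤ NormedSpace.exp (t • L) x y := by
  have := semi hw hL ht (φ := -Pi.single y 1) (ρ := 0) le_rfl (fun z => ?_) x
  · have h : 0 ≤ (Pi.single y 1 : Cfg n → ℝ) x := by rw [Pi.single_apply]; split_ifs <;> norm_num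
    simp only [Matrix.mulVec_neg, Matrix.mulVec_single_one, Pi.neg_apply, Matrix.col_apply] at this
    nlinarith [mul_nonneg (Real.exp_pos (t * (0 - (n + 1)))).le h]
  · have h : ∀ z, (-Pi.single y 1 : Cfg n → ℝ) z ≤ 0 := fun z => by
      rw [Pi.neg_apply, Pi.single_apply]; split_ifs <;> norm_num
    simp only [zero_mul, mul_zero, add_zero]
    exact add_nonpos (h z) (sum_nonpos fun i _ => div_nonpos_of_nonpos_of_nonneg (add_nonpos
      (mul_nonpos_of_nonneg_of_nonpos (hw _).le (h _)) (mul_nonpos_of_nonneg_of_nonpos (hw _).le (h _)))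
      (add_pos (hw _) (hw _)).le)

theorem P_sum (hw : ∀ x, 0 < w x) (hL : ∀ f, L.mulVec f = fun x => ∑ i, (Q w i f x - f x)) {t : ℝ}
    (ht : 0 ≤ t) (x : Cfg n) : ∑ y, NormedSpace.exp (t • L) x y = 1 := by
  have h := fun c : ℝ => semi hw hL ht (φ := fun _ => c) (ρ := 0) (m := n + 1) (by positivity)
    (fun z => by rw [Mx.St_one hw]; simp) x
  have h1 := h 1
  have h2 := h (-1)
  simp [Matrix.mulVec, dotProduct] at h1 h2
  linarith

theorem mixH {J : Fin n → Fin n → ℝ} {l η C t : ℝ} (hJ : Good J l η) (l1 : l ≤ 1) (hη : η ≤ 1)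
    (h : Fin n → ℝ) (hw : w = W J h) (hC : 1 ≤ C)
    (hL : ∀ f, L.mulVec f = fun x => ∑ i, (Q w i f x - f x))
    (hE : ∀ f, (∀ x, 0 < f x) → Ent w f ≤ C * Loc w f) (ht : 0 ≤ t) (x : Cfg n) :
    ∑ y, |NormedSpace.exp ((2 * t) • L) x y - w y / ∑ z, w z| ≤
      36 * C * n * Real.exp (-(t / (4 * C))) := by
  have wp : ∀ x, 0 < w x := hw ▸ W_pos J h
  have Z0 := sum_pos' wp
  have P0 := P_nonneg wp hL ht
  have P1 := P_sum wp hL ht
  set φ : Fin n → Cfg n → ℝ := fun i z => if n + t ≤ -(h i * sp (z i)) then 1 else 0 with hφ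
  have φ0 : ∀ i z, 0 ≤ φ i z := fun i z => by simp only [hφ]; split_ifs <;> norm_num
  have h1 : ∀ i, (NormedSpace.exp (t • L)).mulVec (φ i) x ≤ 2 * Real.exp (-t) := fun i => by
    have := semi wp hL ht (φ := φ i) (ρ := Real.exp (-t)) (m := n) (by positivity) (fun z => ?_) x
    · have h2 : φ i x ≤ 1 := by simp only [hφ]; split_ifs <;> norm_num
      rw [show t * (n - (n + 1)) = -t by ring] at this
      nlinarith [Real.exp_pos (-t), mul_pos (Real.exp_pos (-t)) (Real.exp_pos (-t))]
    have e : ∀ j ∈ univ.erase i, Q w j (φ i) z = φ i z := fun j hj => by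
      have := add_pos (wp (update z j true)) (wp (update z j false))
      simp only [Q, hφ, update_of_ne (ne_of_mem_erase hj).symm]
      field_simp
    have hF : |∑ k, J i k * sp (z k)| ≤ n := by
      refine (abs_sum_le_sum_abs _ _).trans ((sum_le_card_nsmul _ _ 1 fun k _ => ?_).trans_eq (by simp))
      rw [abs_mul, sp_abs, mul_one]; exact (hJ.small i k).trans hη
    have hq : Q w i (φ i) z ≤ Real.exp (-t) := by
      have b : ∀ a, w (update z i a) * φ i (update z i a) ≤ Real.exp (-t) * w (update z i !a) := fun a => by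
        simp only [hφ, update_self]
        split_ifs with c
        · rw [mul_one, hw, W_upd hJ.symm hJ.diag, W_upd hJ.symm hJ.diag, mul_left_comm, ← Real.exp_add]
          refine mul_le_mul_of_nonneg_left (Real.exp_le_exp.2 ?_) (W_pos ..).le
          rw [abs_le] at hF
          generalize sp (z i) = s
          generalize ∑ k, J i k * sp (z k) = F at *
          cases a <;> simp only [sp, Bool.not_true, Bool.not_false, if_true, Bool.false_eq_true,
            if_false] at c ⊢ <;> linarith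
        · rw [mul_zero]; exact mul_nonneg (Real.exp_pos _).le (wp _).le
      rw [Q, div_le_iff₀ (add_pos (wp _) (wp _))]
      have b1 := b true
      have b2 := b false
      simp only [Bool.not_true, Bool.not_false] at b1 b2
      linarith
    rw [Mx.St, ← add_sum_erase _ _ (mem_univ i), sum_congr rfl e, sum_const, card_erase_of_mem
      (mem_univ i), card_univ, Fintype.card_fin, nsmul_eq_mul, Nat.cast_pred i.pos]
    linarith
  have h2 : ∀ z, ∑ y, |NormedSpace.exp (t • L) z y - w y / ∑ z, w z| ≤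
      32 * C * n * Real.exp (-(t / (4 * C))) + 2 * ∑ i, φ i z := fun z => by
    by_cases c : ∃ i, n + t ≤ -(h i * sp (z i))
    · obtain ⟨i, c⟩ := c
      have a1 : φ i z ≤ ∑ i, φ i z := single_le_sum (fun i _ => φ0 i z) (mem_univ i)
      have a2 : ∑ y, |NormedSpace.exp (t • L) z y - w y / ∑ z, w z| ≤
          ∑ y, (NormedSpace.exp (t • L) z y + w y / ∑ z, w z) := sum_le_sum fun y _ =>
        (abs_sub _ _).trans_eq (by rw [abs_of_nonneg (P0 z y), abs_of_pos (div_pos (wp y) Z0)])
      rw [sum_add_distrib, P1, ← sum_div, div_self Z0.ne'] at a2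
      simp only [hφ, if_pos c] at a1
      have : 0 ≤ 32 * C * n * Real.exp (-(t / (4 * C))) := by positivity
      linarith
    push Not at c
    have a1 : ∑ y, w y ≤ Real.exp ((2 * n * (1 + t)) ^ 2) * w z := by
      have b1 : ∀ y, w y ≤ W J 0 y * Real.exp (∑ i, h i * sp (z i) + 2 * n * (n + t)) := fun y => by
        simp only [hw, W, ← Real.exp_add, Pi.zero_apply, zero_mul, sum_const_zero, Real.exp_le_exp]
        have : ∑ i, h i * sp (y i) ≤ ∑ i, (h i * sp (z i) + 2 * (n + t)) := sum_le_sum fun i _ => by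
          have := c i
          have : (0 : ℝ) ≤ n + t := by positivity
          cases y i <;> cases e : z i <;> simp only [e, sp, if_true, Bool.false_eq_true,
            if_false] at * <;> linarith
        simp only [sum_add_distrib, sum_const, card_univ, Fintype.card_fin, nsmul_eq_mul] at this
        linarith
      refine (sum_le_sum fun y _ => b1 y).trans ?_
      rw [← sum_mul]
      refine (mul_le_mul_of_nonneg_right (W_ratio hJ l1 z) (Real.exp_pos _).le).trans ?_
      simp only [hw, W, ← Real.exp_add, Pi.zero_apply, zero_mul, sum_const_zero, Real.exp_le_exp]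
      have : (n : ℝ) ≤ n ^ 2 := by exact_mod_cast Nat.le_self_pow two_ne_zero n
      nlinarith [mul_le_mul_of_nonneg_right this ht, mul_nonneg (sq_nonneg (n : ℝ)) ht,
        mul_nonneg (sq_nonneg (n : ℝ)) (sq_nonneg t)]
    refine (mix' wp hC hL hE ht z a1).trans (le_add_of_le_of_nonneg ?_
      (mul_nonneg zero_le_two (sum_nonneg fun i _ => φ0 i z)))
    have a2 : 1 + t ≤ 4 * C * Real.exp (t / (4 * C)) := by
      have := mul_le_mul_of_nonneg_left (Real.add_one_le_exp (t / (4 * C))) (show 0 ≤ 4 * C by linarith)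
      rw [mul_add, mul_div_cancel₀ _ (by linarith)] at this
      linarith
    rw [Real.sqrt_sq (by positivity), show -(t / (4 * C)) = t / (4 * C) + -(t / (2 * C)) by
      field_simp; ring, Real.exp_add]
    nlinarith [mul_le_mul_of_nonneg_left a2 (show 0 ≤ n * Real.exp (-(t / (2 * C))) by positivity)]
  have h3 : ∀ y, |NormedSpace.exp ((2 * t) • L) x y - w y / ∑ z, w z| ≤ ∑ z, NormedSpace.exp (t • L) x z *
      |NormedSpace.exp (t • L) z y - w y / ∑ z, w z| := fun y => by
    rw [two_mul, add_smul, Matrix.exp_add_of_commute _ _ (Commute.refl _), Matrix.mul_apply,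
      ← one_mul (w y / _), ← P1 x, sum_mul, ← sum_sub_distrib]
    refine (abs_sum_le_sum_abs _ _).trans_eq (sum_congr rfl fun z _ => ?_)
    rw [← mul_sub, abs_mul, abs_of_nonneg (P0 x z), ← sum_mul, P1, one_mul]
  refine (sum_le_sum fun y _ => h3 y).trans ?_
  rw [sum_comm]
  simp only [← mul_sum]
  refine (sum_le_sum fun z _ => mul_le_mul_of_nonneg_left (h2 z) (P0 x z)).trans ?_
  have h4 := sum_le_card_nsmul univ _ _ fun i _ => h1 i
  simp only [Matrix.mulVec, dotProduct, card_univ, Fintype.card_fin, nsmul_eq_mul] at h4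
  rw [sum_comm] at h4
  simp only [mul_add, sum_add_distrib, ← sum_mul, P1, mul_left_comm _ (2 : ℝ), ← mul_sum] at h4 ⊢
  have h5 : Real.exp (-t) ≤ C * Real.exp (-(t / (4 * C))) :=
    (Real.exp_le_exp.2 (neg_le_neg (div_le_self ht (by linarith)))).trans
      (le_mul_of_one_le_left (Real.exp_pos _).le hC)
  nlinarith [mul_le_mul_of_nonneg_left h5 (Nat.cast_nonneg (α := ℝ) n)]

theorem gap_one (hn : 0 < n) (hw : ∀ x, 0 < w x) {c : ℝ} (h : Poi w c) : c ≤ 1 := by
  set i : Fin n := ⟨0, hn⟩
  have Z0 := sum_pos' hw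
  set f : Cfg n → ℝ := fun x => sp (x i) - (∑ y, w y * sp (y i)) / ∑ y, w y with hf
  have h1 := h f (by simp only [hf, mul_sub, sum_sub_distrib, ← sum_mul]; field_simp; ring)
  have h2 : Dir w f ≤ ∑ x, w x * f x ^ 2 := by
    rw [Dir, sum_eq_single i (fun j _ hj => sum_eq_zero fun x _ => ?_) (by simp)]
    · have a1 := sum_Q hw i f (Q_upd w i f)
      have a2 : 0 ≤ ∑ x, w x * (Q w i f x * Q w i f x) :=
        sum_nonneg fun x _ => mul_nonneg (hw x).le (mul_self_nonneg _)
      simp only [sq, ← sum_P hw, mul_sub (f _), mul_sub (w _), sum_sub_distrib]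
      linarith
    · have := add_pos (hw (update x j true)) (hw (update x j false))
      rw [show Q w j f x = f x by simp only [Q, hf, update_of_ne hj.symm]; field_simp]
      simp
  refine le_of_mul_le_mul_right (by linarith) (sum_pos' (w := fun x => w x * f x ^ 2) fun x => ?_)
  refine mul_pos (hw x) (sq_pos_of_ne_zero fun e => ?_)
  have a := (sum_eq_zero_iff_of_nonneg (s := univ) (f := fun y => w y * (1 - sp (x i) * sp (y i)))
    fun y _ => mul_nonneg (hw y).le (by cases x i <;> cases y i <;> norm_num [sp])).1 (by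
      rw [hf, sub_eq_zero, eq_div_iff Z0.ne'] at e
      simp only [mul_sub, mul_one, sum_sub_distrib, mul_left_comm _ (sp (x i)), ← mul_sum]
      rw [← e, ← mul_assoc, ← sq, sp_sq]
      ring) (update x i !x i) (mem_univ _)
  rw [update_self, mul_eq_zero] at a
  rcases a with a | a
  · exact (hw _).ne' a
  · revert a; cases x i <;> norm_num [sp]

end Vale.Agent.P150
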