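import Vale.Agent.P150.Mix
import Vale.Agent.P150.Basic

/-! Lower bound on the mixing time: semigroup estimates. -/

namespace Vale.Agent.P150

open Function Finset

namespace Lw

variable {n : ℕ}

/-- spin flip -/
def fl (j : Fin n) (x : Cfg n) : Cfg n := update x j (!x j)
/-- squared gradient -/
def Gr (g : Cfg n → ℝ) (x : Cfg n) : ℝ := ∑ j, (g (fl j x) - g x) ^ 2
/-- the semigroup -/
noncomputable def P (L : Matrix (Cfg n) (Cfg n) ℝ) (t : ℝ) (f : Cfg n → ℝ) : Cfg n → ℝ :=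
  (NormedSpace.exp (t • L)).mulVec f

structure Gen (w : Cfg n → ℝ) (c : Fin n → Cfg n → ℝ) (L : Matrix (Cfg n) (Cfg n) ℝ) (κ : ℝ) : Prop where
  w0 : ∀ x, 0 < w x
  c0 : ∀ i x, 0 ≤ c i x
  c1 : ∀ i x, c i x ≤ 1
  k0 : 0 ≤ κ
  eq : ∀ f x, L.mulVec f x = ∑ i, c i x * (f (fl i x) - f x)
  sa : ∀ f g : Cfg n → ℝ, ∑ x, w x * L.mulVec f x * g x = ∑ x, w x * f x * L.mulVec g x
  be : ∀ g x, 0 ≤ κ * Gr g x + L.mulVec (Gr g) x -
    2 * ∑ j, (g (fl j x) - g x) * (L.mulVec g (fl j x) - L.mulVec g x)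
  ev : ∀ x, w (fun i => !x i) = w x

lemma mono {φ φ' : ℝ → ℝ} {t : ℝ} (ht : 0 ≤ t) (h : ∀ s, HasDerivAt φ (φ' s) s)
    (h0 : ∀ s, 0 ≤ s → s ≤ t → 0 ≤ φ' s) : φ 0 ≤ φ t := by
  rcases ht.eq_or_lt with rfl | ht
  · exact le_rfl
  obtain ⟨s, hs, e⟩ := exists_hasDerivAt_eq_slope φ φ' ht
    (fun s _ => (h s).continuousAt.continuousWithinAt) fun s _ => h s
  have := h0 s hs.1.le hs.2.le
  rw [e, sub_zero, le_div_iff₀ ht] at this
  linarith

lemma dE (L : Matrix (Cfg n) (Cfg n) ℝ) (t : ℝ) (x y : Cfg n) :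
    HasDerivAt (fun s : ℝ => NormedSpace.exp (s • L) x y) ((NormedSpace.exp (t • L) * L) x y) t := by
  have h : HasDerivAt (fun s : ℝ => NormedSpace.exp (s • L)) (NormedSpace.exp (t • L) * L) t := by
    open scoped Matrix.Norms.Operator in exact hasDerivAt_exp_smul_const (𝕂 := ℝ) L t
  exact hasDerivAt_pi.1 (hasDerivAt_pi.1 h x) y

lemma dE' (L : Matrix (Cfg n) (Cfg n) ℝ) (t : ℝ) (x y : Cfg n) :
    HasDerivAt (fun s : ℝ => NormedSpace.exp (s • L) x y) ((L * NormedSpace.exp (t • L)) x y) t := by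
  have h : HasDerivAt (fun s : ℝ => NormedSpace.exp (s • L)) (L * NormedSpace.exp (t • L)) t := by
    open scoped Matrix.Norms.Operator in exact hasDerivAt_exp_smul_const' (𝕂 := ℝ) L t
  exact hasDerivAt_pi.1 (hasDerivAt_pi.1 h x) y

lemma dP (L : Matrix (Cfg n) (Cfg n) ℝ) (f : Cfg n → ℝ) (t : ℝ) (x : Cfg n) :
    HasDerivAt (fun s => P L s f x) (L.mulVec (P L t f) x) t := by
  unfold P
  rw [Matrix.mulVec_mulVec]
  exact HasDerivAt.fun_sum fun y _ => (dE' L t x y).mul_const (f y)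

lemma dB (L : Matrix (Cfg n) (Cfg n) ℝ) (f : Cfg n → ℝ) (t s : ℝ) (x : Cfg n) :
    HasDerivAt (fun s => P L (t - s) f x) (-L.mulVec (P L (t - s) f) x) s := by
  have := (dP L f (t - s) x).comp s ((hasDerivAt_id s).const_sub t)
  rw [mul_neg, mul_one] at this
  exact this

lemma dI (L : Matrix (Cfg n) (Cfg n) ℝ) {F : ℝ → Cfg n → ℝ} {F' : Cfg n → ℝ} {s : ℝ}
    (h : ∀ y, HasDerivAt (fun r => F r y) (F' y) s) (x : Cfg n) :
    HasDerivAt (fun r => P L r (F r) x) (P L s (L.mulVec (F s) + F') x) s := by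
  unfold P
  rw [Matrix.mulVec_add, Matrix.mulVec_mulVec]
  have := HasDerivAt.fun_sum (u := univ) fun y _ => (dE L s x y).mul (h y)
  rw [sum_add_distrib] at this
  exact this

lemma P0 (L : Matrix (Cfg n) (Cfg n) ℝ) (f : Cfg n → ℝ) : P L 0 f = f := by simp [P]

variable {w : Cfg n → ℝ} {c : Fin n → Cfg n → ℝ} {L : Matrix (Cfg n) (Cfg n) ℝ} {κ : ℝ}

lemma pos (h : Gen w c L κ) {t : ℝ} (ht : 0 ≤ t) (x y : Cfg n) : 0 ≤ NormedSpace.exp (t • L) x y := by
  have hB : ∀ x y, 0 ≤ (t • (L + (n : ℝ) • (1 : Matrix (Cfg n) (Cfg n) ℝ))) x y := fun x y => by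
    have e := h.eq (Pi.single y 1) x
    rw [Matrix.mulVec_single_one] at e
    have e2 : (L + (n : ℝ) • (1 : Matrix (Cfg n) (Cfg n) ℝ)) x y = ∑ i, (c i x * (Pi.single y 1 : Cfg n → ℝ) (fl i x) +
        (1 - c i x) * (Pi.single y 1 : Cfg n → ℝ) x) := by
      rw [Matrix.add_apply, show L x y = _ from e]
      simp only [Matrix.smul_apply, Matrix.one_apply, Pi.single_apply, mul_sub, sub_mul, sum_add_distrib,
        sum_sub_distrib, one_mul, sum_const, card_univ, Fintype.card_fin, smul_eq_mul, nsmul_eq_mul]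
      ring
    rw [Matrix.smul_apply, e2]
    have : ∀ z, 0 ≤ (Pi.single y 1 : Cfg n → ℝ) z := fun z => by
      rw [Pi.single_apply]; split_ifs <;> norm_num
    exact mul_nonneg ht (sum_nonneg fun i _ => add_nonneg (mul_nonneg (h.c0 i x) (this _))
      (mul_nonneg (sub_nonneg.2 (h.c1 i x)) (this _)))
  generalize hA : t • (L + (n : ℝ) • (1 : Matrix (Cfg n) (Cfg n) ℝ)) = A at hB
  have hk : ∀ k : ℕ, ∀ x y, 0 ≤ (A ^ k) x y := fun k => by
    induction k with
    | zero => intro x y; rw [pow_zero, Matrix.one_apply]; split_ifs <;> norm_num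
    | succ k ih => intro x y; rw [pow_succ, Matrix.mul_apply]; exact sum_nonneg fun z _ => mul_nonneg (ih _ _) (hB _ _)
  have h1 := (Mx.exp_ent A x y).nonneg fun k => mul_nonneg (by positivity) (hk k x y)
  rw [← hA, smul_add, smul_smul, Mx.exp_shift, Matrix.smul_apply, smul_eq_mul] at h1
  exact nonneg_of_mul_nonneg_right h1 (Real.exp_pos _)

lemma one (h : Gen w c L κ) (t a : ℝ) (x : Cfg n) : P L t (fun _ => a) x = a := by
  have h1 : ∀ s, HasDerivAt (fun r => P L r (fun _ => a) x) 0 s := fun s => by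
    have := dI L (F := fun _ _ => a) (F' := 0) (s := s) (fun y => hasDerivAt_const s a) x
    have e : L.mulVec (fun _ => a) = 0 := funext fun y => by rw [h.eq]; simp
    simpa [e, P] using this
  have := is_const_of_deriv_eq_zero (fun s => (h1 s).differentiableAt) (fun s => (h1 s).deriv) t 0
  rwa [P0] at this

lemma le_P (h : Gen w c L κ) {t : ℝ} (ht : 0 ≤ t) {f g : Cfg n → ℝ} (hf : ∀ y, f y ≤ g y) (x : Cfg n) :
    P L t f x ≤ P L t g x :=
  sum_le_sum fun y _ => mul_le_mul_of_nonneg_left (hf y) (pos h ht x y)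

lemma grad (h : Gen w c L κ) {t M : ℝ} (ht : 0 ≤ t) {f : Cfg n → ℝ} (hf : ∀ y, Gr f y ≤ M) (x : Cfg n) :
    Gr (P L t f) x ≤ Real.exp (κ * t) * M := by
  have h1 := mono (φ := fun s => Real.exp (κ * s) * P L s (Gr (P L (t - s) f)) x) ht (fun s =>
    (((hasDerivAt_id s).const_mul κ).exp.mul (dI L (F := fun r => Gr (P L (t - r) f)) (fun y =>
      HasDerivAt.fun_sum fun j _ => (((dB L f t s (fl j y)).sub (dB L f t s y)).pow 2)) x))) fun s s0 _ => ?_
  · simp only [mul_zero, Real.exp_zero, one_mul, P0, sub_zero, sub_self] at h1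
    refine h1.trans (mul_le_mul_of_nonneg_left ?_ (Real.exp_pos _).le)
    exact (le_P h ht hf x).trans_eq (one h t M x)
  simp only [Pi.sub_apply]
  generalize P L (t - s) f = g
  have h2 := le_P h s0 (f := fun _ => 0) (fun y => h.be g y) x
  rw [one h] at h2
  refine (mul_nonneg (Real.exp_pos (κ * s)).le h2).trans_eq ?_
  simp only [P, Matrix.mulVec, dotProduct, Pi.add_apply, id, mul_one, mul_sum, ← sum_add_distrib, Pi.sub_apply]
  refine sum_congr rfl fun y _ => ?_
  simp only [← mul_sum, Nat.cast_ofNat, Nat.add_one_sub_one, pow_one]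
  have : ∀ a b : Fin n → ℝ, ∀ d e : ℝ, ∑ j, 2 * (a j - d) * (-b j - -e) = -∑ j, 2 * ((a j - d) * (b j - e)) :=
    fun a b d e => by rw [← sum_neg_distrib]; exact sum_congr rfl fun j _ => by ring
  rw [this, ← mul_sum]
  ring

lemma var (h : Gen w c L κ) {t M : ℝ} (ht : 0 ≤ t) {f : Cfg n → ℝ} (hf : ∀ y, Gr f y ≤ M) (x : Cfg n) :
    P L t (fun y => f y ^ 2) x ≤ P L t f x ^ 2 + Real.exp (κ * t) * M * t := by
  have M0 : 0 ≤ M := le_trans (sum_nonneg fun _ _ => sq_nonneg _) (hf x)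
  have h1 := mono (φ := fun s => Real.exp (κ * t) * M * s - P L s (fun y => P L (t - s) f y ^ 2) x) ht (fun s =>
    ((hasDerivAt_id s).const_mul _).sub (dI L (F := fun r y => P L (t - r) f y ^ 2) (fun y =>
      (dB L f t s y).pow 2) x)) fun s s0 st => ?_
  · simp only [mul_zero, P0, sub_zero, sub_self] at h1
    linarith
  rw [mul_one, sub_nonneg, ← one h s (Real.exp (κ * t) * M) x]
  refine le_P h s0 (fun y => ?_) x
  have h2 := grad h (sub_nonneg.2 st) hf y
  have h3 : Real.exp (κ * (t - s)) * M ≤ Real.exp (κ * t) * M :=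
    mul_le_mul_of_nonneg_right (Real.exp_le_exp.2 (by nlinarith [h.k0])) M0
  refine le_trans ?_ (h2.trans h3)
  generalize P L (t - s) f = g
  simp only [Pi.add_apply, h.eq, Gr, Nat.cast_ofNat, Nat.add_one_sub_one, pow_one, mul_neg, mul_sum,
    ← sub_eq_add_neg, ← sum_sub_distrib]
  refine sum_le_sum fun i _ => ?_
  nlinarith [mul_nonneg (sub_nonneg.2 (h.c1 i y)) (sq_nonneg (g (fl i y) - g y))]

lemma half (h : Gen w c L κ) (f : Cfg n → ℝ) (s : ℝ) :
    ∑ x, w x * P L s f x ^ 2 = ∑ x, w x * f x * P L (2 * s) f x := by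
  have h1 : ∀ r, HasDerivAt (fun r => ∑ x, w x * P L r f x * P L (2 * s - r) f x) 0 r := fun r => by
    have := HasDerivAt.fun_sum (u := univ) fun x _ => ((dP L f r x).const_mul (w x)).mul (dB L f (2 * s) r x)
    rw [sum_add_distrib, h.sa] at this
    simpa using this
  have := is_const_of_deriv_eq_zero (fun s => (h1 s).differentiableAt) (fun s => (h1 s).deriv) s 0
  simp only [P0, sub_zero, show 2 * s - s = s by ring, mul_assoc, ← sq] at this ⊢
  exact this

lemma sp_abs (b : Bool) : sp b ^ 2 = 1 := by cases b <;> simp [sp]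

lemma sp_fl (i j : Fin n) (x : Cfg n) : sp (fl j x i) - sp (x i) = if i = j then -2 * sp (x i) else 0 := by
  unfold fl
  split_ifs with e
  · subst e
    rw [update_self]
    cases x i <;> norm_num [sp]
  · rw [update_of_ne e, sub_self]

lemma corr (h : Gen w c L κ) (i : Fin n) {t : ℝ} (ht : 0 ≤ t) :
    Real.exp (-4 * t) * ∑ x, w x ≤ ∑ x, w x * sp (x i) * P L t (fun y => sp (y i)) x := by
  set f : Cfg n → ℝ := fun y => sp (y i) with hf
  have Z0 := sum_pos' h.w0
  have l1 : ∀ y, -2 ≤ L.mulVec f y ∧ L.mulVec f y ≤ 2 := fun y => by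
    simp only [h.eq, hf, sp_fl, mul_ite, mul_zero, sum_ite_eq, mem_univ, if_true]
    have := h.c0 i y
    have := h.c1 i y
    cases y i <;> simp [sp] <;> constructor <;> linarith
  have b : ∀ s, 0 ≤ s → (1 - 2 * s) * ∑ x, w x ≤ ∑ x, w x * f x * P L s f x := fun s s0 => by
    have h1 := mono (φ := fun r => (∑ x, w x * f x * P L r f x) + 2 * r * ∑ x, w x) s0 (fun r =>
      (HasDerivAt.fun_sum fun x _ => (dI L (F := fun _ => f) (F' := 0) (s := r)
        (fun y => hasDerivAt_const r (f y)) x).const_mul (w x * f x)).add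
        (((hasDerivAt_id r).const_mul 2).mul_const _)) fun r r0 _ => ?_
    · simp only [P0, mul_assoc, ← sq, hf, sp_abs, mul_one] at h1
      simp only [mul_assoc, hf]
      linarith
    rw [mul_one, mul_sum, ← sum_add_distrib]
    refine sum_nonneg fun x _ => ?_
    have u1 := le_P h r0 (fun y => (l1 y).1) x
    have u2 := le_P h r0 (fun y => (l1 y).2) x
    rw [one h] at u1 u2
    rw [add_zero]
    have := h.w0 x
    have e : f x = 1 ∨ f x = -1 := by simp only [hf]; cases x i <;> simp [sp]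
    change -2 ≤ P L r (L.mulVec f) x at u1
    change P L r (L.mulVec f) x ≤ 2 at u2
    rcases e with e | e <;> rw [e] <;> nlinarith
  have key : ∀ k : ℕ, ∀ s, 0 ≤ s → s ≤ 2 ^ k / 4 → Real.exp (-4 * s) * ∑ x, w x ≤ ∑ x, w x * f x * P L s f x := by
    intro k
    induction k with
    | zero =>
      intro s s0 s1
      refine le_trans (mul_le_mul_of_nonneg_right ?_ Z0.le) (b s s0)
      have := Real.add_one_le_exp (4 * s)
      rw [neg_mul, Real.exp_neg, inv_le_iff_one_le_mul₀ (Real.exp_pos _)]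
      norm_num at s1
      nlinarith [mul_le_mul_of_nonneg_left this (show 0 ≤ 1 - 2 * s by linarith)]
    | succ k ih =>
      intro s s0 s1
      have h1 := ih (s / 2) (by linarith) (by rw [pow_succ] at s1; linarith)
      have h2 := half h f (s / 2)
      rw [show 2 * (s / 2) = s by ring] at h2
      rw [← h2]
      have h3 : (∑ x, w x * f x * P L (s / 2) f x) ^ 2 ≤ (∑ x, w x) * ∑ x, w x * P L (s / 2) f x ^ 2 :=
        sum_sq_le_sum_mul_sum_of_sq_le_mul _ (fun x _ => (h.w0 x).le)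
          (fun x _ => mul_nonneg (h.w0 x).le (sq_nonneg _)) fun x _ => by
            rw [mul_pow, mul_pow, hf, sp_abs]; exact le_of_eq (by ring)
      have h4 := (pow_le_pow_left₀ (by positivity) h1 2).trans h3
      rw [mul_pow, ← Real.exp_nat_mul, show ((2 : ℕ) : ℝ) * (-4 * (s / 2)) = -4 * s by push_cast; ring] at h4
      exact le_of_mul_le_mul_left (by nlinarith) Z0
  obtain ⟨k, hk⟩ := pow_unbounded_of_one_lt (4 * t) (one_lt_two (α := ℝ))
  exact key k t ht (by linarith)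

theorem lower (h : Gen w c L κ) {t : ℝ} (ht : 0 ≤ t) (hn : 16 * Real.exp ((κ + 9) * t) < n) :
    ∃ x, 1 / 4 < 1 / 2 * ∑ y, |NormedSpace.exp (t • L) x y - w y / ∑ z, w z| := by
  have Z0 := sum_pos' h.w0
  obtain ⟨x, -, hx⟩ : ∃ x ∈ (univ : Finset (Cfg n)), w x * (n * Real.exp (-8 * t)) ≤
      w x * ∑ i, P L t (fun y => sp (y i)) x ^ 2 := by
    refine exists_le_of_sum_le univ_nonempty ?_
    rw [← sum_mul]
    simp only [mul_sum]
    rw [sum_comm]
    refine le_trans (le_of_eq ?_) (sum_le_sum fun i _ => (corr h i (t := 2 * t) (by linarith)).trans_eq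
      (half h (fun y => sp (y i)) t).symm)
    rw [sum_const, card_univ, Fintype.card_fin, nsmul_eq_mul, show -4 * (2 * t) = -8 * t by ring]
    ring
  replace hx := le_of_mul_le_mul_left hx (h.w0 x)
  refine ⟨x, ?_⟩
  set m : Fin n → ℝ := fun i => P L t (fun y => sp (y i)) x with hm
  set A := ∑ i, m i ^ 2 with hA
  set f : Cfg n → ℝ := fun y => ∑ i, m i * sp (y i) with hf
  have n0 : (0 : ℝ) < n := lt_trans (by positivity) hn
  have A0 : 0 < A := lt_of_lt_of_le (by positivity) hx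
  have f1 : P L t f x = A := by
    simp only [hA, hf, sq, P, Matrix.mulVec, dotProduct, mul_sum]
    rw [sum_comm]
    refine sum_congr rfl fun i _ => ?_
    simp only [hm, P, Matrix.mulVec, dotProduct, mul_sum]
    exact sum_congr rfl fun y _ => by ring
  have f2 : ∀ y, Gr f y ≤ 4 * A := fun y => by
    simp only [Gr, hf, ← sum_sub_distrib, ← mul_sub, sp_fl, mul_ite, mul_zero, sum_ite_eq', mem_univ, if_true,
      mul_pow, sp_abs, hA, mul_sum]
    exact le_of_eq (sum_congr rfl fun i _ => by ring)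
  have f3 := var h ht f2 x
  rw [f1] at f3
  set p : Cfg n → ℝ := fun y => NormedSpace.exp (t • L) x y with hp
  have p0 : ∀ y, 0 ≤ p y := pos h ht x
  have p1 : ∑ y, p y = 1 := by simpa [P, Matrix.mulVec, dotProduct] using one h t 1 x
  have q1 : ∑ y, w y / ∑ z, w z = 1 := by rw [← sum_div, div_self Z0.ne']
  have g1 : A ^ 2 * ∑ y, p y * (if f y ≤ 0 then 1 else 0) ≤ Real.exp (κ * t) * (4 * A) * t := by
    have e1 : ∑ y, p y * (f y - A) ^ 2 = P L t (fun y => f y ^ 2) x - 2 * A * P L t f x + A ^ 2 * ∑ y, p y := by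
      simp only [P, Matrix.mulVec, dotProduct, mul_sum, ← sum_sub_distrib, ← sum_add_distrib, hp]
      exact sum_congr rfl fun y _ => by ring
    rw [f1, p1] at e1
    refine le_trans ?_ (show ∑ y, p y * (f y - A) ^ 2 ≤ _ by linarith)
    rw [mul_sum]
    refine sum_le_sum fun y _ => ?_
    split_ifs with hy
    · nlinarith [mul_nonneg (p0 y) (show 0 ≤ (f y - A) ^ 2 - A ^ 2 by nlinarith)]
    · simpa using mul_nonneg (p0 y) (sq_nonneg _)
  have g2 : 1 ≤ 2 * ∑ y, w y / (∑ z, w z) * (if f y ≤ 0 then 1 else 0) := by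
    have hi : Involutive fun (x : Cfg n) i => !x i := fun x => by simp
    have e : ∀ a, sp (!a) = -sp a := fun a => by cases a <;> simp [sp]
    have := Equiv.sum_comp hi.toPerm fun y => w y / (∑ z, w z) * (if f y ≤ 0 then (1 : ℝ) else 0)
    rw [two_mul]
    nth_rewrite 1 [← this]
    rw [← sum_add_distrib]
    refine q1.ge.trans (sum_le_sum fun y _ => ?_)
    have := div_pos (h.w0 y) Z0
    simp only [Involutive.coe_toPerm, h.ev, hf, e, mul_neg, sum_neg_distrib]
    split_ifs <;> linarith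
  have g3 : 2 * ∑ y, w y / (∑ z, w z) * (if f y ≤ 0 then 1 else 0) - 2 * ∑ y, p y * (if f y ≤ 0 then 1 else 0) ≤
      ∑ y, |p y - w y / ∑ z, w z| := by
    have : ∑ y, (p y - w y / ∑ z, w z) = 0 := by rw [sum_sub_distrib, p1, q1, sub_self]
    refine le_trans (le_of_eq (by rw [this, add_zero]) : _ ≤ _ + ∑ y, (p y - w y / ∑ z, w z)) ?_
    rw [mul_sum, mul_sum, ← sum_sub_distrib, ← sum_add_distrib]
    refine sum_le_sum fun y _ => ?_
    split_ifs
    · linarith [neg_abs_le (p y - w y / ∑ z, w z)]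
    · linarith [le_abs_self (p y - w y / ∑ z, w z)]
  have g4 : ∑ y, p y * (if f y ≤ 0 then 1 else 0) < 1 / 4 := by
    refine lt_of_mul_lt_mul_left (a := A ^ 2) (g1.trans_lt ?_) (sq_nonneg _)
    have u1 : t ≤ Real.exp t := by linarith [Real.add_one_le_exp t]
    have u2 : 16 * (Real.exp (κ * t) * Real.exp t) < A := by
      refine lt_of_lt_of_le ?_ hx
      have := mul_lt_mul_of_pos_right hn (Real.exp_pos (-8 * t))
      rwa [mul_assoc, ← Real.exp_add, show (κ + 9) * t + -8 * t = κ * t + t by ring, Real.exp_add] at this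
    have u3 := mul_le_mul_of_nonneg_left u1 (Real.exp_pos (κ * t)).le
    nlinarith
  change 1 / 4 < 1 / 2 * ∑ y, |p y - w y / ∑ z, w z|
  linarith

end Lw

end Vale.Agent.P150
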