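import Vale.Agent.P150.Low1
import Vale.Agent.P150.Link

/-! Lower bound on the mixing time: the curvature bound for Ising weights. -/

namespace Vale.Agent.P150

open Function Finset Filter Topology

namespace Lw

variable {n : ℕ}

lemma fl_fl (j : Fin n) (x : Cfg n) : fl j (fl j x) = x := by simp [fl]

lemma fl_comm {i j : Fin n} (h : i ≠ j) (x : Cfg n) : fl i (fl j x) = fl j (fl i x) := by
  simp only [fl, update_of_ne h, update_of_ne h.symm]
  exact update_comm h.symm _ _ _

/-- flip probability -/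
noncomputable def cc (w : Cfg n → ℝ) (i : Fin n) (x : Cfg n) : ℝ := w (fl i x) / (w x + w (fl i x))

lemma Q_fl {w : Cfg n → ℝ} (hw : ∀ x, 0 < w x) (i : Fin n) (f : Cfg n → ℝ) (x : Cfg n) :
    Q w i f x - f x = cc w i x * (f (fl i x) - f x) := by
  have h1 := hw x
  have h2 := hw (fl i x)
  unfold Q cc
  cases e : x i
  · have a : update x i false = x := by rw [← e, update_eq_self]
    have b : update x i true = fl i x := by simp [fl, e]
    rw [a, b]
    field_simp
    ring
  · have a : update x i true = x := by rw [← e, update_eq_self]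
    have b : update x i false = fl i x := by simp [fl, e]
    rw [a, b]
    field_simp
    ring

lemma logi {a d : ℝ} (ha : 0 < a) (hd : |d| ≤ 1) :
    (a * Real.exp d / (1 + a * Real.exp d) - a / (1 + a)) ^ 2 ≤ a / (1 + a) * (36 * d ^ 2) ∧
    |a * Real.exp d / (1 + a * Real.exp d) - a / (1 + a) - a / (1 + a) * (1 - a / (1 + a)) * d| ≤ 9 * d ^ 2 := by
  have e1 := Real.abs_exp_sub_one_le hd
  have e2 := Real.abs_exp_sub_one_sub_id_le hd
  have e3 : 1 / 3 ≤ Real.exp d := by
    have := Real.exp_neg_one_gt_d9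
    have := Real.exp_le_exp.2 (abs_le.1 hd).1
    linarith
  generalize Real.exp d = E at e1 e2 e3
  have q0 : 0 < a / (1 + a) := by positivity
  have q1 : a / (1 + a) < 1 := (div_lt_one (by linarith)).2 (by linarith)
  have e4 : a * E / (1 + a * E) = a / (1 + a) * E / (1 - a / (1 + a) + a / (1 + a) * E) := by
    have : 0 < E := by linarith
    rw [show 1 - a / (1 + a) + a / (1 + a) * E = (1 + a * E) / (1 + a) by field_simp; ring]
    field_simp
  rw [e4]
  generalize a / (1 + a) = q at q0 q1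
  have D : 1 / 3 ≤ 1 - q + q * E := by nlinarith
  set r := (1 - q + q * E)⁻¹ with hr
  have r0 : 0 < r := by positivity
  have r1 : r ≤ 3 := by rw [hr, inv_le_comm₀ (by linarith) (by norm_num)]; linarith
  have r2 : (1 - q + q * E) * r = 1 := mul_inv_cancel₀ (by linarith)
  have s0 : 0 ≤ q * (1 - q) := by nlinarith
  have s1 : q * (1 - q) ≤ 1 := by nlinarith
  have s2 : 0 ≤ q * (1 - q) * r := by positivity
  have s3 : q * (1 - q) * r ≤ 3 * q := by nlinarith
  constructor
  · rw [div_eq_mul_inv, ← hr, show q * E * r - q = q * (1 - q) * r * (E - 1) by linear_combination q * r2, mul_pow,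
      ← sq_abs (E - 1), ← sq_abs d]
    have u1 := pow_le_pow_left₀ s2 s3 2
    have u2 := pow_le_pow_left₀ (abs_nonneg _) e1 2
    have u3 := mul_le_mul u1 u2 (by positivity) (by positivity)
    nlinarith [mul_nonneg s0 (sq_nonneg |d|)]
  · rw [div_eq_mul_inv, ← hr, show q * E * r - q - q * (1 - q) * d =
      q * (1 - q) * r * ((E - 1 - d) - d * q * (E - 1)) by linear_combination (q + q * (1 - q) * d) * r2, abs_mul,
      abs_of_nonneg s2]
    have u1 : |E - 1 - d - d * q * (E - 1)| ≤ 3 * d ^ 2 := by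
      refine (abs_sub _ _).trans ?_
      rw [abs_mul, abs_mul, abs_of_pos q0, ← sq_abs d] at *
      have := mul_le_mul_of_nonneg_left e1 (mul_nonneg (abs_nonneg d) q0.le)
      nlinarith [mul_nonneg (sub_nonneg.2 q1.le) (sq_nonneg |d|)]
    have u2 := mul_le_mul (s3.trans (by linarith : 3 * q ≤ 3)) u1 (abs_nonneg _) (by norm_num)
    linarith

variable {J : Fin n → Fin n → ℝ} {l η : ℝ}

lemma cc_W (hJ : Good J l η) (i : Fin n) (x : Cfg n) : cc (W J 0) i x =
    Real.exp (-2 * sp (x i) * ∑ k, J i k * sp (x k)) / (1 + Real.exp (-2 * sp (x i) * ∑ k, J i k * sp (x k))) := by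
  have e := sp_fl i i x
  rw [if_pos rfl, fl, update_self] at e
  have := W_pos J 0 x
  rw [cc, fl, W_upd hJ.symm hJ.diag, e, Pi.zero_apply, add_zero]
  field_simp

lemma cc_fl (hJ : Good J l η) (hη : η ≤ 1 / 4) {i j : Fin n} (h : i ≠ j) (x : Cfg n) :
    (cc (W J 0) i (fl j x) - cc (W J 0) i x) ^ 2 ≤ cc (W J 0) i x * (576 * J i j ^ 2) ∧
    |cc (W J 0) i (fl j x) - cc (W J 0) i x -
      cc (W J 0) i x * (1 - cc (W J 0) i x) * (4 * sp (x i) * sp (x j) * J i j)| ≤ 144 * J i j ^ 2 := by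
  have e := sp_fl j j x
  rw [if_pos rfl, fl, update_self] at e
  have e2 : (4 * sp (x i) * sp (x j) * J i j) ^ 2 = 16 * J i j ^ 2 := by
    simp only [mul_pow, sp_abs]; ring
  have e3 : |4 * sp (x i) * sp (x j) * J i j| ≤ 1 := by
    rw [← sq_le_one_iff_abs_le_one, e2]
    have := pow_le_pow_left₀ (abs_nonneg _) ((hJ.small i j).trans hη) 2
    rw [sq_abs] at this
    linarith
  have := logi (Real.exp_pos (-2 * sp (x i) * ∑ k, J i k * sp (x k))) e3
  rw [e2, ← Real.exp_add] at this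
  rw [cc_W hJ, cc_W hJ, fl, fld_upd, update_of_ne h, e,
    show -2 * sp (x i) * (∑ k, J i k * sp (x k) + J i j * (-2 * sp (x j))) =
      -2 * sp (x i) * ∑ k, J i k * sp (x k) + 4 * sp (x i) * sp (x j) * J i j by ring]
  exact ⟨this.1.trans_eq (by ring), this.2.trans_eq (by ring)⟩

lemma bil (hJ : Good J l η) (a b : Fin n → ℝ) :
    2 * ∑ i, ∑ j, J i j * a i * b j ≤ l * (∑ i, a i ^ 2 + ∑ i, b i ^ 2) := by
  have h1 := (abs_le.1 (hJ.op fun i => a i + b i)).2
  have h2 := (abs_le.1 (hJ.op fun i => a i - b i)).1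
  have h3 : ∑ i, ∑ j, J i j * b i * a j = ∑ i, ∑ j, J i j * a i * b j := by
    rw [sum_comm]
    exact sum_congr rfl fun i _ => sum_congr rfl fun j _ => by rw [hJ.symm]; ring
  have h4 : ∑ i, ∑ j, J i j * (a i + b i) * (a j + b j) - ∑ i, ∑ j, J i j * (a i - b i) * (a j - b j) =
      2 * ∑ i, ∑ j, J i j * a i * b j + 2 * ∑ i, ∑ j, J i j * b i * a j := by
    simp only [mul_sum, ← sum_sub_distrib, ← sum_add_distrib]
    exact sum_congr rfl fun i _ => sum_congr rfl fun j _ => by ring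
  have h5 : ∑ i, (a i + b i) ^ 2 + ∑ i, (a i - b i) ^ 2 = 2 * (∑ i, a i ^ 2 + ∑ i, b i ^ 2) := by
    simp only [mul_sum, ← sum_add_distrib]
    exact sum_congr rfl fun i _ => by ring
  have h6 : l * ∑ i, (a i + b i) ^ 2 + l * ∑ i, (a i - b i) ^ 2 = l * (2 * (∑ i, a i ^ 2 + ∑ i, b i ^ 2)) := by
    rw [← h5]; ring
  linarith

theorem gen_W (hJ : Good J l η) (hη : η ≤ 1 / 4) (l0 : 0 ≤ l) {L : Matrix (Cfg n) (Cfg n) ℝ}
    (hL : ∀ f, L.mulVec f = fun x => ∑ i, (Q (W J 0) i f x - f x)) : Gen (W J 0) (cc (W J 0)) L (440 * l) := by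
  have hw := W_pos J 0
  have c0 : ∀ i x, 0 < cc (W J 0) i x := fun i x => div_pos (hw _) (add_pos (hw _) (hw _))
  have c1 : ∀ i x, cc (W J 0) i x ≤ 1 := fun i x =>
    (div_le_one (add_pos (hw _) (hw _))).2 (by linarith [hw x])
  have eq : ∀ f x, L.mulVec f x = ∑ i, cc (W J 0) i x * (f (fl i x) - f x) := fun f x => by
    simp only [hL, Q_fl hw]
  refine ⟨hw, fun i x => (c0 i x).le, c1, by positivity, eq, fun f g => ?_, fun g x => ?_, fun x => ?_⟩
  · simp only [hL, mul_sum, sum_mul, mul_sub, sub_mul]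
    rw [sum_comm, sum_comm (s := (univ : Finset (Cfg n)))]
    refine sum_congr rfl fun i _ => ?_
    rw [sum_sub_distrib, sum_sub_distrib, Mx.Q_sa hw]
  · set p : Fin n → ℝ := fun i => g (fl i x) - g x with hp
    set s : Fin n → ℝ := fun i => cc (W J 0) i x * (1 - cc (W J 0) i x) * sp (x i) * p i with hs
    have key : ∀ i j, -(720 * J i j ^ 2 * p j ^ 2) - 144 * J i j ^ 2 * p i ^ 2 - 8 * (J i j * s i * (sp (x j) * p j)) ≤
        cc (W J 0) i x * ((g (fl j (fl i x)) - g (fl i x)) ^ 2 - p j ^ 2) - 2 * (p j *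
          (cc (W J 0) i (fl j x) * (g (fl i (fl j x)) - g (fl j x)) - cc (W J 0) i x * p i)) := by
      intro i j
      rcases eq_or_ne i j with rfl | h
      · have e : cc (W J 0) i (fl i x) = 1 - cc (W J 0) i x := by
          have := hw x
          have := hw (fl i x)
          simp only [cc, fl_fl]
          field_simp
          ring
        rw [hJ.diag, fl_fl, e, hp]
        nlinarith [sq_nonneg (g (fl i x) - g x)]
      obtain ⟨u1, u2⟩ := cc_fl hJ hη h x
      have q0 := c0 i x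
      rw [← fl_comm h, show g (fl i (fl j x)) - g (fl i x) = p j + (g (fl i (fl j x)) - g (fl j x) - p i) by
        simp only [hp]; ring, show g (fl i (fl j x)) - g (fl j x) = p i + (g (fl i (fl j x)) - g (fl j x) - p i) by ring,
        add_sub_cancel_left, show cc (W J 0) i (fl j x) = cc (W J 0) i x + (cc (W J 0) i (fl j x) - cc (W J 0) i x) by ring]
      simp only [hs]
      generalize g (fl i (fl j x)) - g (fl j x) - p i = v
      generalize cc (W J 0) i (fl j x) - cc (W J 0) i x = b at u1 u2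
      generalize cc (W J 0) i x = q at u1 u2 q0
      have v1 : 0 ≤ q * v ^ 2 - 2 * b * p j * v + 576 * J i j ^ 2 * p j ^ 2 := by
        refine le_of_mul_le_mul_left ?_ q0
        nlinarith [sq_nonneg (q * v - b * p j), mul_nonneg (sub_nonneg.2 u1) (sq_nonneg (p j))]
      obtain ⟨u3, u4⟩ := abs_le.1 u2
      have v2 := mul_nonneg (sub_nonneg.2 u3) (sq_nonneg (p i - p j))
      have v3 := mul_nonneg (sub_nonneg.2 u4) (sq_nonneg (p i + p j))
      linarith
    have k2 := sum_le_sum fun i (_ : i ∈ univ) => sum_le_sum fun j (_ : j ∈ univ) => key i j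
    have k3 := bil hJ s fun j => sp (x j) * p j
    have k4 : ∑ i, s i ^ 2 ≤ ∑ i, p i ^ 2 := sum_le_sum fun i _ => by
      simp only [hs, mul_pow, sp_abs, mul_one]
      have := c0 i x
      have := c1 i x
      refine mul_le_of_le_one_left (sq_nonneg _) (mul_le_one₀ ?_ (sq_nonneg _) ?_) <;> nlinarith
    have k5 : ∑ i, ∑ j, J i j ^ 2 * p i ^ 2 ≤ l / 2 * ∑ i, p i ^ 2 := by
      rw [mul_sum]
      exact sum_le_sum fun i _ => by rw [← sum_mul]; exact mul_le_mul_of_nonneg_right (hJ.row i) (sq_nonneg _)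
    have k6 : ∑ i, ∑ j, J i j ^ 2 * p j ^ 2 = ∑ i, ∑ j, J i j ^ 2 * p i ^ 2 := by
      rw [sum_comm]
      exact sum_congr rfl fun i _ => sum_congr rfl fun j _ => by rw [hJ.symm]
    have k7 : L.mulVec (Gr g) x = ∑ i, ∑ j, cc (W J 0) i x * ((g (fl j (fl i x)) - g (fl i x)) ^ 2 - p j ^ 2) := by
      simp only [eq, Gr, ← sum_sub_distrib, mul_sum, hp]
    have k8 : ∑ j, p j * (L.mulVec g (fl j x) - L.mulVec g x) = ∑ i, ∑ j, p j *
        (cc (W J 0) i (fl j x) * (g (fl i (fl j x)) - g (fl j x)) - cc (W J 0) i x * p i) := by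
      rw [sum_comm]
      simp only [eq, ← sum_sub_distrib, mul_sum, hp]
    simp only [mul_pow, sp_abs, one_mul] at k3
    simp only [sum_sub_distrib, sum_neg_distrib, mul_assoc (720 : ℝ), mul_assoc (144 : ℝ), ← mul_sum (a := (720 : ℝ)),
      ← mul_sum (a := (144 : ℝ)), ← mul_sum (a := (8 : ℝ)), ← mul_sum (a := (2 : ℝ))] at k2
    change 0 ≤ 440 * l * ∑ j, p j ^ 2 + L.mulVec (Gr g) x - 2 * ∑ j, p j * (L.mulVec g (fl j x) - L.mulVec g x)
    rw [k7, k8]
    nlinarith [mul_le_mul_of_nonneg_left k4 l0]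
  · have e : ∀ a, sp (!a) = -sp a := fun a => by cases a <;> simp [sp]
    simp [W, e]

theorem good' {β : ℝ} (h0 : 0 ≤ β) : Tendsto (fun n : ℕ =>
    disorder n {g | ¬ Good (fun i j => β / √n * coup g i j) (4 * (β + 1) ^ 2) (1 / 4)}) atTop (𝓝 0) := by
  set ε := 1 / (4 * (β + 1)) with hε
  have ε0 : 0 < ε := by positivity
  have b : ε * (β + 1) = 1 / 4 := by rw [hε]; field_simp
  refine tendsto_of_tendsto_of_tendsto_of_le_of_le' tendsto_const_nhds (normStmt ε ε0)
    (.of_forall fun _ => zero_le) ?_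
  filter_upwards [eventually_gt_atTop 0] with n hn
  refine MeasureTheory.measure_mono fun g hg ⟨a1, a2, a3⟩ => hg ?_
  have s0 : 0 < √(n : ℝ) := by positivity
  have b0 : 0 ≤ β / √n := by positivity
  refine ⟨fun i j => by rw [coup_symm], fun i => by rw [coup_diag, mul_zero], fun y => ?_, fun i => ?_,
    fun i j => ?_⟩
  · simp only [mul_assoc (β / √n), ← mul_sum, abs_mul, abs_of_nonneg b0]
    refine (mul_le_mul_of_nonneg_left (a1 y) b0).trans ?_
    rw [show β / √n * ((2 + ε) * √n * ∑ i, y i ^ 2) = (2 + ε) * β * ∑ i, y i ^ 2 by field_simp]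
    exact mul_le_mul_of_nonneg_right (by nlinarith) (sum_nonneg fun _ _ => sq_nonneg _)
  · simp only [mul_pow, ← mul_sum]
    refine (mul_le_mul_of_nonneg_left (a2 i) (sq_nonneg _)).trans ?_
    rw [div_pow, Real.sq_sqrt (by positivity), show β ^ 2 / n * (2 * n) = 2 * β ^ 2 by field_simp]
    nlinarith
  · rw [abs_mul, abs_of_nonneg b0]
    refine (mul_le_mul_of_nonneg_left (a3 i j) b0).trans ?_
    rw [show β / √n * (ε * √n) = ε * β by field_simp]
    nlinarith

end Lw

open Lw in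
theorem slow {β : ℝ} (h0 : 0 ≤ β) : ∃ c : ℝ, 0 < c ∧ Tendsto (fun n : ℕ => disorder n
    {g | ¬ ∀ t : ℝ, 0 ≤ t → t ≤ c * Real.log n → ∃ x, 1 / 4 < tv β g t x}) atTop (𝓝 0) := by
  set K := 440 * (4 * (β + 1) ^ 2) + 9 with hK
  have K0 : 0 < K := by positivity
  refine ⟨1 / (2 * K), by positivity, tendsto_of_tendsto_of_tendsto_of_le_of_le' tendsto_const_nhds (good' h0)
    (.of_forall fun _ => zero_le) ?_⟩
  filter_upwards [eventually_gt_atTop 256] with n hn
  refine MeasureTheory.measure_mono fun g hg hG => hg fun t t0 ht => ?_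
  have n8 : (256 : ℝ) < n := by exact_mod_cast hn
  have h1 := gen_W hG le_rfl (by positivity) (L := gen β g) (by rw [← wt_eq]; exact gen_eq β g)
  have h2 : Real.exp (K * t) ^ 2 ≤ n := by
    rw [← Real.exp_nat_mul, ← Real.le_log_iff_exp_le (by linarith)]
    rw [div_mul_eq_mul_div, one_mul, le_div_iff₀ (by positivity)] at ht
    push_cast
    linarith
  have := lower h1 t0 (by rw [← hK]; nlinarith [sq_nonneg (Real.exp (K * t) - 16), Real.exp_pos (K * t)])
  rw [← wt_eq] at this
  exact this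

end Vale.Agent.P150
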