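import Vale.Agent.P150.Defs

/-! Interface between the modules. -/

namespace Vale.Agent.P150

open MeasureTheory Filter Topology Function

variable {n : ℕ}

/-- configurations -/
abbrev Cfg (n : ℕ) := Fin n → Bool

/-- conditional expectation given the spins off `i`, for the weight `w` -/
noncomputable def Q (w : Cfg n → ℝ) (i : Fin n) (f : Cfg n → ℝ) (x : Cfg n) : ℝ :=
  (w (update x i true) * f (update x i true) + w (update x i false) * f (update x i false)) /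
    (w (update x i true) + w (update x i false))

/-- entropy -/
noncomputable def Ent (w f : Cfg n → ℝ) : ℝ :=
  ∑ x, w x * f x * Real.log (f x / ((∑ y, w y * f y) / ∑ y, w y))

/-- sum of the one-site entropies -/
noncomputable def Loc (w f : Cfg n → ℝ) : ℝ := ∑ i, ∑ x, w x * f x * Real.log (f x / Q w i f x)

/-- Dirichlet form -/
noncomputable def Dir (w f : Cfg n → ℝ) : ℝ := ∑ i, ∑ x, w x * (f x - Q w i f x) ^ 2

/-- Ising weight -/
noncomputable def W (J : Fin n → Fin n → ℝ) (h : Fin n → ℝ) (x : Cfg n) : ℝ :=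
  Real.exp (1 / 2 * ∑ i, ∑ j, J i j * sp (x i) * sp (x j) + ∑ i, h i * sp (x i))

/-- admissible interactions -/
structure Good (J : Fin n → Fin n → ℝ) (l η : ℝ) : Prop where
  symm : ∀ i j, J i j = J j i
  diag : ∀ i, J i i = 0
  op : ∀ y : Fin n → ℝ, |∑ i, ∑ j, J i j * y i * y j| ≤ l * ∑ i, y i ^ 2
  row : ∀ i, ∑ j, J i j ^ 2 ≤ l / 2
  small : ∀ i j, |J i j| ≤ η

/-- Module G: the random matrix. -/
def NormStmt : Prop :=
  ∀ ε : ℝ, 0 < ε → Tendsto (fun n : ℕ => disorder n {g | ¬ (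
    (∀ y : Fin n → ℝ, |∑ i, ∑ j, coup g i j * y i * y j| ≤ (2 + ε) * √n * ∑ i, y i ^ 2) ∧
    (∀ i, ∑ j, coup g i j ^ 2 ≤ 2 * n) ∧ ∀ i j, |coup g i j| ≤ ε * √n)}) atTop (𝓝 0)

/-- Module M: tensorization of entropy gives mixing. -/
def MixStmt : Prop :=
  ∀ (n : ℕ) (w : Cfg n → ℝ) (L : Matrix (Cfg n) (Cfg n) ℝ) (C D t : ℝ), (∀ x, 0 < w x) → 1 ≤ C →
    (∀ f, L.mulVec f = fun x => ∑ i, (Q w i f x - f x)) →
    (∀ f, (∀ x, 0 < f x) → Ent w f ≤ C * Loc w f) → (∀ x, ∑ y, w y ≤ Real.exp D * w x) → 0 ≤ t →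
    ∀ x, ∑ y, |NormedSpace.exp (t • L) x y - w y / ∑ z, w z| ≤
      4 * √D * Real.exp (-(t / (2 * C)))

end Vale.Agent.P150
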